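import Vale.Agent.P154.GWDefs

namespace Vale.Agent.P154Q

open Vale.Agent.P154 (Shape pois gw)

/-- Leaf configurations of the rooted `d`-ary tree of depth `n` with spins in `Fin q`:
a single spin at depth `0`, and one configuration per child subtree at depth `n + 1`. -/
def Config (q d : ℕ) : ℕ → Type
  | 0 => Fin q
  | n + 1 => Fin d → Config q d n

instance Config.instFintype (q d : ℕ) : (n : ℕ) → Fintype (Config q d n)
  | 0 => inferInstanceAs (Fintype (Fin q))
  | n + 1 =>
    have := Config.instFintype q d n
    inferInstanceAs (Fintype (Fin d → Config q d n))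

/-- The `q`-state Potts channel `P_lam(j | i) = lam 1{i=j} + (1 - lam) / q`. -/
noncomputable def chan (q : ℕ) (lam : ℝ) (i j : Fin q) : ℝ :=
  lam * (if i = j then 1 else 0) + (1 - lam) / q

/-- `leafLaw q d lam n i c`: probability that the spins at depth `n` equal `c`, given root spin
`i`. Each child independently receives spin `j` with probability `chan q lam i j` and then
broadcasts. -/
noncomputable def leafLaw (q d : ℕ) (lam : ℝ) : (n : ℕ) → Fin q → Config q d n → ℝ
  | 0, i, c => if (show Fin q from c) = i then 1 else 0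
  | n + 1, i, c => ∏ k : Fin d, ∑ j : Fin q, chan q lam i j * leafLaw q d lam n j (c k)

/-- Probability of the leaf configuration `c` when the root spin is uniform. -/
noncomputable def marg (q d : ℕ) (lam : ℝ) (n : ℕ) (c : Config q d n) : ℝ :=
  ∑ i : Fin q, (1 / q) * leafLaw q d lam n i c

/-- Posterior probability of root spin `i` given the leaf configuration `c` (Bayes). -/
noncomputable def post (q d : ℕ) (lam : ℝ) (n : ℕ) (i : Fin q) (c : Config q d n) : ℝ :=
  (1 / q) * leafLaw q d lam n i c / marg q d lam n c

/-- `a_n = E [ (1/2) sum_i | Pr(root = i | leaves) - 1/q | ]` on the `d`-ary tree. -/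
noncomputable def aSeq (q d : ℕ) (lam : ℝ) (n : ℕ) : ℝ :=
  ∑ c : Config q d n, marg q d lam n c * ((1 / 2) * ∑ i : Fin q, |post q d lam n i c - 1 / q|)

/-- Spin configurations on the depth `n` vertices of a tree cut at depth `n`. -/
def Cfg (q : ℕ) : (n : ℕ) → Shape n → Type
  | 0, _ => Fin q
  | n + 1, ⟨k, t⟩ => (j : Fin k) → Cfg q n (t j)

instance Cfg.instFintype (q : ℕ) : (n : ℕ) → (T : Shape n) → Fintype (Cfg q n T)
  | 0, _ => inferInstanceAs (Fintype (Fin q))
  | n + 1, ⟨k, t⟩ =>
    have := fun j => Cfg.instFintype q n (t j)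
    inferInstanceAs (Fintype ((j : Fin k) → Cfg q n (t j)))

/-- `leafLawT q lam n T i c`: probability that the spins at depth `n` of the tree `T` equal `c`,
given root spin `i`. -/
noncomputable def leafLawT (q : ℕ) (lam : ℝ) : (n : ℕ) → (T : Shape n) → Fin q → Cfg q n T → ℝ
  | 0, _, i, c => if (show Fin q from c) = i then 1 else 0
  | n + 1, ⟨k, t⟩, i, c =>
    ∏ j : Fin k, ∑ s : Fin q, chan q lam i s * leafLawT q lam n (t j) s (c j)

/-- Probability of the configuration `c` on the tree `T` when the root spin is uniform. -/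
noncomputable def margT (q : ℕ) (lam : ℝ) (n : ℕ) (T : Shape n) (c : Cfg q n T) : ℝ :=
  ∑ i : Fin q, (1 / q) * leafLawT q lam n T i c

/-- Posterior probability of root spin `i` given the tree `T` and the configuration `c`. -/
noncomputable def postT (q : ℕ) (lam : ℝ) (n : ℕ) (T : Shape n) (i : Fin q) (c : Cfg q n T) : ℝ :=
  (1 / q) * leafLawT q lam n T i c / margT q lam n T c

/-- Expectation over the spins, on the fixed tree `T`, of the distance of the posterior from
uniform. -/
noncomputable def aT (q : ℕ) (lam : ℝ) (n : ℕ) (T : Shape n) : ℝ :=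
  ∑ c : Cfg q n T, margT q lam n T c * ((1 / 2) * ∑ i : Fin q, |postT q lam n T i c - 1 / q|)

/-- `a_n` for the Poisson(`d`) Galton-Watson tree: expectation over the tree and the spins. -/
noncomputable def aGW (q : ℕ) (d lam : ℝ) (n : ℕ) : ℝ := ∑' T : Shape n, gw d n T * aT q lam n T

end Vale.Agent.P154Q
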