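import Vale.Agent.P154.Q.GW
import Vale.Agent.P154.ConeFinal

namespace Vale.Agent.P154Q

open Finset

instance fact_two_le_three : Fact (2 ≤ 3) := ⟨by norm_num⟩

theorem aF_three {p : V 3} (hs : ∑ i, p i = 1) : aF p = Vale.Agent.P154.aF p := by
  unfold aF Vale.Agent.P154.aF
  rw [Fin.sum_univ_three] at hs ⊢
  have e : p 2 = 1 - p 0 - p 1 := by linarith
  rw [e]
  push_cast
  ring

theorem chanP_three (lam : ℝ) (p : V 3) : chanP lam p = Vale.Agent.P154.chanP lam p := by
  funext i
  unfold chanP Vale.Agent.P154.chanP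
  push_cast
  ring

theorem merge_sum {q : ℕ} {p r : V q} (h : ∑ j, p j * r j ≠ 0) : ∑ i, merge p r i = 1 := by
  unfold merge
  rw [← Finset.sum_div]
  exact div_self h

theorem avgM_three (f f' : V 3 → ℝ) (hf : ∀ p : V 3, ∑ i, p i = 1 → f p = f' p) {p r : V 3}
    (hp : InSimplex p) (hr : InSimplex r) :
    avgM f p r = (∑ s : Equiv.Perm (Fin 3), Vale.Agent.P154.Dm p (r ∘ s) *
      f' (Vale.Agent.P154.merge p (r ∘ s))) / 6 := by
  unfold avgM
  have e6 : ((Nat.factorial 3 : ℕ) : ℝ) = 6 := by norm_num [Nat.factorial]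
  rw [e6]
  congr 1
  refine Finset.sum_congr rfl fun s _ => ?_
  have hpos : ∑ j, p j * (r ∘ s) j ≠ 0 :=
    (Finset.sum_pos (fun j _ => mul_pos (hp.1 j) (hr.1 (s j))) ⟨0, Finset.mem_univ _⟩).ne'
  rw [hf _ (merge_sum hpos)]
  unfold Dm Vale.Agent.P154.Dm
  push_cast
  rfl

open Vale.Agent.P154 (oN gN chiF alF coneData_final) in
/-- the three-state instance of the generic cone data -/
theorem coneData3 : ConeData 3 oN gN chiF (fun p r => 1 / 2 * (alF p * alF r)) 1 1 where
  g_nonneg := coneData_final.g_nonneg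
  h_nonneg := coneData_final.h_nonneg
  Ga_nonneg := fun p r hp hr => by
    have h1 := Vale.Agent.P154.alF_nonneg hp
    have h2 := Vale.Agent.P154.alF_nonneg hr
    positivity
  chan := fun lam h0 h1 => ⟨lam ^ 3, by positivity, fun p hp => by
    rw [chanP_three]
    exact coneData_final.chan lam p h0 h1 hp.1 hp.2⟩
  delta := coneData_final.delta
  j1 := fun p r hp hr => by
    rw [avgM_three aF Vale.Agent.P154.aF (fun _ h => aF_three h) hp hr, aF_three hp.2,
      aF_three hr.2]
    have := coneData_final.j1 p r hp hr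
    unfold alF
    linarith
  j2 := fun p r hp hr => by
    rw [avgM_three oN oN (fun _ _ => rfl) hp hr]
    exact coneData_final.j2 p r hp hr
  gain := fun lam h0 h1 => ⟨1 / 2 * (lam ^ 2 * (1 - lam ^ 2)) ^ 2, by
      have : 0 < 1 - lam ^ 2 := by nlinarith
      positivity, fun p r hp hr => by
    have hl : 0 ≤ lam ^ 2 * (1 - lam ^ 2) := by
      have : 0 ≤ 1 - lam ^ 2 := by nlinarith
      positivity
    have key : ∀ p : V 3, InClosed p → 0 ≤ aF p ∧
        lam ^ 2 * (1 - lam ^ 2) * aF p ≤ alF (chanP lam p) := by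
      intro p hp
      have ha0 := aF_nonneg' hp.2
      have ha1 := aF_le_one' hp
      refine ⟨ha0, ?_⟩
      unfold alF
      rw [← aF_three (sum_chanP lam hp.2), aF_chanP lam hp.2]
      have h3 : 0 ≤ lam ^ 4 * (aF p * (1 - aF p)) := by
        have : 0 ≤ 1 - aF p := by linarith
        positivity
      nlinarith
    obtain ⟨a0, a1⟩ := key p hp
    obtain ⟨b0, b1⟩ := key r hr
    have := mul_le_mul a1 b1 (mul_nonneg hl b0) (le_trans (mul_nonneg hl a0) a1)
    rw [pow_one, pow_one]
    nlinarith⟩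

end Vale.Agent.P154Q
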