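import Vale.Agent.P154.Q.Regular
import Vale.Agent.P154.GWSurv

namespace Vale.Agent.P154Q

open Finset Filter Topology
open Vale.Agent.P154 (Shape pois gw mGW gw_nonneg hasSum_gw hasSum_cmul hasSum_pi hasSum_shape
  hasSum_gw_sum summable_gw_mul mGW_nonneg mGW_mono sq_mGW_le pois_pos surv surv_zero_or_one
  surv_nonneg surv_le_one surv_succ_le mGW_tendsto)

variable {q : ℕ} [hq : Fact (2 ≤ q)]

/-- likelihood vectors of the depth `n` configurations on the tree `T` -/
noncomputable def lkT (q : ℕ) (lam : ℝ) (n : ℕ) (T : Shape n) : Cfg q n T → V q :=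
  fun c i => leafLawT q lam n T i c

theorem lkT_succ (q : ℕ) (lam : ℝ) (n k : ℕ) (t : Fin k → Shape n) :
    lkT q lam (n + 1) ⟨k, t⟩ = pwD (fun j c => chanV lam (lkT q lam n (t j) c)) := rfl

variable {o g hh : V q → ℝ} {Ga : V q → V q → ℝ} {m₁ m₂ : ℕ}

theorem good0_lkT (D : ConeData q o g hh Ga m₁ m₂) {lam : ℝ} (h0 : 0 ≤ lam) (h1 : lam < 1) :
    ∀ (n : ℕ) (T : Shape n), Good0 (lkT q lam n T) ∧ 0 ≤ Ex (lkT q lam n T) o
  | 0, _ => ⟨good0_zero, Ex_zero_o D.delta⟩
  | n + 1, ⟨k, t⟩ => by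
    have ih := fun j => good0_lkT D h0 h1 n (t j)
    have hG := fun j => good_chan (ih j).1 h0 h1
    have hO := fun j => Ex_chan_o_nonneg D (ih j).1 (ih j).2 h0 h1
    rw [lkT_succ]
    exact ⟨(good_pwD hG).good0, Ex_pwD_o_nonneg D hG hO⟩

noncomputable def xT (q : ℕ) (lam : ℝ) (n : ℕ) (T : Shape n) : ℝ := Ex (lkT q lam n T) aF

/-- the tree-wise recursion -/
theorem xT_succ_le (D : ConeData q o g hh Ga m₁ m₂) {lam κ : ℝ} (h0 : 0 ≤ lam) (h1 : lam < 1)
    (hκ : 0 ≤ κ)
    (hgain : ∀ p r : V q, InClosed p → InClosed r →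
      κ * (aF p ^ m₁ * aF r ^ m₂) ≤ Ga (chanP lam p) (chanP lam r))
    (n k : ℕ) (t : Fin k → Shape n) :
    xT q lam (n + 1) ⟨k, t⟩ ≤ lam ^ 2 * ∑ j, xT q lam n (t j)
      - κ * (if k = 2 then ∏ j : Fin k, xT q lam n (t j) ^ (if (j : ℕ) = 0 then m₁ else m₂)
        else 0) := by
  have ih := fun j => good0_lkT D h0 h1 n (t j)
  have hG := fun j => good_chan (ih j).1 h0 h1
  have hO := fun j => Ex_chan_o_nonneg D (ih j).1 (ih j).2 h0 h1
  have hsum : ∑ j, Ex (fun c => chanV lam (lkT q lam n (t j) c)) aF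
      = lam ^ 2 * ∑ j, xT q lam n (t j) := by
    rw [Finset.mul_sum]
    exact Finset.sum_congr rfl fun j _ => Ex_chan_a (ih j).1 lam
  unfold xT at hsum ⊢
  rw [lkT_succ]
  split_ifs with hk
  · subst hk
    have key := Ex_pwD_two_a_le D hG hO
    rw [hsum] at key
    refine key.trans ?_
    have hγ := ExG_chan_ge (ih 0).1 (ih 1).1 hκ hgain
    rw [Fin.prod_univ_two]
    simp only [Fin.val_zero, Fin.val_one, if_true, one_ne_zero, if_false]
    linarith
  · have key := Ex_pwD_a_le D hG hO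
    rw [hsum] at key
    rw [mul_zero, sub_zero]
    exact key

theorem aT_eq (lam : ℝ) (n : ℕ) (T : Shape n) : aT q lam n T = Ex (lkT q lam n T) tvF := by
  unfold aT Ex tvF
  refine Finset.sum_congr rfl fun c _ => ?_
  have hq0 := q_ne (q := q)
  have e1 : margT q lam n T c = Zs (lkT q lam n T c) / q := by
    unfold margT Zs lkT
    rw [← Finset.mul_sum]
    ring
  have e2 : ∀ i, postT q lam n T i c = nrm (lkT q lam n T c) i := by
    intro i
    unfold postT nrm
    rw [e1]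
    show 1 / q * lkT q lam n T c i / (Zs (lkT q lam n T c) / q) = _
    rcases eq_or_ne (Zs (lkT q lam n T c)) 0 with hz | hz
    · simp [hz]
    · field_simp
  simp only [e1, e2]

/-! ### general facts for `0 ≤ lam ≤ 1` -/

theorem chan_nonneg {lam : ℝ} (h0 : 0 ≤ lam) (h1 : lam ≤ 1) (i j : Fin q) :
    0 ≤ chan q lam i j := by
  unfold chan
  have : 0 ≤ (1 - lam) / q := div_nonneg (by linarith) q_pos.le
  split_ifs
  · linarith
  · linarith

theorem chan_sum (lam : ℝ) (i : Fin q) : ∑ j, chan q lam i j = 1 := by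
  unfold chan
  rw [Finset.sum_add_distrib, ← Finset.mul_sum]
  simp only [Finset.sum_ite_eq, Finset.mem_univ, if_true, Finset.sum_const, Finset.card_univ,
    Fintype.card_fin, nsmul_eq_mul]
  have := q_ne (q := q)
  field_simp
  ring

theorem leafLawT_nonneg {lam : ℝ} (h0 : 0 ≤ lam) (h1 : lam ≤ 1) :
    ∀ (n : ℕ) (T : Shape n) (i : Fin q) (c : Cfg q n T), 0 ≤ leafLawT q lam n T i c
  | 0, _, i, c => by
    show 0 ≤ (if (show Fin q from c) = i then (1 : ℝ) else 0)
    split_ifs <;> norm_num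
  | n + 1, ⟨k, t⟩, i, c =>
    Finset.prod_nonneg fun j _ => Finset.sum_nonneg fun s _ =>
      mul_nonneg (chan_nonneg h0 h1 i s) (leafLawT_nonneg h0 h1 n (t j) s (c j))

theorem leafLawT_sum (lam : ℝ) :
    ∀ (n : ℕ) (T : Shape n) (i : Fin q), ∑ c, leafLawT q lam n T i c = 1
  | 0, _, i => by
    show ∑ c : Fin q, (if c = i then (1 : ℝ) else 0) = 1
    simp
  | n + 1, ⟨k, t⟩, i => by
    show ∑ c : (j : Fin k) → Cfg q n (t j),
      ∏ j : Fin k, ∑ s : Fin q, chan q lam i s * leafLawT q lam n (t j) s (c j) = 1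
    have h := Finset.prod_univ_sum (fun j : Fin k => (Finset.univ : Finset (Cfg q n (t j))))
      (fun j cj => ∑ s : Fin q, chan q lam i s * leafLawT q lam n (t j) s cj)
    rw [Fintype.piFinset_univ] at h
    rw [← h]
    refine Finset.prod_eq_one fun j _ => ?_
    rw [Finset.sum_comm]
    simp only [← Finset.mul_sum, leafLawT_sum lam n (t j), mul_one, chan_sum]

theorem margT_nonneg {lam : ℝ} (h0 : 0 ≤ lam) (h1 : lam ≤ 1) (n : ℕ) (T : Shape n)
    (c : Cfg q n T) : 0 ≤ margT q lam n T c :=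
  Finset.sum_nonneg fun i _ =>
    mul_nonneg (div_pos one_pos q_pos).le (leafLawT_nonneg h0 h1 n T i c)

theorem margT_sum (lam : ℝ) (n : ℕ) (T : Shape n) : ∑ c, margT q lam n T c = 1 := by
  unfold margT
  rw [Finset.sum_comm]
  simp only [← Finset.mul_sum, leafLawT_sum]
  simp [q_ne (q := q)]

theorem aT_nonneg {lam : ℝ} (h0 : 0 ≤ lam) (h1 : lam ≤ 1) (n : ℕ) (T : Shape n) :
    0 ≤ aT q lam n T :=
  Finset.sum_nonneg fun c _ => mul_nonneg (margT_nonneg h0 h1 n T c)
    (mul_nonneg (by norm_num) (Finset.sum_nonneg fun i _ => abs_nonneg _))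

theorem aT_le_one {lam : ℝ} (h0 : 0 ≤ lam) (h1 : lam ≤ 1) (n : ℕ) (T : Shape n) :
    aT q lam n T ≤ 1 := by
  rw [← margT_sum (q := q) lam n T]
  refine Finset.sum_le_sum fun c _ => ?_
  have hm := margT_nonneg h0 h1 n T c
  refine mul_le_of_le_one_right hm ?_
  have hq1 : (0 : ℝ) < 1 / q := div_pos one_pos q_pos
  have hp : ∀ i, 0 ≤ postT q lam n T i c := fun i =>
    div_nonneg (mul_nonneg hq1.le (leafLawT_nonneg h0 h1 n T i c)) hm
  have hs : ∑ i, postT q lam n T i c ≤ 1 := by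
    unfold postT
    rw [← Finset.sum_div]
    exact div_self_le_one _
  have hb : ∑ i : Fin q, |postT q lam n T i c - 1 / q| ≤
      ∑ i : Fin q, (postT q lam n T i c + 1 / q) :=
    Finset.sum_le_sum fun i _ => by
      rw [abs_le]
      constructor <;> linarith [hp i]
  rw [Finset.sum_add_distrib] at hb
  simp only [Finset.sum_const, Finset.card_univ, Fintype.card_fin, nsmul_eq_mul] at hb
  have e : (q : ℝ) * (1 / q) = 1 := by
    have := q_ne (q := q)
    field_simp
  rw [e] at hb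
  linarith

theorem leafLawT_const (lam : ℝ) : ∀ (n : ℕ) (T : Shape n), surv n T = 0 →
    ∀ (i i' : Fin q) (c : Cfg q n T), leafLawT q lam n T i c = leafLawT q lam n T i' c
  | 0, _, h, _, _, _ => absurd h one_ne_zero
  | n + 1, ⟨k, t⟩, h, i, i', c => by
    have hall : ∀ j, surv n (t j) = 0 := by
      intro j
      refine (surv_zero_or_one n (t j)).resolve_right fun hj => ?_
      have h' : 1 - ∏ j : Fin k, (1 - surv n (t j)) = 0 := h
      rw [Finset.prod_eq_zero (Finset.mem_univ j) (by rw [hj]; ring)] at h'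
      norm_num at h'
    show ∏ j : Fin k, ∑ s : Fin q, chan q lam i s * leafLawT q lam n (t j) s (c j) =
      ∏ j : Fin k, ∑ s : Fin q, chan q lam i' s * leafLawT q lam n (t j) s (c j)
    refine Finset.prod_congr rfl fun j _ => ?_
    have e : ∀ s, leafLawT q lam n (t j) s (c j) = leafLawT q lam n (t j) i (c j) := fun s =>
      leafLawT_const lam n (t j) (hall j) s i (c j)
    simp only [e, ← Finset.sum_mul, chan_sum]

theorem aT_eq_zero (lam : ℝ) (n : ℕ) (T : Shape n) (h : surv n T = 0) : aT q lam n T = 0 := by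
  refine Finset.sum_eq_zero fun c _ => ?_
  have i0 : Fin q := ⟨0, by have := hq.out; omega⟩
  have e : ∀ i, leafLawT q lam n T i c = leafLawT q lam n T i0 c := fun i =>
    leafLawT_const lam n T h i i0 c
  have hq0 := q_ne (q := q)
  have hm : margT q lam n T c = leafLawT q lam n T i0 c := by
    unfold margT
    simp only [e]
    simp [hq0]
  rcases eq_or_ne (leafLawT q lam n T i0 c) 0 with hz | hz
  · rw [hm, hz, zero_mul]
  · have hp : ∀ i, postT q lam n T i c = 1 / q := by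
      intro i
      unfold postT
      rw [hm, e i]
      field_simp
    simp [hp]

theorem aT_le_surv {lam : ℝ} (h0 : 0 ≤ lam) (h1 : lam ≤ 1) (n : ℕ) (T : Shape n) :
    aT q lam n T ≤ surv n T := by
  rcases surv_zero_or_one n T with h | h
  · rw [h, aT_eq_zero lam n T h]
  · rw [h]
    exact aT_le_one h0 h1 n T

/-- extinction: for `d ≤ 1` nothing can be reconstructed, whatever the channel -/
theorem gw_nonreconstruction_ext {d lam : ℝ} (hd : 0 < d) (hd1 : d ≤ 1) (h0 : 0 ≤ lam)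
    (h1 : lam ≤ 1) : Tendsto (aGW q d lam) atTop (𝓝 0) := by
  have hs : Tendsto (fun n => mGW d n (surv n)) atTop (𝓝 0) :=
    mGW_tendsto hd one_pos surv_nonneg surv_le_one surv_succ_le (by linarith)
  refine squeeze_zero (fun n => mGW_nonneg hd.le (aT_nonneg h0 h1 n)) (fun n => ?_) hs
  exact mGW_mono hd.le (aT_nonneg h0 h1 n) (aT_le_surv h0 h1 n) (surv_le_one n)

/-! ### averaging over the tree -/

theorem pow_tangent {x X : ℝ} (hx : 0 ≤ x) (hX : 0 ≤ X) (m : ℕ) :
    X ^ (m + 1) + (m + 1) * X ^ m * (x - X) ≤ x ^ (m + 1) := by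
  induction m with
  | zero => simp
  | succ m ih =>
    have h1 := mul_le_mul_of_nonneg_left ih hx
    have h2 : 0 ≤ ((m : ℝ) + 1) * X ^ m * (x - X) ^ 2 := by positivity
    push_cast
    calc X ^ (m + 1 + 1) + ((m : ℝ) + 1 + 1) * X ^ (m + 1) * (x - X)
        = x * (X ^ (m + 1) + (m + 1) * X ^ m * (x - X))
          - ((m : ℝ) + 1) * X ^ m * (x - X) ^ 2 := by ring
      _ ≤ x * (X ^ (m + 1) + (m + 1) * X ^ m * (x - X)) := by linarith
      _ ≤ x * x ^ (m + 1) := h1
      _ = x ^ (m + 1 + 1) := by ring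

theorem pow_mGW_le {d : ℝ} (hd : 0 ≤ d) {n : ℕ} {x : Shape n → ℝ} (hx0 : ∀ T, 0 ≤ x T)
    (hx1 : ∀ T, x T ≤ 1) (m : ℕ) : (mGW d n x) ^ m ≤ mGW d n (fun T => x T ^ m) := by
  rcases m with _ | m
  · simp only [pow_zero]
    unfold mGW
    simp only [mul_one]
    rw [(hasSum_gw hd n).tsum_eq]
  · have sx := (summable_gw_mul hd hx0 hx1).hasSum
    have sp := (summable_gw_mul hd (h := fun T => x T ^ (m + 1)) (fun T => pow_nonneg (hx0 T) _)
      (fun T => pow_le_one₀ (hx0 T) (hx1 T))).hasSum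
    have s1 := hasSum_gw hd n
    have hX := mGW_nonneg hd hx0
    have s := (hasSum_cmul s1 ((mGW d n x) ^ (m + 1))).add
      (hasSum_cmul (sx.sub (hasSum_cmul s1 (mGW d n x))) ((m + 1) * (mGW d n x) ^ m))
    have key := hasSum_le (fun T => ?_) s sp
    · have e : (mGW d n x) ^ (m + 1) * 1 + ((m : ℝ) + 1) * (mGW d n x) ^ m *
          ((∑' T, gw d n T * x T) - mGW d n x * 1) = (mGW d n x) ^ (m + 1) := by
        unfold mGW
        ring
      rw [e] at key
      exact key
    · have := mul_le_mul_of_nonneg_left (pow_tangent (hx0 T) hX m) (gw_nonneg hd n T)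
      calc _ = gw d n T * ((mGW d n x) ^ (m + 1) + (m + 1) * (mGW d n x) ^ m *
            (x T - mGW d n x)) := by ring
        _ ≤ _ := this

theorem hasSum_gw_two_pow {d : ℝ} (hd : 0 ≤ d) {n : ℕ} {x : Shape n → ℝ} {X₁ X₂ : ℝ}
    (hx : ∀ T, 0 ≤ x T) (h₁ : HasSum (fun T => gw d n T * x T ^ m₁) X₁)
    (h₂ : HasSum (fun T => gw d n T * x T ^ m₂) X₂) :
    HasSum (fun T : Shape (n + 1) => gw d (n + 1) T *
      (if T.1 = 2 then ∏ j : Fin T.1, x (T.2 j) ^ (if (j : ℕ) = 0 then m₁ else m₂) else 0))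
      (pois d 2 * (X₁ * X₂)) := by
  refine hasSum_shape (G := fun k => if k = 2 then pois d 2 * (X₁ * X₂) else 0)
    (fun T => mul_nonneg (gw_nonneg hd (n + 1) T) (by
      split_ifs
      · exact Finset.prod_nonneg fun j _ => pow_nonneg (hx _) _
      · exact le_rfl))
    (fun k => ?_) (hasSum_ite_eq 2 _)
  show HasSum (fun t : Fin k → Shape n => pois d k * (∏ j, gw d n (t j)) *
    (if k = 2 then ∏ j : Fin k, x (t j) ^ (if (j : ℕ) = 0 then m₁ else m₂) else 0)) _
  split_ifs with hk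
  · subst hk
    have h := hasSum_cmul (hasSum_pi
      (fun (j : Fin 2) s => gw d n s * x s ^ (if (j : ℕ) = 0 then m₁ else m₂))
      (fun j => if (j : ℕ) = 0 then X₁ else X₂)
      (fun _ s => mul_nonneg (gw_nonneg hd n s) (pow_nonneg (hx s) _))
      (fun j => by
        split_ifs
        · exact h₁
        · exact h₂)) (pois d 2)
    simp only [Finset.prod_mul_distrib] at h
    rw [Fin.prod_univ_two (fun j : Fin 2 => if (j : ℕ) = 0 then X₁ else X₂)] at h
    simp only [Fin.val_zero, Fin.val_one, if_true, one_ne_zero, if_false] at h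
    simp only [mul_assoc]
    exact h
  · simp only [mul_zero]
    exact hasSum_zero

theorem mGW_rec_pow {d : ℝ} (hd : 0 ≤ d) {x : (n : ℕ) → Shape n → ℝ} {mu ga : ℝ} (hga : 0 ≤ ga)
    (hx0 : ∀ n T, 0 ≤ x n T) (hx1 : ∀ n T, x n T ≤ 1)
    (hrec : ∀ (n k : ℕ) (t : Fin k → Shape n), x (n + 1) ⟨k, t⟩ ≤ mu * ∑ j, x n (t j)
      - ga * (if k = 2 then ∏ j : Fin k, x n (t j) ^ (if (j : ℕ) = 0 then m₁ else m₂) else 0))
    (n : ℕ) :
    mGW d (n + 1) (x (n + 1)) ≤ d * mu * mGW d n (x n)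
      - ga * pois d 2 * (mGW d n (x n)) ^ (m₁ + m₂) := by
  have hX := (summable_gw_mul hd (hx0 n) (hx1 n)).hasSum
  have hX' := (summable_gw_mul hd (hx0 (n + 1)) (hx1 (n + 1))).hasSum
  have hp : ∀ m : ℕ, HasSum (fun T => gw d n T * x n T ^ m) (mGW d n (fun T => x n T ^ m)) :=
    fun m => (summable_gw_mul hd (h := fun T => x n T ^ m) (fun T => pow_nonneg (hx0 n T) _)
      (fun T => pow_le_one₀ (hx0 n T) (hx1 n T))).hasSum
  have s1 := hasSum_cmul (hasSum_gw_sum hd (hx0 n) hX) mu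
  have s2 := hasSum_cmul (hasSum_gw_two_pow hd (hx0 n) (hp m₁) (hp m₂)) ga
  have s3 := s1.sub s2
  have key := hasSum_le (fun T => ?_) hX' s3
  · have j1 := pow_mGW_le hd (hx0 n) (hx1 n) m₁
    have j2 := pow_mGW_le hd (hx0 n) (hx1 n) m₂
    have hXn := mGW_nonneg hd (hx0 n)
    have j3 : (mGW d n (x n)) ^ (m₁ + m₂) ≤
        mGW d n (fun T => x n T ^ m₁) * mGW d n (fun T => x n T ^ m₂) := by
      rw [pow_add]
      exact mul_le_mul j1 j2 (pow_nonneg hXn _) (le_trans (pow_nonneg hXn _) j1)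
    have j4 := mul_le_mul_of_nonneg_left j3
      (mul_nonneg hga (Vale.Agent.P154.pois_nonneg hd 2))
    have e : mGW d (n + 1) (x (n + 1)) ≤ mu * (d * mGW d n (x n)) - ga * (pois d 2 *
        (mGW d n (fun T => x n T ^ m₁) * mGW d n (fun T => x n T ^ m₂))) := key
    calc _ ≤ _ := e
      _ ≤ _ := by linarith
  · obtain ⟨k, t⟩ := T
    have := mul_le_mul_of_nonneg_left (hrec n k t) (gw_nonneg hd (n + 1) ⟨k, t⟩)
    calc _ ≤ _ := this
      _ = _ := by ring

/-- nonreconstruction on the Poisson Galton-Watson tree for `lam < 1` -/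
theorem gw_nonreconstruction_lt (D : ConeData q o g hh Ga m₁ m₂) {d lam : ℝ} (hd : 0 < d)
    (h0 : 0 ≤ lam) (h1 : lam < 1) (hKS : d * lam ^ 2 ≤ 1) :
    Tendsto (aGW q d lam) atTop (𝓝 0) := by
  have hgood := fun n T => (good0_lkT D h0 h1 n T).1
  have hx0 : ∀ n T, 0 ≤ xT q lam n T := fun n T => Ex_a_nonneg (hgood n T)
  have hx1 : ∀ n T, xT q lam n T ≤ 1 := fun n T => Ex_a_le_one (hgood n T)
  have ha0 := aT_nonneg (q := q) h0 h1.le
  have ha1 := aT_le_one (q := q) h0 h1.le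
  have hsq : ∀ n T, (aT q lam n T) ^ 2 ≤ ((q : ℝ) - 1) / 4 * xT q lam n T := fun n T => by
    rw [aT_eq]
    exact sq_Ex_tv_le (hgood n T)
  have hx : Tendsto (fun n => mGW d n (xT q lam n)) atTop (𝓝 0) := by
    rcases eq_or_lt_of_le h0 with hz | hpos
    · have hrec := xT_succ_le D (κ := 0) h0 h1 le_rfl (fun p r _ _ => by
        rw [zero_mul]
        have hp : InSimplex (chanP lam p) := by
          refine ⟨fun i => ?_, sum_chanP lam ‹InClosed p›.2⟩
          rw [← hz]
          simp only [chanP, zero_mul, zero_add, sub_zero]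
          exact div_pos one_pos q_pos
        have hr : InSimplex (chanP lam r) := by
          refine ⟨fun i => ?_, sum_chanP lam ‹InClosed r›.2⟩
          rw [← hz]
          simp only [chanP, zero_mul, zero_add, sub_zero]
          exact div_pos one_pos q_pos
        exact D.Ga_nonneg _ _ hp hr)
      have : ∀ n, mGW d (n + 1) (xT q lam (n + 1)) = 0 := by
        intro n
        have h2 := mGW_rec_pow hd.le le_rfl hx0 hx1 hrec n
        have h3 : lam ^ 2 = 0 := by rw [← hz]; norm_num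
        rw [h3] at h2
        simp only [mul_zero, zero_mul, sub_zero] at h2
        exact le_antisymm h2 (mGW_nonneg hd.le (hx0 _))
      rw [← tendsto_add_atTop_iff_nat 1]
      simp only [this]
      exact tendsto_const_nhds
    · obtain ⟨κ, hκ, hgain⟩ := D.gain lam hpos h1
      have hrec := xT_succ_le D h0 h1 hκ.le hgain
      refine tendsto_zero_of_rec_pow (c := κ * pois d 2) (m := m₁ + m₂)
        (mul_pos hκ (pois_pos hd 2)) (fun n => mGW_nonneg hd.le (hx0 n)) fun n => ?_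
      have h2 := mGW_rec_pow hd.le hκ.le hx0 hx1 hrec n
      have h3 := mul_le_mul_of_nonneg_right hKS (mGW_nonneg hd.le (hx0 n))
      linarith
  refine tendsto_of_sq_le (C := ((q : ℝ) - 1) / 4) (fun n => mGW_nonneg hd.le (ha0 n))
    (fun n => ?_) hx
  have s1 := sq_mGW_le hd.le (ha0 n) (ha1 n) (y := fun T => (aT q lam n T) ^ 2)
    (fun T => pow_le_one₀ (ha0 n T) (ha1 n T)) (fun T => le_rfl)
  refine s1.trans ?_
  have sa := (summable_gw_mul hd.le (h := fun T => (aT q lam n T) ^ 2)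
    (fun T => sq_nonneg _) (fun T => pow_le_one₀ (ha0 n T) (ha1 n T))).hasSum
  have sx := hasSum_cmul (summable_gw_mul hd.le (hx0 n) (hx1 n)).hasSum (((q : ℝ) - 1) / 4)
  refine hasSum_le (fun T => ?_) sa sx
  have := mul_le_mul_of_nonneg_left (hsq n T) (gw_nonneg hd.le n T)
  linarith

/-- nonreconstruction on the Poisson Galton-Watson tree, all admissible ferromagnetic `lam` -/
theorem gw_nonreconstruction (D : ConeData q o g hh Ga m₁ m₂) {d lam : ℝ} (hd : 0 < d)
    (h0 : 0 ≤ lam) (h1 : lam ≤ 1) (hKS : d * lam ^ 2 ≤ 1) :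
    (∀ n, Summable fun T => gw d n T * aT q lam n T) ∧ Tendsto (aGW q d lam) atTop (𝓝 0) := by
  refine ⟨fun n => summable_gw_mul hd.le (aT_nonneg h0 h1 n) (aT_le_one h0 h1 n), ?_⟩
  rcases eq_or_lt_of_le h1 with h | h
  · subst h
    exact gw_nonreconstruction_ext hd (by linarith) h0 le_rfl
  · exact gw_nonreconstruction_lt D hd h0 h hKS

end Vale.Agent.P154Q
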