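import Vale.Agent.P154.Q.RegularA
import Vale.Agent.P154.Q.GW

namespace Vale.Agent.P154Q

open Finset Filter Topology
open Vale.Agent.P154 (Shape pois gw mGW gw_nonneg hasSum_gw hasSum_cmul hasSum_pi hasSum_shape
  hasSum_gw_sum summable_gw_mul mGW_nonneg mGW_mono sq_mGW_le pois_pos surv surv_zero_or_one
  surv_nonneg surv_le_one surv_succ_le mGW_tendsto)

variable {q : ℕ} [hq : Fact (2 ≤ q)]

variable {L : ℝ} {o oc g1 g2 h1 h2 : V q → ℝ} {c1 c2 : ℝ} {Ga : V q → V q → ℝ} {m₁ m₂ : ℕ}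

theorem good0A_lkT (D : ConeDataA q L o oc g1 g2 h1 h2 c1 c2 Ga m₁ m₂) {lam : ℝ} (h0 : 0 ≤ lam)
    (hl : lam < L) :
    ∀ (n : ℕ) (T : Shape n), Good0 (lkT q lam n T) ∧ 0 ≤ Ex (lkT q lam n T) o
  | 0, _ => ⟨good0_zero, Ex_zero_o D.delta⟩
  | n + 1, ⟨k, t⟩ => by
    have ih := fun j => good0A_lkT D h0 hl n (t j)
    have hG := fun j => goodC_chan D.L_lt (ih j).1 h0 hl
    have hO := fun j => ExA_chan_oc_nonneg D (ih j).1 (ih j).2 h0 hl
    rw [lkT_succ]
    exact ⟨(good_pwD fun j => (hG j).good).good0, ExA_pwD_o_nonneg D hG hO⟩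

/-- the tree-wise recursion -/
theorem xTA_succ_le (D : ConeDataA q L o oc g1 g2 h1 h2 c1 c2 Ga m₁ m₂) {lam κ : ℝ}
    (h0 : 0 ≤ lam) (hl : lam < L) (hκ : 0 ≤ κ)
    (hgain : ∀ p r : V q, InClosed p → InClosed r →
      κ * (aF p ^ m₁ * aF r ^ m₂) ≤ Ga (chanP lam p) (chanP lam r))
    (n k : ℕ) (t : Fin k → Shape n) :
    xT q lam (n + 1) ⟨k, t⟩ ≤ lam ^ 2 * ∑ j, xT q lam n (t j)
      - κ * (if k = 2 then ∏ j : Fin k, xT q lam n (t j) ^ (if (j : ℕ) = 0 then m₁ else m₂)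
        else 0) := by
  have ih := fun j => good0A_lkT D h0 hl n (t j)
  have hG := fun j => goodC_chan D.L_lt (ih j).1 h0 hl
  have hO := fun j => ExA_chan_oc_nonneg D (ih j).1 (ih j).2 h0 hl
  have hsum : ∑ j, Ex (fun c => chanV lam (lkT q lam n (t j) c)) aF
      = lam ^ 2 * ∑ j, xT q lam n (t j) := by
    rw [Finset.mul_sum]
    exact Finset.sum_congr rfl fun j _ => Ex_chan_a (ih j).1 lam
  unfold xT at hsum ⊢
  rw [lkT_succ]
  split_ifs with hk
  · subst hk
    have key := ExA_pwD_two_a_le D hG hO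
    rw [hsum] at key
    refine key.trans ?_
    have hγ := ExG_chan_ge (ih 0).1 (ih 1).1 hκ hgain
    rw [Fin.prod_univ_two]
    simp only [Fin.val_zero, Fin.val_one, if_true, one_ne_zero, if_false]
    linarith
  · have key := ExA_pwD_a_le D hG hO
    rw [hsum] at key
    rw [mul_zero, sub_zero]
    exact key

/-- nonreconstruction on the Poisson Galton-Watson tree for `lam < L` -/
theorem gw_nonreconstructionA (D : ConeDataA q L o oc g1 g2 h1 h2 c1 c2 Ga m₁ m₂) {d lam : ℝ}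
    (hd : 0 < d) (h0 : 0 ≤ lam) (hl : lam < L) (hKS : d * lam ^ 2 ≤ 1) :
    (∀ n, Summable fun T => gw d n T * aT q lam n T) ∧ Tendsto (aGW q d lam) atTop (𝓝 0) := by
  have h1 : lam < 1 := hl.trans D.L_lt
  refine ⟨fun n => summable_gw_mul hd.le (aT_nonneg h0 h1.le n) (aT_le_one h0 h1.le n), ?_⟩
  have hgood := fun n T => (good0A_lkT D h0 hl n T).1
  have hx0 : ∀ n T, 0 ≤ xT q lam n T := fun n T => Ex_a_nonneg (hgood n T)
  have hx1 : ∀ n T, xT q lam n T ≤ 1 := fun n T => Ex_a_le_one (hgood n T)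
  have ha0 := aT_nonneg (q := q) h0 h1.le
  have ha1 := aT_le_one (q := q) h0 h1.le
  have hsq : ∀ n T, (aT q lam n T) ^ 2 ≤ ((q : ℝ) - 1) / 4 * xT q lam n T := fun n T => by
    rw [aT_eq]
    exact sq_Ex_tv_le (hgood n T)
  have hx : Tendsto (fun n => mGW d n (xT q lam n)) atTop (𝓝 0) := by
    rcases eq_or_lt_of_le h0 with hz | hpos
    · have hrec := xTA_succ_le D (κ := 0) h0 hl le_rfl (fun p r hp hr => by
        rw [zero_mul]
        exact D.Ga_nonneg _ _ ((chanP_inChild h0 hl hp).simplex D.L_lt) (chanP_inChild h0 hl hr))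
      have : ∀ n, mGW d (n + 1) (xT q lam (n + 1)) = 0 := by
        intro n
        have h2 := mGW_rec_pow hd.le le_rfl hx0 hx1 hrec n
        have h3 : lam ^ 2 = 0 := by rw [← hz]; norm_num
        rw [h3] at h2
        simp only [mul_zero, zero_mul, sub_zero] at h2
        exact le_antisymm h2 (mGW_nonneg hd.le (hx0 _))
      rw [← tendsto_add_atTop_iff_nat 1]
      simp only [this]
      exact tendsto_const_nhds
    · obtain ⟨κ, hκ, hgain⟩ := D.gain lam hpos hl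
      have hrec := xTA_succ_le D h0 hl hκ.le hgain
      refine tendsto_zero_of_rec_pow (c := κ * pois d 2) (m := m₁ + m₂)
        (mul_pos hκ (pois_pos hd 2)) (fun n => mGW_nonneg hd.le (hx0 n)) fun n => ?_
      have h2 := mGW_rec_pow hd.le hκ.le hx0 hx1 hrec n
      have h3 := mul_le_mul_of_nonneg_right hKS (mGW_nonneg hd.le (hx0 n))
      linarith
  refine tendsto_of_sq_le (C := ((q : ℝ) - 1) / 4) (fun n => mGW_nonneg hd.le (ha0 n))
    (fun n => ?_) hx
  have s1 := sq_mGW_le hd.le (ha0 n) (ha1 n) (y := fun T => (aT q lam n T) ^ 2)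
    (fun T => pow_le_one₀ (ha0 n T) (ha1 n T)) (fun T => le_rfl)
  refine s1.trans ?_
  have sa := (summable_gw_mul hd.le (h := fun T => (aT q lam n T) ^ 2)
    (fun T => sq_nonneg _) (fun T => pow_le_one₀ (ha0 n T) (ha1 n T))).hasSum
  have sx := hasSum_cmul (summable_gw_mul hd.le (hx0 n) (hx1 n)).hasSum (((q : ℝ) - 1) / 4)
  refine hasSum_le (fun T => ?_) sa sx
  have := mul_le_mul_of_nonneg_left (hsq n T) (gw_nonneg hd.le n T)
  linarith

end Vale.Agent.P154Q
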