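import Vale.Agent.P154.Q.Tree

namespace Vale.Agent.P154Q

open Finset Filter Topology

variable {q : ℕ} [hq : Fact (2 ≤ q)]

/-- likelihood vectors of the leaf configurations of the depth `n` tree -/
noncomputable def lk (q d : ℕ) (lam : ℝ) (n : ℕ) : Config q d n → V q :=
  fun c i => leafLaw q d lam n i c

theorem lk_succ (q d : ℕ) (lam : ℝ) (n : ℕ) :
    lk q d lam (n + 1) = pwD (fun (_ : Fin d) c => chanV lam (lk q d lam n c)) := rfl

theorem lk_zero (q d : ℕ) (lam : ℝ) : lk q d lam 0 = lk0 q := rfl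

variable {o g hh : V q → ℝ} {Ga : V q → V q → ℝ} {m₁ m₂ : ℕ}

theorem Ex_chan_o_nonneg (D : ConeData q o g hh Ga m₁ m₂) {X : Type} [Fintype X] {l : X → V q}
    (h : Good0 l) (ho : 0 ≤ Ex l o) {lam : ℝ} (h0 : 0 ≤ lam) (h1 : lam < 1) :
    0 ≤ Ex (fun x => chanV lam (l x)) o := by
  obtain ⟨κ, hκ, hch⟩ := D.chan lam h0 h1
  exact le_trans (mul_nonneg hκ ho) (Ex_chan_o h hch)

theorem good0_lk (D : ConeData q o g hh Ga m₁ m₂) (d : ℕ) {lam : ℝ} (h0 : 0 ≤ lam)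
    (h1 : lam < 1) : ∀ n, Good0 (lk q d lam n) ∧ 0 ≤ Ex (lk q d lam n) o
  | 0 => ⟨good0_zero, Ex_zero_o D.delta⟩
  | n + 1 => by
    obtain ⟨hg, ho⟩ := good0_lk D d h0 h1 n
    have hG := good_chan hg h0 h1
    have hO := Ex_chan_o_nonneg D hg ho h0 h1
    rw [lk_succ]
    exact ⟨(good_pwD fun _ => hG).good0, Ex_pwD_o_nonneg D (fun _ => hG) (fun _ => hO)⟩

noncomputable def xs (q d : ℕ) (lam : ℝ) (n : ℕ) : ℝ := Ex (lk q d lam n) aF

theorem xs_succ_le_lin (D : ConeData q o g hh Ga m₁ m₂) (d : ℕ) {lam : ℝ} (h0 : 0 ≤ lam)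
    (h1 : lam < 1) (n : ℕ) : xs q d lam (n + 1) ≤ d * lam ^ 2 * xs q d lam n := by
  obtain ⟨hg, ho⟩ := good0_lk D d h0 h1 n
  have hG := good_chan hg h0 h1
  have hO := Ex_chan_o_nonneg D hg ho h0 h1
  have key := Ex_pwD_a_le D (k := d) (fun _ => hG) (fun _ => hO)
  unfold xs
  rw [lk_succ]
  refine key.trans (le_of_eq ?_)
  simp only [Finset.sum_const, Finset.card_univ, Fintype.card_fin, nsmul_eq_mul, Ex_chan_a hg]
  ring

theorem xs_succ_le (D : ConeData q o g hh Ga m₁ m₂) (m : ℕ) {lam κ : ℝ} (h0 : 0 ≤ lam)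
    (h1 : lam < 1) (hκ : 0 ≤ κ)
    (hgain : ∀ p r : V q, InClosed p → InClosed r →
      κ * (aF p ^ m₁ * aF r ^ m₂) ≤ Ga (chanP lam p) (chanP lam r)) (n : ℕ) :
    xs q (m + 2) lam (n + 1) ≤ ((m + 2 : ℕ) : ℝ) * lam ^ 2 * xs q (m + 2) lam n
      - κ * (xs q (m + 2) lam n) ^ (m₁ + m₂) := by
  obtain ⟨hg, ho⟩ := good0_lk D (m + 2) h0 h1 n
  have hG := good_chan hg h0 h1
  have hO := Ex_chan_o_nonneg D hg ho h0 h1
  have hγ := ExG_chan_ge hg hg hκ hgain
  have key := Ex_pwD_a_le_gain D (m := m) (fun _ => hG) (fun _ => hO) (fun _ _ _ => hγ)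
  unfold xs
  rw [lk_succ]
  refine key.trans (le_of_eq ?_)
  simp only [Finset.sum_const, Finset.card_univ, Fintype.card_fin, nsmul_eq_mul, Ex_chan_a hg]
  ring

theorem tendsto_zero_of_rec_pow {x : ℕ → ℝ} {c : ℝ} {m : ℕ} (hc : 0 < c) (h0 : ∀ n, 0 ≤ x n)
    (h : ∀ n, x (n + 1) ≤ x n - c * (x n) ^ m) : Tendsto x atTop (𝓝 0) := by
  have hanti : Antitone x := antitone_nat_of_succ_le fun n => by
    have := h n
    have h2 : 0 ≤ c * (x n) ^ m := mul_nonneg hc.le (pow_nonneg (h0 n) m)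
    linarith
  have hbdd : BddBelow (Set.range x) := ⟨0, by rintro _ ⟨n, rfl⟩; exact h0 n⟩
  have hlim := tendsto_atTop_ciInf hanti hbdd
  obtain ⟨L, hL⟩ : ∃ L, L = ⨅ i, x i := ⟨_, rfl⟩
  rw [← hL] at hlim
  have hL0 : 0 ≤ L := ge_of_tendsto' hlim h0
  have h1 : Tendsto (fun n => x (n + 1)) atTop (𝓝 L) := (tendsto_add_atTop_iff_nat 1).2 hlim
  have h2 : Tendsto (fun n => x n - c * (x n) ^ m) atTop (𝓝 (L - c * L ^ m)) :=
    hlim.sub ((hlim.pow m).const_mul c)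
  have h3 : L ≤ L - c * L ^ m := le_of_tendsto_of_tendsto' h1 h2 h
  have h4 : L ^ m ≤ 0 := by nlinarith
  have h5 : L ^ m = 0 := le_antisymm h4 (pow_nonneg hL0 m)
  have h6 : L = 0 := by
    by_contra hne
    exact (pow_ne_zero m hne) h5
  rwa [h6] at hlim

theorem aSeq_eq (d : ℕ) (lam : ℝ) (n : ℕ) : aSeq q d lam n = Ex (lk q d lam n) tvF := by
  unfold aSeq Ex tvF
  refine Finset.sum_congr rfl fun c _ => ?_
  have hq0 := q_ne (q := q)
  have e1 : marg q d lam n c = Zs (lk q d lam n c) / q := by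
    unfold marg Zs lk
    rw [← Finset.mul_sum]
    ring
  have e2 : ∀ i, post q d lam n i c = nrm (lk q d lam n c) i := by
    intro i
    unfold post nrm
    rw [e1]
    show 1 / q * lk q d lam n c i / (Zs (lk q d lam n c) / q) = _
    rcases eq_or_ne (Zs (lk q d lam n c)) 0 with hz | hz
    · simp [hz]
    · field_simp
  simp only [e1, e2]

theorem tendsto_of_sq_le {a x : ℕ → ℝ} {C : ℝ} (ha : ∀ n, 0 ≤ a n)
    (h : ∀ n, (a n) ^ 2 ≤ C * x n) (hx : Tendsto x atTop (𝓝 0)) : Tendsto a atTop (𝓝 0) := by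
  have hs : Tendsto (fun n => Real.sqrt (C * x n)) atTop (𝓝 0) := by
    have h2 : Tendsto (fun n => C * x n) atTop (𝓝 0) := by
      simpa using hx.const_mul C
    have h3 := (Real.continuous_sqrt.tendsto 0).comp h2
    rw [Real.sqrt_zero] at h3
    exact h3
  exact squeeze_zero ha (fun n => Real.le_sqrt_of_sq_le (h n)) hs

/-- cone data imply nonreconstruction on every `d`-ary tree, `d ≥ 2`, up to and including the
Kesten-Stigum bound. -/
theorem nonreconstruction_regular (D : ConeData q o g hh Ga m₁ m₂) (d : ℕ) (hd : 2 ≤ d)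
    (lam : ℝ) (h0 : 0 ≤ lam) (hKS : d * lam ^ 2 ≤ 1) : Tendsto (aSeq q d lam) atTop (𝓝 0) := by
  obtain ⟨m, rfl⟩ : ∃ m, d = m + 2 := ⟨d - 2, by omega⟩
  have hd' : (2 : ℝ) ≤ ((m + 2 : ℕ) : ℝ) := by push_cast; linarith [Nat.cast_nonneg (α := ℝ) m]
  have hl2 : lam ^ 2 ≤ 1 / 2 := by nlinarith [sq_nonneg lam]
  have h1 : lam < 1 := by nlinarith
  have hgood : ∀ n, Good0 (lk q (m + 2) lam n) := fun n => (good0_lk D (m + 2) h0 h1 n).1
  have hx0 : ∀ n, 0 ≤ xs q (m + 2) lam n := fun n => Ex_a_nonneg (hgood n)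
  have hx : Tendsto (xs q (m + 2) lam) atTop (𝓝 0) := by
    rcases eq_or_lt_of_le h0 with hz | hpos
    · have : ∀ n, xs q (m + 2) lam (n + 1) = 0 := by
        intro n
        have h2 := xs_succ_le_lin D (m + 2) h0 h1 n
        have h3 : lam ^ 2 = 0 := by rw [← hz]; norm_num
        rw [h3] at h2
        simp only [mul_zero, zero_mul] at h2
        exact le_antisymm h2 (hx0 _)
      rw [← tendsto_add_atTop_iff_nat 1]
      simp only [this]
      exact tendsto_const_nhds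
    · obtain ⟨κ, hκ, hgain⟩ := D.gain lam hpos h1
      refine tendsto_zero_of_rec_pow (c := κ) (m := m₁ + m₂) hκ hx0 fun n => ?_
      have h2 := xs_succ_le D m h0 h1 hκ.le hgain n
      have h3 := mul_le_mul_of_nonneg_right hKS (hx0 n)
      linarith
  refine tendsto_of_sq_le (C := ((q : ℝ) - 1) / 4) (fun n => ?_) (fun n => ?_) hx
  · rw [aSeq_eq]; exact Ex_tv_nonneg (hgood n)
  · rw [aSeq_eq]; exact sq_Ex_tv_le (hgood n)

end Vale.Agent.P154Q
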