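import Vale.Agent.P154.Q.AlgA

namespace Vale.Agent.P154Q

open Finset

variable {q : ℕ} [hq : Fact (2 ≤ q)] {X Y : Type} [Fintype X] [Fintype Y]

/-- a family all of whose posteriors are channel outputs -/
structure GoodC (L : ℝ) (l : X → V q) : Prop where
  good : Good l
  child : ∀ x, InChild L (nrm (l x))

theorem InChild.simplex {L : ℝ} (hL : L < 1) {r : V q} (h : InChild L r) : InSimplex r :=
  ⟨fun i => lt_trans (div_pos (by linarith) q_pos) (h.1 i), h.2⟩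

theorem chanP_inChild {L lam : ℝ} (h0 : 0 ≤ lam) (h1 : lam < L) {p : V q} (hp : InClosed p) :
    InChild L (chanP lam p) := by
  refine ⟨fun i => ?_, sum_chanP lam hp.2⟩
  unfold chanP
  have h2 : (1 - L) / q < (1 - lam) / q := div_lt_div_of_pos_right (by linarith) q_pos
  have h3 := mul_nonneg h0 (hp.1 i)
  linarith

theorem goodC_chan {L : ℝ} (hL : L < 1) {l : X → V q} (h : Good0 l) {lam : ℝ} (h0 : 0 ≤ lam)
    (h1 : lam < L) : GoodC L (fun x => chanV lam (l x)) where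
  good := good_chan h h0 (h1.trans hL)
  child := fun x => by
    rw [nrm_chanV lam (h.zpos x)]
    exact chanP_inChild h0 h1 (nrm_closed h x)

omit hq in
theorem Ex_mfam_comm (l : X → V q) (l' : Y → V q) (f : V q → ℝ) :
    Ex (mfam l l') f = Ex (mfam l' l) f := by
  unfold Ex
  refine Fintype.sum_equiv (Equiv.prodComm X Y) _ _ ?_
  intro z
  have e : mfam l l' z = mfam l' l (Equiv.prodComm X Y z) := by
    funext i
    simp only [mfam, Equiv.prodComm_apply, Prod.fst_swap, Prod.snd_swap]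
    ring
  rw [e]

variable {L : ℝ} {o oc g1 g2 h1 h2 : V q → ℝ} {c1 c2 : ℝ} {Ga : V q → V q → ℝ} {m₁ m₂ : ℕ}

theorem ExC_nonneg {l : X → V q} (h : GoodC L l) {f : V q → ℝ}
    (hf : ∀ r, InChild L r → 0 ≤ f r) : 0 ≤ Ex l f :=
  Finset.sum_nonneg fun x _ => mul_nonneg (weight_pos h.good x).le (hf _ (h.child x))

theorem ExC_mono {l : X → V q} (h : GoodC L l) {f f' : V q → ℝ}
    (hf : ∀ r, InChild L r → f r ≤ f' r) : Ex l f ≤ Ex l f' :=
  Finset.sum_le_sum fun x _ => mul_le_mul_of_nonneg_left (hf _ (h.child x))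
    (weight_pos h.good x).le

theorem ExGA_nonneg (D : ConeDataA q L o oc g1 g2 h1 h2 c1 c2 Ga m₁ m₂) {l : X → V q}
    {l' : Y → V q} (h : Good l) (h' : GoodC L l') : 0 ≤ ExG l l' Ga :=
  Finset.sum_nonneg fun x _ => Finset.sum_nonneg fun y _ =>
    mul_nonneg (mul_nonneg (weight_pos h x).le (weight_pos h'.good y).le)
      (D.Ga_nonneg _ _ (nrm_inSimplex (h.pos x)) (h'.child y))

theorem ExA_mfam_a_le (D : ConeDataA q L o oc g1 g2 h1 h2 c1 c2 Ga m₁ m₂) {l : X → V q}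
    {l' : Y → V q} (h : Good l) (h' : GoodC L l') :
    Ex (mfam l l') aF ≤ Ex l aF + Ex l' aF - Ex l o * Ex l' g1 - Ex l g2 * Ex l' oc
      - c1 * (Ex l o * Ex l' oc) - ExG l l' Ga := by
  rw [Ex_mfam h h'.good]
  have hb : ∀ x y, Zs (l x) / q * (Zs (l' y) / q) * avgM aF (nrm (l x)) (nrm (l' y)) ≤
      Zs (l x) / q * (Zs (l' y) / q) * (aF (nrm (l x)) * 1)
      + Zs (l x) / q * (Zs (l' y) / q) * (1 * aF (nrm (l' y)))
      - Zs (l x) / q * (Zs (l' y) / q) * (o (nrm (l x)) * g1 (nrm (l' y)))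
      - Zs (l x) / q * (Zs (l' y) / q) * (g2 (nrm (l x)) * oc (nrm (l' y)))
      - c1 * (Zs (l x) / q * (Zs (l' y) / q) * (o (nrm (l x)) * oc (nrm (l' y))))
      - Zs (l x) / q * (Zs (l' y) / q) * Ga (nrm (l x)) (nrm (l' y)) := by
    intro x y
    have e1 := D.j1 _ _ (nrm_inSimplex (h.pos x)) (h'.child y)
    have e2 : 0 ≤ Zs (l x) / q * (Zs (l' y) / q) :=
      mul_nonneg (weight_pos h x).le (weight_pos h'.good y).le
    have e3 := mul_le_mul_of_nonneg_left e1 e2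
    refine e3.trans (le_of_eq ?_)
    ring
  refine (Finset.sum_le_sum fun x _ => Finset.sum_le_sum fun y _ => hb x y).trans (le_of_eq ?_)
  simp only [Finset.sum_sub_distrib, Finset.sum_add_distrib, ← Finset.mul_sum, sum_sum_mul]
  simp only [mul_one, sum_weights h, sum_weights h'.good, one_mul]
  unfold Ex ExG
  ring

theorem le_ExA_mfam_o (D : ConeDataA q L o oc g1 g2 h1 h2 c1 c2 Ga m₁ m₂) {l : X → V q}
    {l' : Y → V q} (h : Good l) (h' : GoodC L l') :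
    Ex l o * Ex l' h1 + Ex l h2 * Ex l' oc + c2 * (Ex l o * Ex l' oc) ≤ Ex (mfam l l') o := by
  rw [Ex_mfam h h'.good]
  have hb : ∀ x y,
      Zs (l x) / q * (Zs (l' y) / q) * (o (nrm (l x)) * h1 (nrm (l' y)))
      + Zs (l x) / q * (Zs (l' y) / q) * (h2 (nrm (l x)) * oc (nrm (l' y)))
      + c2 * (Zs (l x) / q * (Zs (l' y) / q) * (o (nrm (l x)) * oc (nrm (l' y)))) ≤
      Zs (l x) / q * (Zs (l' y) / q) * avgM o (nrm (l x)) (nrm (l' y)) := by
    intro x y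
    have e1 := D.j2 _ _ (nrm_inSimplex (h.pos x)) (h'.child y)
    have e2 : 0 ≤ Zs (l x) / q * (Zs (l' y) / q) :=
      mul_nonneg (weight_pos h x).le (weight_pos h'.good y).le
    have e3 := mul_le_mul_of_nonneg_left e1 e2
    refine le_trans (le_of_eq ?_) e3
    ring
  refine le_trans (le_of_eq ?_) (Finset.sum_le_sum fun x _ => Finset.sum_le_sum fun y _ => hb x y)
  simp only [Finset.sum_add_distrib, ← Finset.mul_sum, sum_sum_mul]
  unfold Ex
  ring

theorem ExA_mfam_o_nonneg (D : ConeDataA q L o oc g1 g2 h1 h2 c1 c2 Ga m₁ m₂) {l : X → V q}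
    {l' : Y → V q} (h : Good l) (h' : GoodC L l') (ho : 0 ≤ Ex l o) (ho' : 0 ≤ Ex l' oc) :
    0 ≤ Ex (mfam l l') o := by
  refine le_trans ?_ (le_ExA_mfam_o D h h')
  have e1 := ExC_nonneg h' (f := h1) D.h1_nonneg
  have e2 := Ex_nonneg h (f := h2) D.h2_nonneg
  have e3 := D.c2_nonneg
  positivity

theorem ExA_mfam_a_le' (D : ConeDataA q L o oc g1 g2 h1 h2 c1 c2 Ga m₁ m₂) {l : X → V q}
    {l' : Y → V q} (h : Good l) (h' : GoodC L l') (ho : 0 ≤ Ex l o) (ho' : 0 ≤ Ex l' oc) :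
    Ex (mfam l l') aF ≤ Ex l aF + Ex l' aF - ExG l l' Ga := by
  refine (ExA_mfam_a_le D h h').trans ?_
  have e1 := ExC_nonneg h' (f := g1) D.g1_nonneg
  have e2 := Ex_nonneg h (f := g2) D.g2_nonneg
  have e4 := mul_nonneg ho e1
  have e5 := mul_nonneg e2 ho'
  have e6 := mul_nonneg D.c1_nonneg (mul_nonneg ho ho')
  linarith

theorem unif_inChild (hL : 0 < L) : InChild L (fun _ : Fin q => 1 / (q : ℝ)) := by
  refine ⟨fun i => div_lt_div_of_pos_right (by linarith) q_pos, ?_⟩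
  simp [q_ne (q := q)]

theorem ConeDataA.unif (D : ConeDataA q L o oc g1 g2 h1 h2 c1 c2 Ga m₁ m₂) :
    0 ≤ o (fun _ => 1 / q) := by
  obtain ⟨κ, hκ, h⟩ := D.chan 0 le_rfl D.L_pos
  have i0 : Fin q := ⟨0, by have := hq.out; omega⟩
  have e1 := h _ (delta_closed i0)
  have e : chanP 0 (fun j : Fin q => if i0 = j then (1 : ℝ) else 0) = fun _ => 1 / (q : ℝ) := by
    funext i
    simp [chanP]
  rw [e] at e1
  exact le_trans (le_trans (mul_nonneg hκ (D.delta i0)) e1) (D.oc_le _ (unif_inChild D.L_pos))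

theorem ExA_o_of_oc (D : ConeDataA q L o oc g1 g2 h1 h2 c1 c2 Ga m₁ m₂) {l : X → V q}
    (h : GoodC L l) (ho : 0 ≤ Ex l oc) : 0 ≤ Ex l o :=
  le_trans ho (ExC_mono h D.oc_le)

theorem ExA_pwD_o_nonneg (D : ConeDataA q L o oc g1 g2 h1 h2 c1 c2 Ga m₁ m₂) : ∀ {k : ℕ}
    {X : Fin k → Type} [∀ j, Fintype (X j)] {l : (j : Fin k) → X j → V q},
    (∀ j, GoodC L (l j)) → (∀ j, 0 ≤ Ex (l j) oc) → 0 ≤ Ex (pwD l) o
  | 0, X, _, l, _, _ => by rw [Ex_pwD_zero]; exact D.unif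
  | k + 1, X, _, l, h, ho => by
    rw [Ex_pwD_succ, Ex_mfam_comm]
    have hG := good_pwD (l := fun j => l j.succ) fun j => (h j.succ).good
    have e1 := ExA_pwD_o_nonneg D (l := fun j => l j.succ) (fun j => h j.succ)
      (fun j => ho j.succ)
    exact ExA_mfam_o_nonneg D hG (h 0) e1 (ho 0)

theorem ExA_pwD_a_le (D : ConeDataA q L o oc g1 g2 h1 h2 c1 c2 Ga m₁ m₂) : ∀ {k : ℕ}
    {X : Fin k → Type} [∀ j, Fintype (X j)] {l : (j : Fin k) → X j → V q},
    (∀ j, GoodC L (l j)) → (∀ j, 0 ≤ Ex (l j) oc) → Ex (pwD l) aF ≤ ∑ j, Ex (l j) aF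
  | 0, X, _, l, _, _ => by rw [Ex_pwD_zero, aF_unif]; simp
  | k + 1, X, _, l, h, ho => by
    rw [Ex_pwD_succ, Ex_mfam_comm, Fin.sum_univ_succ]
    have hG := good_pwD (l := fun j => l j.succ) fun j => (h j.succ).good
    have e0 := ExA_pwD_a_le D (l := fun j => l j.succ) (fun j => h j.succ) (fun j => ho j.succ)
    have e1 := ExA_pwD_o_nonneg D (l := fun j => l j.succ) (fun j => h j.succ)
      (fun j => ho j.succ)
    have e2 := ExA_mfam_a_le' D hG (h 0) e1 (ho 0)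
    have e3 := ExGA_nonneg D hG (h 0)
    linarith

theorem ExA_pwD_two_a_le (D : ConeDataA q L o oc g1 g2 h1 h2 c1 c2 Ga m₁ m₂) {X : Fin 2 → Type}
    [∀ j, Fintype (X j)] {l : (j : Fin 2) → X j → V q} (h : ∀ j, GoodC L (l j))
    (ho : ∀ j, 0 ≤ Ex (l j) oc) :
    Ex (pwD l) aF ≤ ∑ j, Ex (l j) aF - ExG (l 0) (l 1) Ga := by
  rw [Ex_pwD_two, Fin.sum_univ_two]
  exact ExA_mfam_a_le' D (h 0).good (h 1) (ExA_o_of_oc D (h 0) (ho 0)) (ho 1)

/-- at least two families: subadditivity with a gain -/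
theorem ExA_pwD_a_le_gain (D : ConeDataA q L o oc g1 g2 h1 h2 c1 c2 Ga m₁ m₂) {γ : ℝ} :
    ∀ {m : ℕ} {X : Fin (m + 2) → Type} [∀ j, Fintype (X j)]
    {l : (j : Fin (m + 2)) → X j → V q},
    (∀ j, GoodC L (l j)) → (∀ j, 0 ≤ Ex (l j) oc) → (∀ i j, i ≠ j → γ ≤ ExG (l i) (l j) Ga) →
    Ex (pwD l) aF ≤ ∑ j, Ex (l j) aF - γ
  | 0, X, _, l, h, ho, hγ => by
    have e1 := ExA_pwD_two_a_le D h ho
    have e2 := hγ 0 1 (by decide)
    linarith
  | m + 1, X, _, l, h, ho, hγ => by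
    rw [Ex_pwD_succ, Ex_mfam_comm, Fin.sum_univ_succ]
    have hG := good_pwD (l := fun j => l j.succ) fun j => (h j.succ).good
    have e0 := ExA_pwD_a_le_gain D (l := fun j => l j.succ) (fun j => h j.succ)
      (fun j => ho j.succ) (fun i j hij => hγ i.succ j.succ (fun e => hij (Fin.succ_injective _ e)))
    have e1 := ExA_pwD_o_nonneg D (l := fun j => l j.succ) (fun j => h j.succ)
      (fun j => ho j.succ)
    have e2 := ExA_mfam_a_le' D hG (h 0) e1 (ho 0)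
    have e3 := ExGA_nonneg D hG (h 0)
    linarith

theorem ExA_chan_oc_nonneg (D : ConeDataA q L o oc g1 g2 h1 h2 c1 c2 Ga m₁ m₂) {l : X → V q}
    (h : Good0 l) (ho : 0 ≤ Ex l o) {lam : ℝ} (h0 : 0 ≤ lam) (h1 : lam < L) :
    0 ≤ Ex (fun x => chanV lam (l x)) oc := by
  obtain ⟨κ, hκ, hch⟩ := D.chan lam h0 h1
  refine le_trans (mul_nonneg hκ ho) ?_
  unfold Ex
  rw [Finset.mul_sum]
  refine Finset.sum_le_sum fun x _ => ?_
  rw [Zs_chanV, nrm_chanV lam (h.zpos x)]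
  have h4 := mul_le_mul_of_nonneg_left (hch _ (nrm_closed h x)) (weight_nonneg h x)
  linarith

end Vale.Agent.P154Q
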