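import Vale.Agent.P154.Q.MergeA
import Vale.Agent.P154.Q.Regular

namespace Vale.Agent.P154Q

open Finset Filter Topology

variable {q : ℕ} [hq : Fact (2 ≤ q)]

variable {L : ℝ} {o oc g1 g2 h1 h2 : V q → ℝ} {c1 c2 : ℝ} {Ga : V q → V q → ℝ} {m₁ m₂ : ℕ}

theorem good0A_lk (D : ConeDataA q L o oc g1 g2 h1 h2 c1 c2 Ga m₁ m₂) (d : ℕ) {lam : ℝ}
    (h0 : 0 ≤ lam) (hl : lam < L) : ∀ n, Good0 (lk q d lam n) ∧ 0 ≤ Ex (lk q d lam n) o
  | 0 => ⟨good0_zero, Ex_zero_o D.delta⟩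
  | n + 1 => by
    obtain ⟨hg, ho⟩ := good0A_lk D d h0 hl n
    have hG := goodC_chan D.L_lt hg h0 hl
    have hO := ExA_chan_oc_nonneg D hg ho h0 hl
    rw [lk_succ]
    exact ⟨(good_pwD fun _ => hG.good).good0, ExA_pwD_o_nonneg D (fun _ => hG) (fun _ => hO)⟩

theorem xsA_succ_le_lin (D : ConeDataA q L o oc g1 g2 h1 h2 c1 c2 Ga m₁ m₂) (d : ℕ) {lam : ℝ}
    (h0 : 0 ≤ lam) (hl : lam < L) (n : ℕ) : xs q d lam (n + 1) ≤ d * lam ^ 2 * xs q d lam n := by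
  obtain ⟨hg, ho⟩ := good0A_lk D d h0 hl n
  have hG := goodC_chan D.L_lt hg h0 hl
  have hO := ExA_chan_oc_nonneg D hg ho h0 hl
  have key := ExA_pwD_a_le D (k := d) (fun _ => hG) (fun _ => hO)
  unfold xs
  rw [lk_succ]
  refine key.trans (le_of_eq ?_)
  simp only [Finset.sum_const, Finset.card_univ, Fintype.card_fin, nsmul_eq_mul, Ex_chan_a hg]
  ring

theorem xsA_succ_le (D : ConeDataA q L o oc g1 g2 h1 h2 c1 c2 Ga m₁ m₂) (m : ℕ) {lam κ : ℝ}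
    (h0 : 0 ≤ lam) (hl : lam < L) (hκ : 0 ≤ κ)
    (hgain : ∀ p r : V q, InClosed p → InClosed r →
      κ * (aF p ^ m₁ * aF r ^ m₂) ≤ Ga (chanP lam p) (chanP lam r)) (n : ℕ) :
    xs q (m + 2) lam (n + 1) ≤ ((m + 2 : ℕ) : ℝ) * lam ^ 2 * xs q (m + 2) lam n
      - κ * (xs q (m + 2) lam n) ^ (m₁ + m₂) := by
  obtain ⟨hg, ho⟩ := good0A_lk D (m + 2) h0 hl n
  have hG := goodC_chan D.L_lt hg h0 hl
  have hO := ExA_chan_oc_nonneg D hg ho h0 hl
  have hγ := ExG_chan_ge hg hg hκ hgain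
  have key := ExA_pwD_a_le_gain D (m := m) (fun _ => hG) (fun _ => hO) (fun _ _ _ => hγ)
  unfold xs
  rw [lk_succ]
  refine key.trans (le_of_eq ?_)
  simp only [Finset.sum_const, Finset.card_univ, Fintype.card_fin, nsmul_eq_mul, Ex_chan_a hg]
  ring

/-- asymmetric cone data with `1/2 < L^2` imply nonreconstruction on every `d`-ary tree, `d ≥ 2`,
up to and including the Kesten-Stigum bound. -/
theorem nonreconstruction_regularA (D : ConeDataA q L o oc g1 g2 h1 h2 c1 c2 Ga m₁ m₂)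
    (hL : 1 / 2 < L ^ 2) (d : ℕ) (hd : 2 ≤ d)
    (lam : ℝ) (h0 : 0 ≤ lam) (hKS : d * lam ^ 2 ≤ 1) : Tendsto (aSeq q d lam) atTop (𝓝 0) := by
  obtain ⟨m, rfl⟩ : ∃ m, d = m + 2 := ⟨d - 2, by omega⟩
  have hd' : (2 : ℝ) ≤ ((m + 2 : ℕ) : ℝ) := by push_cast; linarith [Nat.cast_nonneg (α := ℝ) m]
  have hl2 : lam ^ 2 ≤ 1 / 2 := by nlinarith [sq_nonneg lam]
  have hl : lam < L := by
    have := D.L_pos
    nlinarith
  have hgood : ∀ n, Good0 (lk q (m + 2) lam n) := fun n => (good0A_lk D (m + 2) h0 hl n).1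
  have hx0 : ∀ n, 0 ≤ xs q (m + 2) lam n := fun n => Ex_a_nonneg (hgood n)
  have hx : Tendsto (xs q (m + 2) lam) atTop (𝓝 0) := by
    rcases eq_or_lt_of_le h0 with hz | hpos
    · have : ∀ n, xs q (m + 2) lam (n + 1) = 0 := by
        intro n
        have h2 := xsA_succ_le_lin D (m + 2) h0 hl n
        have h3 : lam ^ 2 = 0 := by rw [← hz]; norm_num
        rw [h3] at h2
        simp only [mul_zero, zero_mul] at h2
        exact le_antisymm h2 (hx0 _)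
      rw [← tendsto_add_atTop_iff_nat 1]
      simp only [this]
      exact tendsto_const_nhds
    · obtain ⟨κ, hκ, hgain⟩ := D.gain lam hpos hl
      refine tendsto_zero_of_rec_pow (c := κ) (m := m₁ + m₂) hκ hx0 fun n => ?_
      have h2 := xsA_succ_le D m h0 hl hκ.le hgain n
      have h3 := mul_le_mul_of_nonneg_right hKS (hx0 n)
      linarith
  refine tendsto_of_sq_le (C := ((q : ℝ) - 1) / 4) (fun n => ?_) (fun n => ?_) hx
  · rw [aSeq_eq]; exact Ex_tv_nonneg (hgood n)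
  · rw [aSeq_eq]; exact sq_Ex_tv_le (hgood n)

end Vale.Agent.P154Q
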