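import Mathlib

namespace Vale.Agent.P154Q

abbrev V (q : ℕ) := Fin q → ℝ

variable {q : ℕ}

/-- normalised squared distance from uniform: q times the sum of squares, minus one, over q - 1 -/
noncomputable def aF (p : V q) : ℝ := (q * ∑ i, p i ^ 2 - 1) / (q - 1)

noncomputable def Dm (p r : V q) : ℝ := q * ∑ i, p i * r i

noncomputable def merge (p r : V q) : V q := fun i => p i * r i / ∑ j, p j * r j

def InSimplex (p : V q) : Prop := (∀ i, 0 < p i) ∧ ∑ i, p i = 1

def InClosed (p : V q) : Prop := (∀ i, 0 ≤ p i) ∧ ∑ i, p i = 1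

theorem InSimplex.closed {p : V q} (h : InSimplex p) : InClosed p := ⟨fun i => (h.1 i).le, h.2⟩

/-- average over relabelings of the second argument of `D f(merge)` -/
noncomputable def avgM (f : V q → ℝ) (p r : V q) : ℝ :=
  (∑ s : Equiv.Perm (Fin q), Dm p (r ∘ s) * f (merge p (r ∘ s))) / (q.factorial : ℝ)

noncomputable def chanP (lam : ℝ) (p : V q) : V q := fun i => lam * p i + (1 - lam) / q

/-- The data needed for the contraction argument. -/
structure ConeData (q : ℕ) (o g hh : V q → ℝ) (Ga : V q → V q → ℝ) (m₁ m₂ : ℕ) : Prop where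
  g_nonneg : ∀ p, InSimplex p → 0 ≤ g p
  h_nonneg : ∀ p, InSimplex p → 0 ≤ hh p
  Ga_nonneg : ∀ p r, InSimplex p → InSimplex r → 0 ≤ Ga p r
  chan : ∀ lam : ℝ, 0 ≤ lam → lam < 1 → ∃ κ : ℝ, 0 ≤ κ ∧
    ∀ p : V q, InClosed p → κ * o p ≤ o (chanP lam p)
  delta : ∀ i : Fin q, 0 ≤ o (fun j => if i = j then 1 else 0)
  j1 : ∀ p r, InSimplex p → InSimplex r →
    avgM aF p r ≤ aF p + aF r - o p * g r - o r * g p - Ga p r
  j2 : ∀ p r, InSimplex p → InSimplex r → o p * hh r + o r * hh p ≤ avgM o p r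
  gain : ∀ lam : ℝ, 0 < lam → lam < 1 → ∃ κ : ℝ, 0 < κ ∧
    ∀ p r : V q, InClosed p → InClosed r →
      κ * (aF p ^ m₁ * aF r ^ m₂) ≤ Ga (chanP lam p) (chanP lam r)

end Vale.Agent.P154Q
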