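import Vale.Agent.P154.Q.Tree

namespace Vale.Agent.P154Q

variable {q : ℕ}

/-- messages coming out of a channel of strength less than `L` -/
def InChild (L : ℝ) (r : V q) : Prop := (∀ i, (1 - L) / q < r i) ∧ ∑ i, r i = 1

/-- Asymmetric version of the cone data: the first argument of a merge is an accumulated merge
(any point of the open simplex, cone functional `o`), the second one is a message that went
through a channel of strength less than `L` (cone functional `oc`). -/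
structure ConeDataA (q : ℕ) (L : ℝ) (o oc g1 g2 h1 h2 : V q → ℝ) (c1 c2 : ℝ)
    (Ga : V q → V q → ℝ) (m₁ m₂ : ℕ) : Prop where
  L_pos : 0 < L
  L_lt : L < 1
  c1_nonneg : 0 ≤ c1
  c2_nonneg : 0 ≤ c2
  g1_nonneg : ∀ r, InChild L r → 0 ≤ g1 r
  h1_nonneg : ∀ r, InChild L r → 0 ≤ h1 r
  g2_nonneg : ∀ p, InSimplex p → 0 ≤ g2 p
  h2_nonneg : ∀ p, InSimplex p → 0 ≤ h2 p
  Ga_nonneg : ∀ p r, InSimplex p → InChild L r → 0 ≤ Ga p r
  chan : ∀ lam : ℝ, 0 ≤ lam → lam < L → ∃ κ : ℝ, 0 ≤ κ ∧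
    ∀ p : V q, InClosed p → κ * o p ≤ oc (chanP lam p)
  oc_le : ∀ r, InChild L r → oc r ≤ o r
  delta : ∀ i : Fin q, 0 ≤ o (fun j => if i = j then 1 else 0)
  j1 : ∀ p r, InSimplex p → InChild L r →
    avgM aF p r ≤ aF p + aF r - o p * g1 r - g2 p * oc r - c1 * (o p * oc r) - Ga p r
  j2 : ∀ p r, InSimplex p → InChild L r →
    o p * h1 r + h2 p * oc r + c2 * (o p * oc r) ≤ avgM o p r
  gain : ∀ lam : ℝ, 0 < lam → lam < L → ∃ κ : ℝ, 0 < κ ∧
    ∀ p r : V q, InClosed p → InClosed r →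
      κ * (aF p ^ m₁ * aF r ^ m₂) ≤ Ga (chanP lam p) (chanP lam r)

end Vale.Agent.P154Q
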