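import Vale.Agent.P154.Q.KCertBase

namespace Vale.Agent.P154K

open Vale.Agent.P154Q

set_option maxRecDepth 1000000 in
theorem kJ1a : chunkK B1 8 parts8 dvecJ1 FLJ1 0 1 = true := by decide +kernel

set_option maxRecDepth 1000000 in
theorem kJ1s : allLt B1 (sPK 8 parts8) = true := by decide +kernel

set_option maxRecDepth 1000000 in
theorem kg1 : rowZ B1 8 (VsK B1 8 parts8) (sRK 8 parts8) vJ1g1 = true := by decide +kernel

set_option maxRecDepth 1000000 in
theorem kg2 : rowZ B1 8 (UsK B1 8 parts8) (sPK 8 parts8) vJ1g2 = true := by decide +kernel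

end Vale.Agent.P154K
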