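import Vale.Agent.P154.Q.KCertBase

namespace Vale.Agent.P154K

open Vale.Agent.P154Q

set_option maxRecDepth 1000000 in
theorem kJ2b : chunkK B2 10 parts10 dvecJ2 FLJ2 1 1 = true := by decide +kernel

end Vale.Agent.P154K
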