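import Vale.Agent.P154.Q.KCertBase

namespace Vale.Agent.P154K

open Vale.Agent.P154Q

set_option maxRecDepth 1000000 in
theorem kJ2d : chunkK B2 10 parts10 dvecJ2 FLJ2 4 7 = true := by decide +kernel

set_option maxRecDepth 1000000 in
theorem kJ2s : allLt B2 (sPK 10 parts10) = true := by decide +kernel

set_option maxRecDepth 1000000 in
theorem kh1 : rowZ B2 10 (VsK B2 10 parts10) (sRK 10 parts10) vJ2h1 = true := by decide +kernel

set_option maxRecDepth 1000000 in
theorem kh2 : rowZ B2 10 (UsK B2 10 parts10) (sPK 10 parts10) vJ2h2 = true := by decide +kernel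

end Vale.Agent.P154K
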