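import Vale.Agent.P154.Q.KLink
import Vale.Agent.P154.Q.KCertJ1a
import Vale.Agent.P154.Q.KCertJ1b
import Vale.Agent.P154.Q.KCertJ1c
import Vale.Agent.P154.Q.KCertJ2a
import Vale.Agent.P154.Q.KCertJ2b
import Vale.Agent.P154.Q.KCertJ2c
import Vale.Agent.P154.Q.KCertJ2d

/-! The six positivity certificates for `q = 4`. -/

namespace Vale.Agent.P154Q

open Vale.Agent.P154.Refl Vale.Agent.P154K

theorem deg8 : ∀ b ∈ parts8, Ex4.deg b ≤ 8 := by decide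
theorem deg10 : ∀ b ∈ parts10, Ex4.deg b ≤ 10 := by decide

theorem B1_pos : 0 < B1 := by unfold B1; positivity
theorem B2_pos : 0 < B2 := by unfold B2; positivity

theorem kJ1 : chunkK B1 8 parts8 dvecJ1 FLJ1 0 (8 + 1) = true :=
  chunkK_glue B1 8 parts8 dvecJ1 FLJ1 3 6 (chunkK_glue B1 8 parts8 dvecJ1 FLJ1 1 2 kJ1a kJ1b) kJ1c

theorem kJ2 : chunkK B2 10 parts10 dvecJ2 FLJ2 0 (10 + 1) = true :=
  chunkK_glue B2 10 parts10 dvecJ2 FLJ2 4 7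
    (chunkK_glue B2 10 parts10 dvecJ2 FLJ2 2 2
      (chunkK_glue B2 10 parts10 dvecJ2 FLJ2 1 1 kJ2a kJ2b) kJ2c) kJ2d

theorem J1_cert (p r : V 4) (hp : InSimplex p) (hr : InCh r) :
    0 ≤ diagR dvecJ1 (MsL parts8 p) (MsL parts8 r) + rkR FLJ1 (MsL parts8 p) (MsL parts8 r) :=
  certK B1 8 B1_pos parts8 deg8 dvecJ1 FLJ1 kJ1s kJ1 p r hp hr

theorem J2_cert (p r : V 4) (hp : InSimplex p) (hr : InCh r) :
    0 ≤ diagR dvecJ2 (MsL parts10 p) (MsL parts10 r) + rkR FLJ2 (MsL parts10 p) (MsL parts10 r) :=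
  certK B2 10 B2_pos parts10 deg10 dvecJ2 FLJ2 kJ2s kJ2 p r hp hr

theorem g1_cert (r : V 4) (hr : InCh r) : 0 ≤ linR vJ1g1 (MsL parts8 r) :=
  certRK B1 8 B1_pos parts8 deg8 vJ1g1 kg1 r hr

theorem g2_cert (p : V 4) (hp : InSimplex p) : 0 ≤ linR vJ1g2 (MsL parts8 p) :=
  certPK B1 8 B1_pos parts8 deg8 vJ1g2 kg2 p hp

theorem h1_cert (r : V 4) (hr : InCh r) : 0 ≤ linR vJ2h1 (MsL parts10 r) :=
  certRK B2 10 B2_pos parts10 deg10 vJ2h1 kh1 r hr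

theorem h2_cert (p : V 4) (hp : InSimplex p) : 0 ≤ linR vJ2h2 (MsL parts10 p) :=
  certPK B2 10 B2_pos parts10 deg10 vJ2h2 kh2 p hp

end Vale.Agent.P154Q
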