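import Vale.Agent.P154.Q.IdentR
import Vale.Agent.P154.Q.KCert

namespace Vale.Agent.P154Q

open Finset Equiv
open Vale.Agent.P154.Refl

theorem linR_map_mul (m : ℤ) : ∀ (cs : List ℤ) (ps : List ℝ),
    linR (cs.map (fun c => m * c)) ps = m * linR cs ps
  | c :: cs, p :: ps => by
      simp only [List.map_cons, linR, linR_map_mul m cs ps]; push_cast; ring
  | [], _ => by simp [linR]
  | _ :: _, [] => by simp [linR]

theorem diagR_map_mul (m : ℤ) : ∀ (cs : List ℤ) (ps qs : List ℝ),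
    diagR (cs.map (fun c => m * c)) ps qs = m * diagR cs ps qs
  | c :: cs, p :: ps, q :: qs => by
      simp only [List.map_cons, diagR, diagR_map_mul m cs ps qs]; push_cast; ring
  | [], _, _ => by simp [diagR]
  | _ :: _, [], _ => by simp [diagR]
  | _ :: _, _ :: _, [] => by simp [diagR]

noncomputable def g1K (r : V 4) : ℝ := linR vJ1g1 (MsL parts8 r) / 21600
noncomputable def g2K (p : V 4) : ℝ := linR vJ1g2 (MsL parts8 p) / 21600
noncomputable def h1K (r : V 4) : ℝ := linR vJ2h1 (MsL parts10 r) / 108000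
noncomputable def h2K (p : V 4) : ℝ := linR vJ2h2 (MsL parts10 p) / 216000

noncomputable def GaK (p r : V 4) : ℝ := 1 / 25 * (aF p * (1 - aF p) * aF r * (aF p + aF r))

theorem g1K_nonneg (r : V 4) (hr : InCh r) : 0 ≤ g1K r :=
  div_nonneg (g1_cert r hr) (by norm_num)
theorem g2K_nonneg (p : V 4) (hp : InSimplex p) : 0 ≤ g2K p :=
  div_nonneg (g2_cert p hp) (by norm_num)
theorem h1K_nonneg (r : V 4) (hr : InCh r) : 0 ≤ h1K r :=
  div_nonneg (h1_cert r hr) (by norm_num)
theorem h2K_nonneg (p : V 4) (hp : InSimplex p) : 0 ≤ h2K p :=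
  div_nonneg (h2_cert p hp) (by norm_num)

theorem sum_FJ1_le (p r : V 4) (hp : InSimplex p) (hr : InCh r) :
    ∑ s : Perm (Fin 4), FJ1 (fun i => p i * r (s i)) ≤
      24 * (aF p + aF r - oK p * g1K r - g2K p * ocK r - GaK p r) := by
  have h2 : ∑ s : Perm (Fin 4), 75 * FJ1 (fun i => p i * r (s i))
      = diagR fvecJ1 (MsL parts8 p) (MsL parts8 r) := by
    simp only [← lin_FJ1]
    exact sum_linR_MsL p r _ _
  rw [← Finset.mul_sum] at h2
  have h3 := J1_cert p r hp hr
  have e1 : linR vJ1g1 (MsL parts8 r) = 21600 * g1K r := by unfold g1K; ring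
  have e2 : linR vJ1g2 (MsL parts8 p) = 21600 * g2K p := by unfold g2K; ring
  simp only [dvecJ1, FLJ1, rkR, diagR_map_mul, linR_map_mul, lin1_one, lin1_a, lin1_a2, lin1_o,
    lin1_oc, lin1_aE, lin1_a2E, e1, e2, ← h2] at h3
  unfold GaK
  push_cast at h3
  nlinarith [h3]

theorem le_sum_FJ2 (p r : V 4) (hp : InSimplex p) (hr : InCh r) :
    24 * (oK p * h1K r + h2K p * ocK r) ≤ ∑ s : Perm (Fin 4), FJ2 (fun i => p i * r (s i)) := by
  have h2 : ∑ s : Perm (Fin 4), 703125 * FJ2 (fun i => p i * r (s i))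
      = diagR fvecJ2 (MsL parts10 p) (MsL parts10 r) := by
    simp only [← lin_FJ2]
    exact sum_linR_MsL p r _ _
  rw [← Finset.mul_sum] at h2
  have h3 := J2_cert p r hp hr
  have e1 : linR vJ2h1 (MsL parts10 r) = 108000 * h1K r := by unfold h1K; ring
  have e2 : linR vJ2h2 (MsL parts10 p) = 216000 * h2K p := by unfold h2K; ring
  simp only [dvecJ2, FLJ2, rkR, diagR_map_mul, linR_map_mul, lin2_o, lin2_oc, e1, e2, ← h2] at h3
  push_cast at h3
  nlinarith [h3]

theorem j1K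
    (hta : ∀ p r : V 4, InSimplex p → InCh r → ∀ s : Perm (Fin 4),
      Dm p (r ∘ s) * aF (merge p (r ∘ s)) ≤ FJ1 (fun i => p i * r (s i)))
    (p r : V 4) (hp : InSimplex p) (hr : InCh r) :
    avgM aF p r ≤ aF p + aF r - oK p * g1K r - g2K p * ocK r - GaK p r := by
  unfold avgM
  have e : ((Nat.factorial 4 : ℕ) : ℝ) = 24 := by norm_num [Nat.factorial]
  rw [e, div_le_iff₀ (by norm_num)]
  have h1 := Finset.sum_le_sum (fun s (_ : s ∈ (Finset.univ : Finset (Perm (Fin 4)))) => hta p r hp hr s)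
  have h2 := sum_FJ1_le p r hp hr
  linarith

theorem j2K
    (hto : ∀ p r : V 4, InSimplex p → InCh r → ∀ s : Perm (Fin 4),
      FJ2 (fun i => p i * r (s i)) ≤ Dm p (r ∘ s) * oK (merge p (r ∘ s)))
    (p r : V 4) (hp : InSimplex p) (hr : InCh r) :
    oK p * h1K r + h2K p * ocK r ≤ avgM oK p r := by
  unfold avgM
  have e : ((Nat.factorial 4 : ℕ) : ℝ) = 24 := by norm_num [Nat.factorial]
  rw [e, le_div_iff₀ (by norm_num)]
  have h1 := Finset.sum_le_sum (fun s (_ : s ∈ (Finset.univ : Finset (Perm (Fin 4)))) => hto p r hp hr s)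
  have h2 := le_sum_FJ2 p r hp hr
  linarith

end Vale.Agent.P154Q
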