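import Vale.Agent.P154.Q.MergeA

namespace Vale.Agent.P154Q

open Finset

/-- third order functional: the product of the three Fourier coefficients -/
noncomputable def AF (p : V 4) : ℝ := (8 * ∑ i, p i ^ 3 - 6 * ∑ i, p i ^ 2 + 1) / 3

/-- the cone functional with parameter `K` -/
noncomputable def oKg (K : ℝ) (p : V 4) : ℝ := AF p - K * aF p ^ 2

/-- entrywise product -/
def yv (p r : V 4) : V 4 := fun i => p i * r i

def e2y (y : V 4) : ℝ := y 0 * y 1 + y 0 * y 2 + y 0 * y 3 + y 1 * y 2 + y 1 * y 3 + y 2 * y 3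

def e3y (y : V 4) : ℝ := y 0 * y 1 * y 2 + y 0 * y 1 * y 3 + y 0 * y 2 * y 3 + y 1 * y 2 * y 3

def DD (y : V 4) : ℝ := 4 * (y 0 + y 1 + y 2 + y 3)

noncomputable def MM (y : V 4) : ℝ := 128 / 3 * e2y y

noncomputable def WW (y : V 4) : ℝ := DD y ^ 2 - MM y

def TT (y : V 4) : ℝ := 1024 * e3y y

theorem MM_nonneg {y : V 4} (h : ∀ i, 0 ≤ y i) : 0 ≤ MM y := by
  unfold MM e2y
  have h0 := h 0
  have h1 := h 1
  have h2 := h 2
  have h3 := h 3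
  positivity

theorem TT_nonneg {y : V 4} (h : ∀ i, 0 ≤ y i) : 0 ≤ TT y := by
  unfold TT e3y
  have h0 := h 0
  have h1 := h 1
  have h2 := h 2
  have h3 := h 3
  positivity

theorem WW_nonneg (y : V 4) : 0 ≤ WW y := by
  have e : WW y = 16 / 3 * ((y 0 - y 1) ^ 2 + (y 0 - y 2) ^ 2 + (y 0 - y 3) ^ 2 + (y 1 - y 2) ^ 2
      + (y 1 - y 3) ^ 2 + (y 2 - y 3) ^ 2) := by
    unfold WW MM DD e2y
    ring
  rw [e]
  positivity

theorem Dm_eq_DD (p r : V 4) : Dm p r = DD (yv p r) := by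
  unfold Dm DD yv
  rw [Fin.sum_univ_four]
  norm_num

theorem merge_eq (p r : V 4) : merge p r = fun i => yv p r i / (DD (yv p r) / 4) := by
  funext i
  unfold merge DD yv
  rw [Fin.sum_univ_four]
  congr 1
  ring

theorem aF_div (y : V 4) (hD : 0 < DD y) :
    DD y * aF (fun i => y i / (DD y / 4)) = DD y - MM y / DD y := by
  have hne : DD y ≠ 0 := hD.ne'
  unfold aF
  rw [Fin.sum_univ_four]
  have e : MM y = 128 / 3 * e2y y := rfl
  have e' : (y 0 + y 1 + y 2 + y 3) = DD y / 4 := by unfold DD; ring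
  have e2 : y 0 ^ 2 + y 1 ^ 2 + y 2 ^ 2 + y 3 ^ 2 = (DD y / 4) ^ 2 - 2 * e2y y := by
    rw [← e']; unfold e2y; ring
  have e3 : (y 0 / (DD y / 4)) ^ 2 + (y 1 / (DD y / 4)) ^ 2 + (y 2 / (DD y / 4)) ^ 2
      + (y 3 / (DD y / 4)) ^ 2 = (y 0 ^ 2 + y 1 ^ 2 + y 2 ^ 2 + y 3 ^ 2) / (DD y / 4) ^ 2 := by
    field_simp
  rw [e3, e2, e]
  push_cast
  field_simp
  ring

theorem aF_div' (y : V 4) (hD : 0 < DD y) :
    aF (fun i => y i / (DD y / 4)) = WW y / DD y ^ 2 := by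
  have h := aF_div y hD
  have hne : DD y ≠ 0 := hD.ne'
  have : aF (fun i => y i / (DD y / 4)) = (DD y - MM y / DD y) / DD y := by
    rw [← h, mul_div_cancel_left₀ _ hne]
  rw [this]
  unfold WW
  field_simp

theorem AF_div (y : V 4) (hD : 0 < DD y) :
    AF (fun i => y i / (DD y / 4)) = TT y / (2 * DD y ^ 3) - 1 / 2 + 3 / 2 * (WW y / DD y ^ 2) := by
  have hne : DD y ≠ 0 := hD.ne'
  unfold AF
  rw [Fin.sum_univ_four, Fin.sum_univ_four]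
  have e' : (y 0 + y 1 + y 2 + y 3) = DD y / 4 := by unfold DD; ring
  have e2 : y 0 ^ 2 + y 1 ^ 2 + y 2 ^ 2 + y 3 ^ 2 = (DD y / 4) ^ 2 - 2 * e2y y := by
    rw [← e']; unfold e2y; ring
  have e3 : y 0 ^ 3 + y 1 ^ 3 + y 2 ^ 3 + y 3 ^ 3
      = (DD y / 4) ^ 3 - 3 * (DD y / 4) * e2y y + 3 * e3y y := by
    rw [← e']; unfold e2y e3y; ring
  have f2 : (y 0 / (DD y / 4)) ^ 2 + (y 1 / (DD y / 4)) ^ 2 + (y 2 / (DD y / 4)) ^ 2
      + (y 3 / (DD y / 4)) ^ 2 = (y 0 ^ 2 + y 1 ^ 2 + y 2 ^ 2 + y 3 ^ 2) / (DD y / 4) ^ 2 := by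
    field_simp
  have f3 : (y 0 / (DD y / 4)) ^ 3 + (y 1 / (DD y / 4)) ^ 3 + (y 2 / (DD y / 4)) ^ 3
      + (y 3 / (DD y / 4)) ^ 3 = (y 0 ^ 3 + y 1 ^ 3 + y 2 ^ 3 + y 3 ^ 3) / (DD y / 4) ^ 3 := by
    field_simp
  rw [f2, f3, e2, e3]
  unfold WW MM TT
  field_simp
  ring

/-- one term of the average, first functional -/
theorem term_aF (p r : V 4) (hD : 0 < DD (yv p r)) :
    Dm p r * aF (merge p r) = DD (yv p r) - MM (yv p r) / DD (yv p r) := by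
  rw [Dm_eq_DD, merge_eq, aF_div _ hD]

/-- one term of the average, cone functional -/
theorem term_oKg (K : ℝ) (p r : V 4) (hD : 0 < DD (yv p r)) :
    Dm p r * oKg K (merge p r) = TT (yv p r) / 2 * (1 / DD (yv p r) ^ 2) - DD (yv p r) / 2
      + (3 / 2 - K) * WW (yv p r) * (1 / DD (yv p r))
      + K * (MM (yv p r) * WW (yv p r)) * (1 / DD (yv p r) ^ 3) := by
  rw [Dm_eq_DD, merge_eq]
  unfold oKg
  rw [AF_div _ hD, aF_div' _ hD]
  have hne : DD (yv p r) ≠ 0 := hD.ne'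
  have e : MM (yv p r) = DD (yv p r) ^ 2 - WW (yv p r) := by unfold WW; ring
  rw [e]
  field_simp
  ring

theorem DD_range {L : ℝ} {p r : V 4} (hp : InSimplex p) (hr : InChild L r) :
    1 - L < DD (yv p r) ∧ DD (yv p r) < 1 + 3 * L := by
  obtain ⟨hp0, hps⟩ := hp
  obtain ⟨hr0, hrs⟩ := hr
  rw [Fin.sum_univ_four] at hps hrs
  have c : ((4 : ℕ) : ℝ) = 4 := by norm_num
  have l0 := hr0 0
  have l1 := hr0 1
  have l2 := hr0 2
  have l3 := hr0 3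
  rw [c] at l0 l1 l2 l3
  have u0 : r 0 < (1 + 3 * L) / 4 := by linarith
  have u1 : r 1 < (1 + 3 * L) / 4 := by linarith
  have u2 : r 2 < (1 + 3 * L) / 4 := by linarith
  have u3 : r 3 < (1 + 3 * L) / 4 := by linarith
  have q0 := hp0 0
  have q1 := hp0 1
  have q2 := hp0 2
  have q3 := hp0 3
  unfold DD yv
  constructor
  · nlinarith [mul_pos q0 (sub_pos.2 l0), mul_pos q1 (sub_pos.2 l1), mul_pos q2 (sub_pos.2 l2),
      mul_pos q3 (sub_pos.2 l3)]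
  · nlinarith [mul_pos q0 (sub_pos.2 u0), mul_pos q1 (sub_pos.2 u1), mul_pos q2 (sub_pos.2 u2),
      mul_pos q3 (sub_pos.2 u3)]

theorem inChild_comp {L : ℝ} {r : V 4} (hr : InChild L r) (s : Equiv.Perm (Fin 4)) :
    InChild L (r ∘ s) :=
  ⟨fun i => hr.1 (s i), by rw [← hr.2]; exact Equiv.sum_comp s r⟩

theorem yv_nonneg {L : ℝ} (hL : L < 1) {p r : V 4} (hp : InSimplex p) (hr : InChild L r) (i : Fin 4) :
    0 ≤ yv p r i := by
  have c : ((4 : ℕ) : ℝ) = 4 := by norm_num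
  have h1 := hr.1 i
  rw [c] at h1
  exact mul_nonneg (hp.1 i).le (by linarith)

/-- upper bound of the average of the first functional by an average of polynomials -/
theorem avgM_aF_le {L : ℝ} (hL : L < 1) (P1 : ℝ → ℝ)
    (hP1 : ∀ D : ℝ, 1 - L ≤ D → D ≤ 1 + 3 * L → P1 (D - 1) ≤ 1 / D)
    {p r : V 4} (hp : InSimplex p) (hr : InChild L r) :
    avgM aF p r ≤ (∑ s : Equiv.Perm (Fin 4),
      (DD (yv p (r ∘ s)) - MM (yv p (r ∘ s)) * P1 (DD (yv p (r ∘ s)) - 1))) / 24 := by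
  unfold avgM
  have c : ((Nat.factorial 4 : ℕ) : ℝ) = 24 := by norm_num [Nat.factorial]
  rw [c]
  refine div_le_div_of_nonneg_right (Finset.sum_le_sum fun s _ => ?_) (by norm_num)
  have hs := inChild_comp hr s
  obtain ⟨d1, d2⟩ := DD_range hp hs
  have hD : 0 < DD (yv p (r ∘ s)) := by linarith
  rw [term_aF p (r ∘ s) hD]
  have h1 := hP1 _ d1.le d2.le
  have h2 := mul_le_mul_of_nonneg_left h1 (MM_nonneg (yv_nonneg hL hp hs))
  have e : MM (yv p (r ∘ s)) / DD (yv p (r ∘ s)) = MM (yv p (r ∘ s)) * (1 / DD (yv p (r ∘ s))) := by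
    ring
  rw [e]
  linarith

/-- lower bound of the average of the cone functional by an average of polynomials -/
theorem le_avgM_oKg {L K : ℝ} (hL : L < 1) (hK0 : 0 ≤ K) (hK1 : K ≤ 3 / 2) (Q1 Q2 Q3 : ℝ → ℝ)
    (hQ1 : ∀ D : ℝ, 1 - L ≤ D → D ≤ 1 + 3 * L → Q1 (D - 1) ≤ 1 / D)
    (hQ2 : ∀ D : ℝ, 1 - L ≤ D → D ≤ 1 + 3 * L → Q2 (D - 1) ≤ 1 / D ^ 2)
    (hQ3 : ∀ D : ℝ, 1 - L ≤ D → D ≤ 1 + 3 * L → Q3 (D - 1) ≤ 1 / D ^ 3)
    {p r : V 4} (hp : InSimplex p) (hr : InChild L r) :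
    (∑ s : Equiv.Perm (Fin 4),
      (TT (yv p (r ∘ s)) / 2 * Q2 (DD (yv p (r ∘ s)) - 1) - DD (yv p (r ∘ s)) / 2
        + (3 / 2 - K) * WW (yv p (r ∘ s)) * Q1 (DD (yv p (r ∘ s)) - 1)
        + K * (MM (yv p (r ∘ s)) * WW (yv p (r ∘ s))) * Q3 (DD (yv p (r ∘ s)) - 1))) / 24
      ≤ avgM (oKg K) p r := by
  unfold avgM
  have c : ((Nat.factorial 4 : ℕ) : ℝ) = 24 := by norm_num [Nat.factorial]
  rw [c]
  refine div_le_div_of_nonneg_right (Finset.sum_le_sum fun s _ => ?_) (by norm_num)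
  have hs := inChild_comp hr s
  obtain ⟨d1, d2⟩ := DD_range hp hs
  have hD : 0 < DD (yv p (r ∘ s)) := by linarith
  rw [term_oKg K p (r ∘ s) hD]
  have hy := yv_nonneg hL hp hs
  have hM := MM_nonneg hy
  have hT := TT_nonneg hy
  have hW := WW_nonneg (yv p (r ∘ s))
  have b1 := mul_le_mul_of_nonneg_left (hQ1 _ d1.le d2.le)
    (mul_nonneg (by linarith : 0 ≤ 3 / 2 - K) hW)
  have b2 := mul_le_mul_of_nonneg_left (hQ2 _ d1.le d2.le) (by positivity : 0 ≤ TT (yv p (r ∘ s)) / 2)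
  have b3 := mul_le_mul_of_nonneg_left (hQ3 _ d1.le d2.le) (mul_nonneg hK0 (mul_nonneg hM hW))
  linarith

end Vale.Agent.P154Q
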