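import Vale.Agent.P154.Q.Ms

namespace Vale.Agent.P154Q

open Vale.Agent.P154.Refl

def fP0 : P3 := [[[1, 1], [1]], [[1]]]
def fP1 : P3 := [[[1], [1]], [[1]]]
def fP2 : P3 := [[[1]], [[1]]]
def fP3 : P3 := [[[1]]]
def sgP : P3 := [[[4, 1], [2]], [[3]]]
def fR0 : P3 := [[[14, 11], [12]], [[13]]]
def fR1 : P3 := [[[14, 1], [12]], [[13]]]
def fR2 : P3 := [[[14, 1], [2]], [[13]]]
def fR3 : P3 := [[[14, 1], [2]], [[3]]]
def sgR : P3 := [[[56, 14], [28]], [[42]]]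

def bas3 (N : ℕ) (sg f0 f1 f2 f3 : P3) (bs : List Ex4) : List P3 :=
  bs.map (fun b => mul3 (pow3 sg (N - b.deg)) (Ms3 b f0 f1 f2 f3))

end Vale.Agent.P154Q
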