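import Vale.Agent.P154.Q.Bounds4
import Vale.Agent.P154.Q.Perm4

namespace Vale.Agent.P154Q

open Finset

theorem AF_chanP (lam : ℝ) {p : V 4} (hs : ∑ i, p i = 1) : AF (chanP lam p) = lam ^ 3 * AF p := by
  unfold AF chanP
  rw [Fin.sum_univ_four] at hs
  simp only [Fin.sum_univ_four]
  have e : p 3 = 1 - p 0 - p 1 - p 2 := by linarith
  rw [e]
  push_cast
  ring

theorem oKg_chanP {K Kc lam : ℝ} (h0 : 0 ≤ lam) (hK : Kc * lam ≤ K) {p : V 4} (hp : InClosed p) :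
    lam ^ 3 * oKg K p ≤ oKg Kc (chanP lam p) := by
  unfold oKg
  rw [AF_chanP lam hp.2, aF_chanP lam hp.2]
  have h1 : 0 ≤ lam ^ 3 * aF p ^ 2 := by positivity
  have h2 := mul_le_mul_of_nonneg_right hK h1
  nlinarith

theorem oKg_anti {K Kc : ℝ} (h : K ≤ Kc) (p : V 4) : oKg Kc p ≤ oKg K p := by
  unfold oKg
  have := mul_le_mul_of_nonneg_right h (sq_nonneg (aF p))
  linarith

theorem oKg_delta {K : ℝ} (hK : K ≤ 1) (i : Fin 4) :
    0 ≤ oKg K (fun j => if i = j then 1 else 0) := by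
  have e1 : aF (fun j : Fin 4 => if i = j then (1 : ℝ) else 0) = 1 := by
    unfold aF
    simp
    norm_num
  have e2 : AF (fun j : Fin 4 => if i = j then (1 : ℝ) else 0) = 1 := by
    unfold AF
    simp
    norm_num
  unfold oKg
  rw [e1, e2]
  linarith

/-- the cubic gain term -/
noncomputable def GaF (c : ℝ) (p r : V 4) : ℝ := c * aF p * (1 - aF p) * aF r * (aF p + aF r)

theorem GaF_nonneg {c : ℝ} (hc : 0 ≤ c) {p r : V 4} (hp : InClosed p) (hr : InClosed r) :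
    0 ≤ GaF c p r := by
  unfold GaF
  have h1 := aF_nonneg' hp.2
  have h2 := aF_nonneg' hr.2
  have h3 : 0 ≤ 1 - aF p := by linarith [aF_le_one' hp]
  positivity

theorem GaF_gain {c lam : ℝ} (hc : 0 ≤ c) (h1 : lam ^ 2 ≤ 1) {p r : V 4} (hp : InClosed p)
    (hr : InClosed r) :
    c * lam ^ 6 * (1 - lam ^ 2) * (aF p ^ 1 * aF r ^ 2) ≤ GaF c (chanP lam p) (chanP lam r) := by
  unfold GaF
  rw [aF_chanP lam hp.2, aF_chanP lam hr.2]
  have a0 := aF_nonneg' hp.2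
  have b0 := aF_nonneg' hr.2
  have a1 := aF_le_one' hp
  have l0 : 0 ≤ lam ^ 2 := sq_nonneg lam
  have k1 : 1 - lam ^ 2 ≤ 1 - lam ^ 2 * aF p := by nlinarith
  have k2 : 0 ≤ 1 - lam ^ 2 := by linarith
  have k3 : lam ^ 2 * aF r ≤ lam ^ 2 * aF p + lam ^ 2 * aF r := by nlinarith
  have k4 : 0 ≤ c * (lam ^ 2 * aF p) * (lam ^ 2 * aF r) := by positivity
  have k5 : (1 - lam ^ 2) * (lam ^ 2 * aF r) ≤
      (1 - lam ^ 2 * aF p) * (lam ^ 2 * aF p + lam ^ 2 * aF r) :=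
    mul_le_mul k1 k3 (by positivity) (by linarith)
  have k6 := mul_le_mul_of_nonneg_left k5 k4
  calc c * lam ^ 6 * (1 - lam ^ 2) * (aF p ^ 1 * aF r ^ 2)
      = c * (lam ^ 2 * aF p) * (lam ^ 2 * aF r) * ((1 - lam ^ 2) * (lam ^ 2 * aF r)) := by ring
    _ ≤ _ := k6
    _ = _ := by ring

/-- everything except the two averaged inequalities and the signs of the weights -/
theorem coneDataA4_of {L K Kc c : ℝ} {g1 g2 h1 h2 : V 4 → ℝ} (hL0 : 0 < L) (hL1 : L < 1)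
    (hK1 : K ≤ 1) (hKc : K ≤ Kc) (hKL : Kc * L ≤ K) (hKc0 : 0 ≤ Kc) (hc : 0 < c)
    (g1_nonneg : ∀ r, InChild L r → 0 ≤ g1 r)
    (h1_nonneg : ∀ r, InChild L r → 0 ≤ h1 r)
    (g2_nonneg : ∀ p, InSimplex p → 0 ≤ g2 p)
    (h2_nonneg : ∀ p, InSimplex p → 0 ≤ h2 p)
    (j1 : ∀ p r, InSimplex p → InChild L r →
      avgM aF p r ≤ aF p + aF r - oKg K p * g1 r - g2 p * oKg Kc r - GaF c p r)
    (j2 : ∀ p r, InSimplex p → InChild L r →
      oKg K p * h1 r + h2 p * oKg Kc r ≤ avgM (oKg K) p r) :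
    ConeDataA 4 L (oKg K) (oKg Kc) g1 g2 h1 h2 0 0 (GaF c) 1 2 where
  L_pos := hL0
  L_lt := hL1
  c1_nonneg := le_rfl
  c2_nonneg := le_rfl
  g1_nonneg := g1_nonneg
  h1_nonneg := h1_nonneg
  g2_nonneg := g2_nonneg
  h2_nonneg := h2_nonneg
  Ga_nonneg := fun p r hp hr => GaF_nonneg hc.le hp.closed (hr.simplex hL1).closed
  chan := fun lam h0 hl => ⟨lam ^ 3, by positivity, fun p hp =>
    oKg_chanP h0 (le_trans (mul_le_mul_of_nonneg_left hl.le hKc0) hKL) hp⟩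
  oc_le := fun r _ => oKg_anti hKc r
  delta := oKg_delta hK1
  j1 := fun p r hp hr => by
    have := j1 p r hp hr
    linarith
  j2 := fun p r hp hr => by
    have := j2 p r hp hr
    linarith
  gain := fun lam h0 hl => by
    have hl1 : lam < 1 := hl.trans hL1
    have hl2 : lam ^ 2 < 1 := by nlinarith
    exact ⟨c * lam ^ 6 * (1 - lam ^ 2), by
      have : 0 < 1 - lam ^ 2 := by linarith
      positivity, fun p r hp hr => GaF_gain hc.le hl2.le hp hr⟩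

end Vale.Agent.P154Q
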