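import Vale.Agent.P154.Q.Pointwise

namespace Vale.Agent.P154Q

open Finset

variable {q : ℕ}

def Zs (u : V q) : ℝ := ∑ i, u i

noncomputable def nrm (u : V q) : V q := fun i => u i / Zs u

/-- expectation of `f (posterior)` for a family of likelihood vectors -/
noncomputable def Ex {X : Type} [Fintype X] (l : X → V q) (f : V q → ℝ) : ℝ :=
  ∑ x, Zs (l x) / q * f (nrm (l x))

structure Good {X : Type} [Fintype X] (l : X → V q) : Prop where
  pos : ∀ x i, 0 < l x i
  norm : ∀ i, ∑ x, l x i = 1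
  symm : ∀ (g : Equiv.Perm (Fin q)) (H : V q → ℝ), ∑ x, H (l x ∘ g) = ∑ x, H (l x)

theorem Zs_comp (u : V q) (g : Equiv.Perm (Fin q)) : Zs (u ∘ g) = Zs u := by
  unfold Zs
  exact Equiv.sum_comp g u

theorem nrm_comp (u : V q) (g : Equiv.Perm (Fin q)) : nrm (u ∘ g) = nrm u ∘ g := by
  funext i
  simp only [nrm, Zs_comp, Function.comp]

variable [hq : Fact (2 ≤ q)]

theorem univ_nonempty : (Finset.univ : Finset (Fin q)).Nonempty :=
  ⟨⟨0, by have := hq.out; omega⟩, Finset.mem_univ _⟩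

theorem Zs_pos {u : V q} (h : ∀ i, 0 < u i) : 0 < Zs u :=
  Finset.sum_pos (fun i _ => h i) univ_nonempty

theorem nrm_inSimplex {u : V q} (h : ∀ i, 0 < u i) : InSimplex (nrm u) := by
  have hZ := Zs_pos h
  refine ⟨fun i => div_pos (h i) hZ, ?_⟩
  unfold nrm
  rw [← Finset.sum_div]
  exact div_self hZ.ne'

variable {X Y : Type} [Fintype X] [Fintype Y]

theorem sum_weights_of_norm {l : X → V q} (h : ∀ i, ∑ x, l x i = 1) : ∑ x, Zs (l x) / q = 1 := by
  unfold Zs
  rw [← Finset.sum_div, Finset.sum_comm]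
  simp only [h]
  simp only [Finset.sum_const, Finset.card_univ, Fintype.card_fin, nsmul_eq_mul, mul_one]
  exact div_self q_ne

theorem sum_weights {l : X → V q} (h : Good l) : ∑ x, Zs (l x) / q = 1 :=
  sum_weights_of_norm h.norm

theorem weight_pos {l : X → V q} (h : Good l) (x : X) : 0 < Zs (l x) / q :=
  div_pos (Zs_pos (h.pos x)) q_pos

theorem Ex_nonneg {l : X → V q} (h : Good l) {f : V q → ℝ} (hf : ∀ p, InSimplex p → 0 ≤ f p) :
    0 ≤ Ex l f :=
  Finset.sum_nonneg fun x _ => mul_nonneg (weight_pos h x).le (hf _ (nrm_inSimplex (h.pos x)))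

/-- merging two families: pointwise products of likelihood vectors -/
def mfam (l : X → V q) (l' : Y → V q) : X × Y → V q := fun z i => l z.1 i * l' z.2 i

omit hq in
theorem good_mfam {l : X → V q} {l' : Y → V q} (h : Good l) (h' : Good l') :
    Good (mfam l l') where
  pos := fun z i => mul_pos (h.pos _ _) (h'.pos _ _)
  norm := fun i => by
    simp only [mfam]
    rw [Fintype.sum_prod_type]
    simp only []
    rw [← Finset.sum_mul_sum, h.norm, h'.norm, one_mul]
  symm := fun g H => by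
    rw [Fintype.sum_prod_type, Fintype.sum_prod_type]
    have e1 : ∀ x, ∑ y, H (mfam l l' (x, y) ∘ g) = ∑ y, H (fun i => (l x ∘ g) i * l' y i) := by
      intro x
      exact h'.symm g (fun v => H (fun i => (l x ∘ g) i * v i))
    simp only [e1]
    rw [Finset.sum_comm]
    have e2 : ∀ y, ∑ x, H (fun i => (l x ∘ g) i * l' y i) = ∑ x, H (fun i => l x i * l' y i) := by
      intro y
      exact h.symm g (fun u => H (fun i => u i * l' y i))
    simp only [e2]
    rw [Finset.sum_comm]
    rfl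

theorem merge_point {u w : V q} (hu : ∀ i, 0 < u i) (hw : ∀ i, 0 < w i) (f : V q → ℝ) :
    Zs (fun i => u i * w i) / q * f (nrm (fun i => u i * w i)) =
      Zs u / q * (Zs w / q) * (Dm (nrm u) (nrm w) * f (merge (nrm u) (nrm w))) := by
  have hZu := Zs_pos hu
  have hZw := Zs_pos hw
  have hq0 := q_ne (q := q)
  have hS : 0 < ∑ i, u i * w i :=
    Finset.sum_pos (fun i _ => mul_pos (hu i) (hw i)) univ_nonempty
  have e0 : ∑ i, nrm u i * nrm w i = (∑ i, u i * w i) / (Zs u * Zs w) := by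
    rw [Finset.sum_div]
    refine Finset.sum_congr rfl fun i _ => ?_
    simp only [nrm]
    field_simp
  have e1 : nrm (fun i => u i * w i) = merge (nrm u) (nrm w) := by
    funext i
    simp only [merge, e0]
    simp only [nrm, Zs]
    simp only [Zs] at hZu hZw
    field_simp
  have e2 : Zs (fun i => u i * w i) / q = Zs u / q * (Zs w / q) * Dm (nrm u) (nrm w) := by
    simp only [Dm, e0]
    simp only [Zs]
    simp only [Zs] at hZu hZw
    field_simp
  rw [e1, e2]
  ring

theorem Ex_mfam {l : X → V q} {l' : Y → V q} (h : Good l) (h' : Good l') (f : V q → ℝ) :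
    Ex (mfam l l') f = ∑ x, ∑ y, Zs (l x) / q * (Zs (l' y) / q) *
      avgM f (nrm (l x)) (nrm (l' y)) := by
  unfold Ex avgM
  rw [Fintype.sum_prod_type]
  refine Finset.sum_congr rfl fun x _ => ?_
  have e1 : ∀ g : Equiv.Perm (Fin q),
      ∑ y, Zs (mfam l l' (x, y)) / q * f (nrm (mfam l l' (x, y))) =
      ∑ y, Zs (l x) / q * (Zs (l' y) / q) * (Dm (nrm (l x)) (nrm (l' y) ∘ g) *
        f (merge (nrm (l x)) (nrm (l' y) ∘ g))) := by
    intro g
    have := h'.symm g (fun v => Zs (fun i => l x i * v i) / q * f (nrm (fun i => l x i * v i)))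
    refine this.symm.trans ?_
    refine Finset.sum_congr rfl fun y _ => ?_
    have := merge_point (h.pos x) (w := l' y ∘ g) (fun i => h'.pos y (g i)) f
    rw [Zs_comp, nrm_comp] at this
    exact this
  have hfac : ((q.factorial : ℕ) : ℝ) ≠ 0 := by positivity
  have e2 : ((q.factorial : ℕ) : ℝ) * ∑ y, Zs (mfam l l' (x, y)) / q * f (nrm (mfam l l' (x, y))) =
      ∑ g : Equiv.Perm (Fin q), ∑ y, Zs (l x) / q * (Zs (l' y) / q) *
        (Dm (nrm (l x)) (nrm (l' y) ∘ g) * f (merge (nrm (l x)) (nrm (l' y) ∘ g))) := by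
    rw [← Finset.sum_congr rfl (fun g _ => e1 g)]
    simp [Fintype.card_perm]
  rw [Finset.sum_comm] at e2
  have e3 : ∑ y, Zs (l x) / q * (Zs (l' y) / q) *
      ((∑ g : Equiv.Perm (Fin q), Dm (nrm (l x)) (nrm (l' y) ∘ g) *
        f (merge (nrm (l x)) (nrm (l' y) ∘ g))) / ((q.factorial : ℕ) : ℝ)) =
      (∑ y, ∑ g : Equiv.Perm (Fin q), Zs (l x) / q * (Zs (l' y) / q) *
        (Dm (nrm (l x)) (nrm (l' y) ∘ g) * f (merge (nrm (l x)) (nrm (l' y) ∘ g)))) /
          ((q.factorial : ℕ) : ℝ) := by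
    rw [Finset.sum_div]
    refine Finset.sum_congr rfl fun y _ => ?_
    rw [← Finset.mul_sum]
    ring
  rw [e3, ← e2]
  field_simp

end Vale.Agent.P154Q
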