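import Vale.Agent.P154.Q.IdentBase

namespace Vale.Agent.P154Q

open Vale.Agent.P154.Refl

set_option maxRecDepth 1000000 in
theorem zFJ1 : isz4 (sub4 (lin4 fvecJ1 (bas4 parts8)) UFJ1) = true := by decide +kernel

set_option maxRecDepth 1000000 in
theorem z1one : isz4 (sub4 (lin4 vJ1one (bas4 parts8)) Uone) = true := by decide +kernel

set_option maxRecDepth 1000000 in
theorem z1a : isz4 (sub4 (lin4 vJ1a (bas4 parts8)) Ua) = true := by decide +kernel

set_option maxRecDepth 1000000 in
theorem z1a2 : isz4 (sub4 (lin4 vJ1a2 (bas4 parts8)) Ua2) = true := by decide +kernel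

end Vale.Agent.P154Q
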