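import Vale.Agent.P154.Q.IdentBase

namespace Vale.Agent.P154Q

open Vale.Agent.P154.Refl

set_option maxRecDepth 1000000 in
theorem z1o : isz4 (sub4 (lin4 vJ1o (bas4 parts8)) Uo) = true := by decide +kernel

set_option maxRecDepth 1000000 in
theorem z1oc : isz4 (sub4 (lin4 vJ1oc (bas4 parts8)) Uoc) = true := by decide +kernel

set_option maxRecDepth 1000000 in
theorem z1aE : isz4 (sub4 (lin4 vJ1aE (bas4 parts8)) UaE) = true := by decide +kernel

set_option maxRecDepth 1000000 in
theorem z1a2E : isz4 (sub4 (lin4 vJ1a2E (bas4 parts8)) Ua2E) = true := by decide +kernel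

end Vale.Agent.P154Q
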