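import Vale.Agent.P154.Q.Alg

namespace Vale.Agent.P154Q

/-- children of the channel with parameter below `5/7` -/
def InCh (r : V 4) : Prop := (∀ i, 1 / 14 < r i) ∧ ∑ i, r i = 1

/-- the cubic invariant: the product of the three magnetisations -/
noncomputable def A4 (p : V 4) : ℝ := (8 * ∑ i, p i ^ 3 - 6 * ∑ i, p i ^ 2 + 1) / 3

/-- cone functional for merged vectors -/
noncomputable def oK (p : V 4) : ℝ := A4 p - 43 / 50 * (aF p) ^ 2

/-- cone functional for children -/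
noncomputable def ocK (p : V 4) : ℝ := A4 p - 301 / 250 * (aF p) ^ 2

noncomputable def Sf (y : V 4) : ℝ := y 0 + y 1 + y 2 + y 3

noncomputable def e2f (y : V 4) : ℝ :=
  y 0 * y 1 + y 0 * y 2 + y 0 * y 3 + y 1 * y 2 + y 1 * y 3 + y 2 * y 3

noncomputable def e3f (y : V 4) : ℝ :=
  y 0 * y 1 * y 2 + y 0 * y 1 * y 3 + y 0 * y 2 * y 3 + y 1 * y 2 * y 3

/-- polynomial lower bound of `1 / (1 + t)` on `[-5/7, 15/7]`, used for the first inequality -/
noncomputable def PJ (t : ℝ) : ℝ :=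
  1 + (-1) * t + 1 * t ^ 2 + (-1) * t ^ 3 + 99 / 100 * t ^ 4 + (-22 / 25) * t ^ 5 + 13 / 50 * t ^ 6

/-- polynomial lower bound of `1 / (1 + t)` on `[-5/7, 15/7]` -/
noncomputable def PA (t : ℝ) : ℝ :=
  1 + (-1) * t + 17387 / 20000 * t ^ 2 + (-20703 / 25000) * t ^ 3 + 69929 / 50000 * t ^ 4 + (-94373 / 50000) * t ^ 5 + 67957 / 50000 * t ^ 6 + (-47773 / 100000) * t ^ 7 + 6507 / 100000 * t ^ 8

/-- polynomial lower bound of `1 / (1 + t) ^ 2` on `[-5/7, 15/7]` -/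
noncomputable def PB (t : ℝ) : ℝ :=
  1 + (-2) * t + 297831 / 100000 * t ^ 2 + (-13953 / 3125) * t ^ 3 + 147311 / 50000 * t ^ 4 + 48497 / 20000 * t ^ 5 + (-369319 / 100000) * t ^ 6 + 21163 / 20000 * t ^ 7

/-- polynomial lower bound of `1 / (1 + t) ^ 3` on `[-5/7, 15/7]` -/
noncomputable def PC (t : ℝ) : ℝ :=
  1 + (-3) * t + 284343 / 50000 * t ^ 2 + (-730203 / 100000) * t ^ 3 + 557569 / 100000 * t ^ 4 + (-219763 / 100000) * t ^ 5 + 34009 / 100000 * t ^ 6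

/-- polynomial upper bound of `D a(merge)` in the products `y i = p i * r (s i)` -/
noncomputable def FJ1 (y : V 4) : ℝ :=
  4 * Sf y - 128 / 3 * e2f y * PJ (4 * Sf y - 1)

/-- polynomial lower bound of `D o(merge)` in the products `y i = p i * r (s i)` -/
noncomputable def FJ2 (y : V 4) : ℝ :=
  512 * e3f y * PB (4 * Sf y - 1) - 2 * Sf y
    + 16 / 25 * (16 * Sf y ^ 2 - 128 / 3 * e2f y) * PA (4 * Sf y - 1)
    + 43 / 50 * (128 / 3 * e2f y) * (16 * Sf y ^ 2 - 128 / 3 * e2f y) * PC (4 * Sf y - 1)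

end Vale.Agent.P154Q
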