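import Vale.Agent.P154.Q.DataJ1
import Vale.Agent.P154.Q.DataJ2
import Vale.Agent.P154.Q.PolyDefs
import Vale.Agent.P154.Q.Ms

namespace Vale.Agent.P154Q

open Vale.Agent.P154.Refl

def bas4 (bs : List Ex4) : List P4 := bs.map (fun b => Ms4 b X4 Y4 Z4 W4)

theorem lin_eq (bs : List Ex4) (cs : List ℤ) (U : P4)
    (h : isz4 (sub4 (lin4 cs (bas4 bs)) U) = true) (v : V 4) :
    linR cs (MsL bs v) = ev4 (v 0) (v 1) (v 2) (v 3) U := by
  have h1 := ev4_isz (x := v 0) (y := v 1) (z := v 2) (w := v 3) _ h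
  rw [ev4_sub, ev4_lin4] at h1
  have h2 : (bas4 bs).map (ev4 (v 0) (v 1) (v 2) (v 3)) = MsL bs v := by
    unfold bas4 MsL
    rw [List.map_map]
    refine List.map_congr_left fun b _ => ?_
    simp only [Function.comp, ev4_Ms4, ev4_X4, ev4_Y4, ev4_Z4, ev4_W4, Ms_eq]
  rw [h2] at h1
  linarith

def hor4 : List ℤ → P4 → P4
  | [], _ => []
  | c :: cs, t => add4 (c4 c) (mul4 t (hor4 cs t))

noncomputable def horR : List ℤ → ℝ → ℝ
  | [], _ => 0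
  | c :: cs, t => c + t * horR cs t

theorem ev4_hor4 {x y z w : ℝ} (t : P4) : ∀ cs : List ℤ,
    ev4 x y z w (hor4 cs t) = horR cs (ev4 x y z w t)
  | [] => by simp [hor4, horR, ev4, evL]
  | c :: cs => by simp only [hor4, horR, ev4_add, ev4_mul, ev4_c4, ev4_hor4 t cs]

def S4p : P4 := add4 (add4 (add4 X4 Y4) Z4) W4
def Q2p : P4 := add4 (add4 (add4 (pow4 X4 2) (pow4 Y4 2)) (pow4 Z4 2)) (pow4 W4 2)
def Q3p : P4 := add4 (add4 (add4 (pow4 X4 3) (pow4 Y4 3)) (pow4 Z4 3)) (pow4 W4 3)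
def E2p : P4 := add4 (add4 (add4 (add4 (add4 (mul4 X4 Y4) (mul4 X4 Z4)) (mul4 X4 W4)) (mul4 Y4 Z4))
  (mul4 Y4 W4)) (mul4 Z4 W4)
def E3p : P4 := add4 (add4 (add4 (mul4 (mul4 X4 Y4) Z4) (mul4 (mul4 X4 Y4) W4))
  (mul4 (mul4 X4 Z4) W4)) (mul4 (mul4 Y4 Z4) W4)
def tau4 : P4 := sub4 (smul4 4 S4p) (c4 1)
def a3p : P4 := sub4 (smul4 4 Q2p) (c4 1)
def A3p : P4 := add4 (sub4 (smul4 8 Q3p) (smul4 6 Q2p)) (c4 1)
def W3p : P4 := sub4 (smul4 3 (mul4 S4p S4p)) (smul4 8 E2p)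

def cPJ : List ℤ := [100, -100, 100, -100, 99, -88, 26]
def cPA : List ℤ := [100000, -100000, 86935, -82812, 139858, -188746, 135914, -47773, 6507]
def cPB : List ℤ := [100000, -200000, 297831, -446496, 294622, 242485, -369319, 105815]
def cPC : List ℤ := [100000, -300000, 568686, -730203, 557569, -219763, 34009]

def UFJ1 : P4 := sub4 (smul4 300 S4p) (smul4 32 (mul4 E2p (hor4 cPJ tau4)))
def UFJ2 : P4 := add4 (add4 (sub4 (smul4 3600 (mul4 E3p (hor4 cPB tau4))) (smul4 1406250 S4p))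
  (smul4 24 (mul4 W3p (hor4 cPA tau4)))) (smul4 1376 (mul4 (mul4 E2p W3p) (hor4 cPC tau4)))
def Uone : P4 := c4 24
def Ua : P4 := smul4 24 a3p
def Ua2 : P4 := smul4 24 (mul4 a3p a3p)
def Uo : P4 := smul4 24 (sub4 (smul4 150 A3p) (smul4 43 (mul4 a3p a3p)))
def Uoc : P4 := smul4 24 (sub4 (smul4 750 A3p) (smul4 301 (mul4 a3p a3p)))
def UaE : P4 := smul4 6 (mul4 a3p (sub4 (c4 3) a3p))
def Ua2E : P4 := smul4 6 (mul4 (mul4 a3p a3p) (sub4 (c4 3) a3p))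

end Vale.Agent.P154Q
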