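import Vale.Agent.P154.Q.IdentBase

namespace Vale.Agent.P154Q

open Vale.Agent.P154.Refl

set_option maxRecDepth 1000000 in
theorem zFJ2 : isz4 (sub4 (lin4 fvecJ2 (bas4 parts10)) UFJ2) = true := by decide +kernel

end Vale.Agent.P154Q
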