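import Vale.Agent.P154.Q.IdentBase

namespace Vale.Agent.P154Q

open Vale.Agent.P154.Refl

set_option maxRecDepth 1000000 in
theorem z2o : isz4 (sub4 (lin4 vJ2o (bas4 parts10)) Uo) = true := by decide +kernel

set_option maxRecDepth 1000000 in
theorem z2oc : isz4 (sub4 (lin4 vJ2oc (bas4 parts10)) Uoc) = true := by decide +kernel

end Vale.Agent.P154Q
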