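import Vale.Agent.P154.Q.PolyDefs
import Vale.Agent.P154.Refl

namespace Vale.Agent.P154Q

open Vale.Agent.P154.Refl

/-- coefficients of `q (m + th)` as a polynomial in `th` -/
def shift1 (m : ℤ) : P1 → P1
  | [] => []
  | a :: p => add1 [a] (mul1 [m, 1] (shift1 m p))

theorem ev1_shift1 (m : ℤ) (th : ℝ) : ∀ p : P1, ev1 th (shift1 m p) = ev1 ((m : ℝ) + th) p
  | [] => rfl
  | a :: p => by
      have e1 : ev1 th [a] = (a : ℝ) := by simp [ev1, evL]
      have e2 : ev1 th [m, 1] = (m : ℝ) + th := by simp [ev1, evL]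
      have e3 : ev1 ((m : ℝ) + th) (a :: p) = (a : ℝ) + ((m : ℝ) + th) * ev1 ((m : ℝ) + th) p := rfl
      rw [shift1, ev1_add, ev1_mul, ev1_shift1 m th p, e1, e2, e3]

/-- sum of the negative coefficients -/
def lowT : P1 → ℤ
  | [] => 0
  | a :: p => min 0 a + lowT p

/-- lower bound on `[0, 1]` -/
def lowB : P1 → ℤ
  | [] => 0
  | a :: p => a + lowT p

theorem lowT_nonpos : ∀ p : P1, lowT p ≤ 0
  | [] => le_rfl
  | a :: p => by
      have h1 := lowT_nonpos p
      have h2 : min 0 a ≤ 0 := min_le_left 0 a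
      simp only [lowT]
      omega

theorem lowT_le {th : ℝ} (h0 : 0 ≤ th) (h1 : th ≤ 1) : ∀ p : P1, (lowT p : ℝ) ≤ ev1 th p
  | [] => by simp [lowT, ev1, evL]
  | a :: p => by
      have ih := lowT_le h0 h1 p
      have hn : (lowT p : ℝ) ≤ 0 := by exact_mod_cast lowT_nonpos p
      have hm : ((min 0 a : ℤ) : ℝ) ≤ (a : ℝ) := by exact_mod_cast min_le_right 0 a
      have e3 : ev1 th (a :: p) = (a : ℝ) + th * ev1 th p := rfl
      rw [e3]
      simp only [lowT]
      push_cast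
      push_cast at hm
      nlinarith [mul_le_mul_of_nonneg_left ih h0, mul_nonneg (sub_nonneg.2 h1) (neg_nonneg.2 hn)]

theorem lowB_le {th : ℝ} (h0 : 0 ≤ th) (h1 : th ≤ 1) : ∀ p : P1, (lowB p : ℝ) ≤ ev1 th p
  | [] => by simp [lowB, ev1, evL]
  | a :: p => by
      have ih := lowT_le h0 h1 p
      have hn : (lowT p : ℝ) ≤ 0 := by exact_mod_cast lowT_nonpos p
      have e3 : ev1 th (a :: p) = (a : ℝ) + th * ev1 th p := rfl
      rw [e3]
      simp only [lowB]
      push_cast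
      nlinarith [mul_le_mul_of_nonneg_left ih h0, mul_nonneg (sub_nonneg.2 h1) (neg_nonneg.2 hn)]

/-- cellwise check on `[lo, lo + n]` with cells of length one -/
def chk (q : P1) (lo : ℤ) (n : ℕ) : Bool :=
  (List.range n).all (fun k => decide (0 ≤ lowB (shift1 (lo + (k : ℤ)) q)))

theorem exists_cell (n : ℕ) (hn : 0 < n) (Y : ℝ) (h0 : 0 ≤ Y) (h1 : Y ≤ n) :
    ∃ k : ℕ, k < n ∧ (k : ℝ) ≤ Y ∧ Y ≤ (k : ℝ) + 1 := by
  by_cases hx : Y < n
  · exact ⟨⌊Y⌋₊, (Nat.floor_lt h0).2 hx, Nat.floor_le h0, (Nat.lt_floor_add_one Y).le⟩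
  · have e : Y = n := le_antisymm h1 (not_lt.1 hx)
    have c : ((n - 1 : ℕ) : ℝ) = (n : ℝ) - 1 := by
      rw [Nat.cast_sub hn]
      simp
    refine ⟨n - 1, by omega, ?_, ?_⟩
    · rw [c, e]; linarith
    · rw [c, e]; linarith

theorem chk_nonneg (q : P1) (lo : ℤ) (n : ℕ) (hn : 0 < n) (h : chk q lo n = true) (X : ℝ)
    (h1 : (lo : ℝ) ≤ X) (h2 : X ≤ (lo : ℝ) + n) : 0 ≤ ev1 X q := by
  obtain ⟨k, hk, k1, k2⟩ := exists_cell n hn (X - lo) (by linarith) (by linarith)
  have hc := (List.all_eq_true.1 h) k (List.mem_range.2 hk)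
  have hc' : 0 ≤ lowB (shift1 (lo + (k : ℤ)) q) := of_decide_eq_true hc
  have hb := lowB_le (th := X - lo - k) (by linarith) (by linarith) (shift1 (lo + (k : ℤ)) q)
  rw [ev1_shift1] at hb
  have e : ((lo + (k : ℤ) : ℤ) : ℝ) + (X - lo - k) = X := by push_cast; ring
  rw [e] at hb
  have : (0 : ℝ) ≤ (lowB (shift1 (lo + (k : ℤ)) q) : ℝ) := by exact_mod_cast hc'
  linarith

def qJ : P1 := [2744, -2156, 868, -26]

theorem qJ_chk : chk qJ (-10) 40 = true := by decide +kernel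

theorem hPJ : ∀ D : ℝ, 2 / 7 ≤ D → D ≤ 22 / 7 → PJ (D - 1) ≤ 1 / D := by
  intro D h1 h2
  have hD : 0 < D := by linarith
  rw [le_div_iff₀ (by positivity)]
  have key : 0 ≤ ev1 (14 * (D - 1)) qJ :=
    chk_nonneg qJ (-10) 40 (by norm_num) qJ_chk _ (by push_cast; linarith) (by push_cast; linarith)
  have id : (274400 : ℝ) * (1 - PJ (D - 1) * D) = (D - 1) ^ 4 * ev1 (14 * (D - 1)) qJ := by
    unfold PJ qJ
    simp only [ev1, evL]
    push_cast
    ring
  have h3 : 0 ≤ (D - 1) ^ 4 * ev1 (14 * (D - 1)) qJ := mul_nonneg (by positivity) key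
  rw [← id] at h3
  linarith

def qA : P1 := [8860984446772185, -57067627129723, -16114083054454, 281829591288, 6215631968, -211626541, 2022034, -6507]

theorem qA_chk : chk qA (-35) 140 = true := by decide +kernel

theorem hPA : ∀ D : ℝ, 2 / 7 ≤ D → D ≤ 22 / 7 → PA (D - 1) ≤ 1 / D := by
  intro D h1 h2
  have hD : 0 < D := by linarith
  rw [le_div_iff₀ (by positivity)]
  have key : 0 ≤ ev1 (49 * (D - 1)) qA :=
    chk_nonneg qA (-35) 140 (by norm_num) qA_chk _ (by push_cast; linarith) (by push_cast; linarith)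
  have id : (67822307284900000 : ℝ) * (1 - PA (D - 1) * D) = (D - 1) ^ 2 * ev1 (49 * (D - 1)) qA := by
    unfold PA qA
    simp only [ev1, evL]
    push_cast
    ring
  have h3 : 0 ≤ (D - 1) ^ 2 * ev1 (49 * (D - 1)) qA := mul_nonneg (by positivity) key
  rw [← id] at h3
  linarith

def qB : P1 := [188296428161213568, 45030911588840576, 2716634523494752, -35532665338128, -386145665416, 3748806152, 15453522, -105815]

theorem qB_chk : chk qB (-70) 280 = true := by decide +kernel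

theorem hPB : ∀ D : ℝ, 2 / 7 ≤ D → D ≤ 22 / 7 → PB (D - 1) ≤ 1 / D ^ 2 := by
  intro D h1 h2
  have hD : 0 < D := by linarith
  rw [le_div_iff₀ (by positivity)]
  have key : 0 ≤ ev1 (98 * (D - 1)) qB :=
    chk_nonneg qB (-70) 280 (by norm_num) qB_chk _ (by push_cast; linarith) (by push_cast; linarith)
  have id : (8681255332467200000 : ℝ) * (1 - PB (D - 1) * D ^ 2) = (D - 1) ^ 2 * ev1 (98 * (D - 1)) qB := by
    unfold PB qB
    simp only [ev1, evL]
    push_cast
    ring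
  have h3 : 0 ≤ (D - 1) ^ 2 * ev1 (98 * (D - 1)) qB := mul_nonneg (by positivity) key
  rw [← id] at h3
  linarith

def qC : P1 := [21237877303193586, -2434059560731855, 64116796968518, 974130308179, -37321086376, -737107, 5769064, -34009]

theorem qC_chk : chk qC (-35) 140 = true := by decide +kernel

theorem hPC : ∀ D : ℝ, 2 / 7 ≤ D → D ≤ 22 / 7 → PC (D - 1) ≤ 1 / D ^ 3 := by
  intro D h1 h2
  have hD : 0 < D := by linarith
  rw [le_div_iff₀ (by positivity)]
  have key : 0 ≤ ev1 (49 * (D - 1)) qC :=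
    chk_nonneg qC (-35) 140 (by norm_num) qC_chk _ (by push_cast; linarith) (by push_cast; linarith)
  have id : (67822307284900000 : ℝ) * (1 - PC (D - 1) * D ^ 3) = (D - 1) ^ 2 * ev1 (49 * (D - 1)) qC := by
    unfold PC qC
    simp only [ev1, evL]
    push_cast
    ring
  have h3 : 0 ≤ (D - 1) ^ 2 * ev1 (49 * (D - 1)) qC := mul_nonneg (by positivity) key
  rw [← id] at h3
  linarith

end Vale.Agent.P154Q
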