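import Vale.Agent.P154.Q.Common4
import Vale.Agent.P154.Q.PolyDefs
import Vale.Agent.P154.Q.RegularA
import Vale.Agent.P154.Q.GWA

namespace Vale.Agent.P154Q

open Finset

theorem A4_eq_AF : A4 = AF := rfl

theorem oK_eq : oK = oKg (43 / 50) := rfl

theorem ocK_eq : ocK = oKg (301 / 250) := rfl

theorem inCh_iff (r : V 4) : InCh r ↔ InChild (5 / 7) r := by
  unfold InCh InChild
  have e : ((1 : ℝ) - 5 / 7) / ((4 : ℕ) : ℝ) = 1 / 14 := by norm_num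
  rw [e]

theorem yv_comp (p r : V 4) (s : Equiv.Perm (Fin 4)) :
    (fun i => p i * r (s i)) = yv p (r ∘ s) := rfl

theorem DD_eq_Sf (y : V 4) : DD y = 4 * Sf y := rfl

theorem e2y_eq (y : V 4) : e2y y = e2f y := rfl

theorem e3y_eq (y : V 4) : e3y y = e3f y := rfl

/-- one term of the average of the first functional is below the polynomial `FJ1` -/
theorem term_a (hPJ : ∀ D : ℝ, 2 / 7 ≤ D → D ≤ 22 / 7 → PJ (D - 1) ≤ 1 / D)
    {p r : V 4} (hp : InSimplex p) (hr : InCh r) (s : Equiv.Perm (Fin 4)) :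
    Dm p (r ∘ s) * aF (merge p (r ∘ s)) ≤ FJ1 (fun i => p i * r (s i)) := by
  have hs := inChild_comp ((inCh_iff r).1 hr) s
  obtain ⟨d1, d2⟩ := DD_range hp hs
  have hD : 0 < DD (yv p (r ∘ s)) := by linarith
  rw [term_aF p (r ∘ s) hD, yv_comp]
  have h1 := hPJ (DD (yv p (r ∘ s))) (by linarith) (by linarith)
  have h2 := mul_le_mul_of_nonneg_left h1 (MM_nonneg (yv_nonneg (by norm_num) hp hs))
  have e : MM (yv p (r ∘ s)) / DD (yv p (r ∘ s)) = MM (yv p (r ∘ s)) * (1 / DD (yv p (r ∘ s))) := by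
    ring
  have e2 : FJ1 (yv p (r ∘ s)) = DD (yv p (r ∘ s))
      - MM (yv p (r ∘ s)) * PJ (DD (yv p (r ∘ s)) - 1) := rfl
  rw [e, e2]
  linarith

/-- one term of the average of the cone functional is above the polynomial `FJ2` -/
theorem term_o (hPA : ∀ D : ℝ, 2 / 7 ≤ D → D ≤ 22 / 7 → PA (D - 1) ≤ 1 / D)
    (hPB : ∀ D : ℝ, 2 / 7 ≤ D → D ≤ 22 / 7 → PB (D - 1) ≤ 1 / D ^ 2)
    (hPC : ∀ D : ℝ, 2 / 7 ≤ D → D ≤ 22 / 7 → PC (D - 1) ≤ 1 / D ^ 3)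
    {p r : V 4} (hp : InSimplex p) (hr : InCh r) (s : Equiv.Perm (Fin 4)) :
    FJ2 (fun i => p i * r (s i)) ≤ Dm p (r ∘ s) * oK (merge p (r ∘ s)) := by
  have hs := inChild_comp ((inCh_iff r).1 hr) s
  obtain ⟨d1, d2⟩ := DD_range hp hs
  have hD : 0 < DD (yv p (r ∘ s)) := by linarith
  rw [oK_eq, term_oKg _ p (r ∘ s) hD, yv_comp]
  have hy := yv_nonneg (by norm_num) hp hs
  have hM := MM_nonneg hy
  have hT := TT_nonneg hy
  have hW := WW_nonneg (yv p (r ∘ s))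
  have l1 : (2 : ℝ) / 7 ≤ DD (yv p (r ∘ s)) := by linarith
  have l2 : DD (yv p (r ∘ s)) ≤ 22 / 7 := by linarith
  have b1 := mul_le_mul_of_nonneg_left (hPA _ l1 l2)
    (mul_nonneg (by norm_num : (0 : ℝ) ≤ 3 / 2 - 43 / 50) hW)
  have b2 := mul_le_mul_of_nonneg_left (hPB _ l1 l2) (by positivity : 0 ≤ TT (yv p (r ∘ s)) / 2)
  have b3 := mul_le_mul_of_nonneg_left (hPC _ l1 l2)
    (mul_nonneg (by norm_num : (0 : ℝ) ≤ 43 / 50) (mul_nonneg hM hW))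
  have e2 : FJ2 (yv p (r ∘ s)) = TT (yv p (r ∘ s)) / 2 * PB (DD (yv p (r ∘ s)) - 1)
      - DD (yv p (r ∘ s)) / 2
      + (3 / 2 - 43 / 50) * WW (yv p (r ∘ s)) * PA (DD (yv p (r ∘ s)) - 1)
      + 43 / 50 * (MM (yv p (r ∘ s)) * WW (yv p (r ∘ s))) * PC (DD (yv p (r ∘ s)) - 1) := by
    unfold FJ2 TT WW MM
    rw [DD_eq_Sf, e2y_eq, e3y_eq]
    ring
  rw [e2]
  linarith

/-- averaged form of `term_a` -/
theorem avgM_aF_le_FJ1 (hPJ : ∀ D : ℝ, 2 / 7 ≤ D → D ≤ 22 / 7 → PJ (D - 1) ≤ 1 / D)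
    {p r : V 4} (hp : InSimplex p) (hr : InCh r) :
    avgM aF p r ≤ (∑ s : Equiv.Perm (Fin 4), FJ1 (fun i => p i * r (s i))) / 24 := by
  unfold avgM
  have c : ((Nat.factorial 4 : ℕ) : ℝ) = 24 := by norm_num [Nat.factorial]
  rw [c]
  exact div_le_div_of_nonneg_right (Finset.sum_le_sum fun s _ => term_a hPJ hp hr s) (by norm_num)

/-- averaged form of `term_o` -/
theorem FJ2_le_avgM_oK (hPA : ∀ D : ℝ, 2 / 7 ≤ D → D ≤ 22 / 7 → PA (D - 1) ≤ 1 / D)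
    (hPB : ∀ D : ℝ, 2 / 7 ≤ D → D ≤ 22 / 7 → PB (D - 1) ≤ 1 / D ^ 2)
    (hPC : ∀ D : ℝ, 2 / 7 ≤ D → D ≤ 22 / 7 → PC (D - 1) ≤ 1 / D ^ 3)
    {p r : V 4} (hp : InSimplex p) (hr : InCh r) :
    (∑ s : Equiv.Perm (Fin 4), FJ2 (fun i => p i * r (s i))) / 24 ≤ avgM oK p r := by
  unfold avgM
  have c : ((Nat.factorial 4 : ℕ) : ℝ) = 24 := by norm_num [Nat.factorial]
  rw [c]
  exact div_le_div_of_nonneg_right
    (Finset.sum_le_sum fun s _ => term_o hPA hPB hPC hp hr s) (by norm_num)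

/-- the cone data for `oK`, `ocK`, `L = 5/7` from the two averaged inequalities and the signs -/
theorem coneDataA_K {g1 g2 h1 h2 : V 4 → ℝ}
    (g1_nonneg : ∀ r, InCh r → 0 ≤ g1 r)
    (h1_nonneg : ∀ r, InCh r → 0 ≤ h1 r)
    (g2_nonneg : ∀ p, InSimplex p → 0 ≤ g2 p)
    (h2_nonneg : ∀ p, InSimplex p → 0 ≤ h2 p)
    (j1 : ∀ p r, InSimplex p → InCh r →
      avgM aF p r ≤ aF p + aF r - oK p * g1 r - g2 p * ocK r
        - 1 / 25 * (aF p * (1 - aF p) * aF r * (aF p + aF r)))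
    (j2 : ∀ p r, InSimplex p → InCh r → oK p * h1 r + h2 p * ocK r ≤ avgM oK p r) :
    ConeDataA 4 (5 / 7) oK ocK g1 g2 h1 h2 0 0 (GaF (1 / 25)) 1 2 := by
  rw [oK_eq, ocK_eq]
  refine coneDataA4_of (by norm_num) (by norm_num) (by norm_num) (by norm_num) (by norm_num)
    (by norm_num) (by norm_num)
    (fun r hr => g1_nonneg r ((inCh_iff r).2 hr)) (fun r hr => h1_nonneg r ((inCh_iff r).2 hr))
    g2_nonneg h2_nonneg ?_ ?_
  · intro p r hp hr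
    have := j1 p r hp ((inCh_iff r).2 hr)
    rw [oK_eq, ocK_eq] at this
    unfold GaF
    linarith
  · intro p r hp hr
    have := j2 p r hp ((inCh_iff r).2 hr)
    rw [oK_eq, ocK_eq] at this
    exact this

end Vale.Agent.P154Q
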