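import Vale.Agent.P154.Q.Assembly
import Vale.Agent.P154.Q.Terms
import Vale.Agent.P154.Q.OneVar

/-! The cone data for four colours. -/

namespace Vale.Agent.P154Q

theorem coneData4K :
    ConeDataA 4 (5 / 7) oK ocK g1K g2K h1K h2K 0 0 (GaF (1 / 25)) 1 2 :=
  coneDataA_K g1K_nonneg h1K_nonneg g2K_nonneg h2K_nonneg
    (fun p r hp hr => j1K (fun _ _ hp hr s => term_a hPJ hp hr s) p r hp hr)
    (fun p r hp hr => j2K (fun _ _ hp hr s => term_o hPA hPB hPC hp hr s) p r hp hr)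

theorem coneData4 : ∃ g1 g2 h1 h2 : V 4 → ℝ,
    ConeDataA 4 (5 / 7) oK ocK g1 g2 h1 h2 0 0 (GaF (1 / 25)) 1 2 :=
  ⟨g1K, g2K, h1K, h2K, coneData4K⟩

end Vale.Agent.P154Q
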