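import Vale.Agent.P154.Q.KRep

/-! Soundness of the row check and of the bilinear check. -/

namespace Vale.Agent.P154K

open Vale.Agent.P154.Refl Vale.Agent.P154Q

variable {B N : ℕ}

theorem lt_of_blt {a b : ℕ} (h : Nat.blt a b = true) : a < b := Nat.le_of_ble_eq_true h

theorem linR_nil_right : ∀ c : List ℤ, linR c [] = 0
  | [] => by simp [linR]
  | _ :: _ => by simp [linR]

theorem linR_addV : ∀ (a b : List ℤ) (vs : List ℝ), linR (addV a b) vs = linR a vs + linR b vs
  | [], b, vs => by simp [addV, linR]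
  | a :: p, [], vs => by simp [addV, linR]
  | a :: p, b :: q, [] => by simp [addV, linR]
  | a :: p, b :: q, v :: vs => by
      simp only [addV, linR, linR_addV p q vs]
      push_cast
      ring

theorem linR_smulV (c : ℤ) : ∀ (a : List ℤ) (vs : List ℝ), linR (smulV c a) vs = c * linR a vs
  | [], vs => by simp [smulV, linR]
  | a :: p, [] => by simp [smulV, linR]
  | a :: p, v :: vs => by
      simp only [smulV, linR, linR_smulV c p vs]
      push_cast
      ring

theorem bilR_addM : ∀ (A C : List (List ℤ)) (ps qs : List ℝ),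
    bilR (addM A C) ps qs = bilR A ps qs + bilR C ps qs
  | [], C, ps, qs => by simp [addM, bilR]
  | a :: A, [], ps, qs => by simp [addM, bilR]
  | a :: A, c :: C, [], qs => by simp [addM, bilR]
  | a :: A, c :: C, p :: ps, qs => by
      simp only [addM, bilR, linR_addV, bilR_addM A C ps qs]
      ring

theorem bilR_nil_right : ∀ (A : List (List ℤ)) (ps : List ℝ), bilR A ps [] = 0
  | [], ps => by simp [bilR]
  | a :: A, [] => by simp [bilR]
  | a :: A, p :: ps => by simp [bilR, linR_nil_right, bilR_nil_right A ps]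

theorem bilR_consZ : ∀ (A : List (List ℤ)) (ps : List ℝ) (q : ℝ) (qs : List ℝ),
    bilR (consZ A) ps (q :: qs) = bilR A ps qs
  | [], ps, q, qs => by simp [consZ, bilR]
  | a :: A, [], q, qs => by simp [consZ, bilR]
  | a :: A, p :: ps, q, qs => by simp [consZ, bilR, linR, bilR_consZ A ps q qs]

theorem bilR_diagM : ∀ (dv : List ℤ) (ps qs : List ℝ), bilR (diagM dv) ps qs = diagR dv ps qs
  | [], ps, qs => by simp [diagM, bilR, diagR]
  | d :: ds, [], qs => by simp [diagM, bilR, diagR]
  | d :: ds, p :: ps, [] => by simp [diagM, bilR_nil_right, diagR]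
  | d :: ds, p :: ps, q :: qs => by
      simp only [diagM, bilR, diagR, linR, bilR_consZ, bilR_diagM ds ps qs]
      ring

theorem bilR_outM (t2 : List ℤ) : ∀ (t1 : List ℤ) (ps qs : List ℝ),
    bilR (outM t2 t1) ps qs = linR t1 ps * linR t2 qs
  | [], ps, qs => by simp [outM, bilR, linR]
  | a :: p, [], qs => by simp [outM, bilR, linR]
  | a :: p, u :: us, qs => by
      simp only [outM, bilR, linR, linR_smulV, bilR_outM t2 p us qs]
      ring

theorem bilR_rkM : ∀ (FL : List (List ℤ × List ℤ)) (ps qs : List ℝ),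
    bilR (rkM FL) ps qs = rkR FL ps qs
  | [], ps, qs => by simp [rkM, bilR, rkR]
  | t :: ts, ps, qs => by
      simp only [rkM, rkR, bilR_addM, bilR_outM, bilR_rkM ts ps qs]

/-- the matrix form of the bilinear form -/
theorem bilR_matM (dv : List ℤ) (FL : List (List ℤ × List ℤ)) (ps qs : List ℝ) :
    bilR (matM dv FL) ps qs = diagR dv ps qs + rkR FL ps qs := by
  simp only [matM, bilR_addM, bilR_diagM, bilR_rkM]

theorem linR_pos_neg : ∀ (c : List ℤ) (us : List ℝ),
    linR c us = linNR (posL c) us - linNR (negL c) us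
  | [], us => by simp [linR, posL, negL, linNR]
  | c :: cs, [] => by simp [linR, posL, negL, linNR]
  | c :: cs, u :: us => by
      have h : (c : ℝ) = ((c.toNat : ℕ) : ℝ) - (((-c).toNat : ℕ) : ℝ) := by
        have h1 : (c : ℤ) = (c.toNat : ℤ) - ((-c).toNat : ℤ) := by omega
        exact_mod_cast congrArg (fun t : ℤ => (t : ℝ)) h1
      simp only [linR, posL, negL, linNR, linR_pos_neg cs us]
      rw [h]
      ring

theorem pos_neg_sound {ι : Type} (hB : 0 < B) (V S : ι → ℕ) (F : ι → ℝ → ℝ → ℝ → ℝ) (bs : List ι)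
    (h : ∀ b ∈ bs, Rep B N N (V b) (S b) (F b)) (cp cn : List ℕ)
    (h1 : Nat.blt (linN cp (bs.map S)) B = true) (h2 : Nat.blt (linN cn (bs.map S)) B = true)
    (h3 : cmp3 B N (linN cp (bs.map V)) (linN cn (bs.map V)) = true)
    {x y z : ℝ} (hx : 0 ≤ x) (hy : 0 ≤ y) (hz : 0 ≤ z) :
    linNR cn (bs.map (fun b => F b x y z)) ≤ linNR cp (bs.map (fun b => F b x y z)) := by
  have r1 := Rep.linN V S F cp bs h
  have r2 := Rep.linN V S F cn bs h
  have e1 := Rep.uev hB r1 (lt_of_blt h1) x y z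
  have e2 := Rep.uev hB r2 (lt_of_blt h2) x y z
  rw [e1, e2]
  exact cmp3_sound B N hx hy hz _ _ h3

theorem rowZ_sound {ι : Type} (hB : 0 < B) (V S : ι → ℕ) (F : ι → ℝ → ℝ → ℝ → ℝ) (bs : List ι)
    (h : ∀ b ∈ bs, Rep B N N (V b) (S b) (F b)) (c : List ℤ)
    (hc : rowZ B N (bs.map V) (bs.map S) c = true) {x y z : ℝ} (hx : 0 ≤ x) (hy : 0 ≤ y)
    (hz : 0 ≤ z) : 0 ≤ linR c (bs.map (fun b => F b x y z)) := by
  simp only [rowZ, Bool.and_eq_true] at hc
  obtain ⟨h1, h2, h3⟩ := hc
  have := pos_neg_sound hB V S F bs h (posL c) (negL c) h1 h2 h3 hx hy hz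
  rw [linR_pos_neg]
  linarith

theorem posW_eq_map (Vs : List ℕ) : ∀ M : List (List ℤ),
    posW Vs M = M.map (fun r => linN (posL r) Vs)
  | [] => by simp [posW]
  | r :: rs => by simp [posW, posW_eq_map Vs rs]

theorem negW_eq_map (Vs : List ℕ) : ∀ M : List (List ℤ),
    negW Vs M = M.map (fun r => linN (negL r) Vs)
  | [] => by simp [negW]
  | r :: rs => by simp [negW, negW_eq_map Vs rs]

theorem bilR_cast : ∀ (M : List (List ℤ)) (us : List ℕ) (vs : List ℝ),
    bilR M (us.map (fun a : ℕ => (a : ℝ))) vs =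
      linNR us (M.map (fun r => linNR (posL r) vs)) - linNR us (M.map (fun r => linNR (negL r) vs))
  | [], [], vs => by simp [bilR, linNR]
  | [], u :: us, vs => by simp [bilR, linNR]
  | r :: rs, [], vs => by simp [bilR, linNR]
  | r :: rs, u :: us, vs => by
      simp only [List.map_cons, bilR, linNR, bilR_cast rs us vs, linR_pos_neg r vs]
      ring

theorem rowOK_sound {ι : Type} (hB : 0 < B) (V S : ι → ℕ) (F : ι → ℝ → ℝ → ℝ → ℝ) (bs : List ι)
    (h : ∀ b ∈ bs, Rep B N N (V b) (S b) (F b)) (M : List (List ℤ)) (us : List ℕ)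
    (hc : rowOK B N (posW (bs.map V) M) (negW (bs.map V) M) (posW (bs.map S) M)
      (negW (bs.map S) M) us = true)
    {x y z : ℝ} (hx : 0 ≤ x) (hy : 0 ≤ y) (hz : 0 ≤ z) :
    0 ≤ bilR M (us.map (fun a : ℕ => (a : ℝ))) (bs.map (fun b => F b x y z)) := by
  simp only [rowOK, Bool.and_eq_true, posW_eq_map, negW_eq_map] at hc
  obtain ⟨h1, h2, h3⟩ := hc
  have rp := Rep.linN (B := B) (N := N) (fun r : List ℤ => linN (posL r) (bs.map V))
    (fun r : List ℤ => linN (posL r) (bs.map S))
    (fun (r : List ℤ) x y z => linNR (posL r) (bs.map (fun b => F b x y z))) us M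
    (fun r _ => Rep.linN V S F (posL r) bs h)
  have rn := Rep.linN (B := B) (N := N) (fun r : List ℤ => linN (negL r) (bs.map V))
    (fun r : List ℤ => linN (negL r) (bs.map S))
    (fun (r : List ℤ) x y z => linNR (negL r) (bs.map (fun b => F b x y z))) us M
    (fun r _ => Rep.linN V S F (negL r) bs h)
  have e1 := Rep.uev hB rp (lt_of_blt h1) x y z
  have e2 := Rep.uev hB rn (lt_of_blt h2) x y z
  rw [bilR_cast, e1, e2]
  have := cmp3_sound B N hx hy hz _ _ h3
  linarith

theorem bilR_map_zero : ∀ (M : List (List ℤ)) (Us : List ℕ) (vs : List ℝ) (f : ℕ → ℝ),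
    (∀ a ∈ Us, f a = 0) → bilR M (Us.map f) vs = 0
  | [], Us, vs, f, _ => by simp [bilR]
  | r :: rs, [], vs, f, _ => by simp [bilR]
  | r :: rs, u :: us, vs, f, h => by
      simp only [List.map_cons, bilR, h u (by simp), zero_mul, zero_add]
      exact bilR_map_zero rs us vs f (fun a ha => h a (by simp [ha]))

theorem bilR_map_lin (x : ℝ) (f g : ℕ → ℝ) : ∀ (M : List (List ℤ)) (Us : List ℕ) (vs : List ℝ),
    bilR M (Us.map (fun a => f a + x * g a)) vs =
      bilR M (Us.map f) vs + x * bilR M (Us.map g) vs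
  | [], Us, vs => by simp [bilR]
  | r :: rs, [], vs => by simp [bilR]
  | r :: rs, u :: us, vs => by
      simp only [List.map_cons, bilR, bilR_map_lin x f g rs us vs]
      ring

theorem modL_eq_map (X : ℕ) : ∀ Us : List ℕ, modL X Us = Us.map (fun a => a % X)
  | [] => by simp [modL]
  | a :: p => by simp [modL, modL_eq_map X p]

theorem divL_eq_map (X : ℕ) : ∀ Us : List ℕ, divL X Us = Us.map (fun a => a / X)
  | [] => by simp [divL]
  | a :: p => by simp [divL, divL_eq_map X p]

theorem allZ_sound : ∀ Us : List ℕ, allZ Us = true → ∀ a ∈ Us, a = 0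
  | [], _ => by simp
  | b :: p, h => by
      simp only [allZ, Bool.and_eq_true] at h
      intro a ha
      rcases List.mem_cons.1 ha with rfl | ha
      · exact Nat.eq_of_beq_eq_true h.1
      · exact allZ_sound p h.2 a ha

theorem chkL_sound (M : List (List ℤ)) (vs : List ℝ) (uev : ℕ → ℝ) (h0 : uev 0 = 0)
    (chk : List ℕ → Bool) (hchk : ∀ Us, chk Us = true → 0 ≤ bilR M (Us.map uev) vs)
    (X : ℕ) {x : ℝ} (hx : 0 ≤ x) :
    ∀ (n : ℕ) (Us : List ℕ), chkL chk X n Us = true → 0 ≤ bilR M (Us.map (uevL uev X x n)) vs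
  | 0, Us, _ => by
      rw [bilR_map_zero M Us vs _ (fun a _ => by simp [uevL])]
  | n + 1, Us, h => by
      simp only [chkL, Bool.or_eq_true, Bool.and_eq_true] at h
      rcases h with h | ⟨h1, h2⟩
      · rw [bilR_map_zero M Us vs _ (fun a ha => by
          rw [allZ_sound Us h a ha]; exact uevL_zero uev h0 X x (n + 1))]
      · have e : (fun a => uevL uev X x (n + 1) a) =
            (fun a => (fun a => uev (a % X)) a + x * (fun a => uevL uev X x n (a / X)) a) := by
          funext a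
          simp [uevL]
        have i1 := hchk _ h1
        have i2 := chkL_sound M vs uev h0 chk hchk X hx n _ h2
        rw [modL_eq_map, List.map_map] at i1
        rw [divL_eq_map, List.map_map] at i2
        change 0 ≤ bilR M (Us.map (fun a => uevL uev X x (n + 1) a)) vs
        rw [e, bilR_map_lin]
        exact add_nonneg i1 (mul_nonneg hx i2)

theorem chk3_sound {ι : Type} (hB : 0 < B) (V S : ι → ℕ) (F : ι → ℝ → ℝ → ℝ → ℝ) (bs : List ι)
    (h : ∀ b ∈ bs, Rep B N N (V b) (S b) (F b)) (M : List (List ℤ)) (Us : List ℕ)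
    (hc : chk3 B N (posW (bs.map V) M) (negW (bs.map V) M) (posW (bs.map S) M)
      (negW (bs.map S) M) Us = true)
    {x y z x' y' z' : ℝ} (hx : 0 ≤ x) (hy : 0 ≤ y) (hz : 0 ≤ z) (hx' : 0 ≤ x') (hy' : 0 ≤ y')
    (hz' : 0 ≤ z') :
    0 ≤ bilR M (Us.map (uev3 B N x y z)) (bs.map (fun b => F b x' y' z')) := by
  have s0 := fun us hus => rowOK_sound hB V S F bs h M us hus hx' hy' hz'
  have s1 := chkL_sound M (bs.map (fun b => F b x' y' z')) (fun a : ℕ => (a : ℝ)) (by simp) _ s0
    B hz (N + 1)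
  have s2 := chkL_sound M (bs.map (fun b => F b x' y' z')) (uev1 B N z) (uev1_zero B N z) _ s1
    (B ^ (N + 1)) hy (N + 1)
  exact chkL_sound M (bs.map (fun b => F b x' y' z')) (uev2 B N y z) (uev2_zero B N y z) _ s2
    ((B ^ (N + 1)) ^ (N + 1)) hx (N + 1) Us hc

/-- splitting the top level check into chunks -/
theorem chkL_split (chk : List ℕ → Bool) (X : ℕ) : ∀ (n m : ℕ) (Us : List ℕ),
    chkL chk X n Us = true → chkL chk X m (slc X n Us) = true → chkL chk X (n + m) Us = true
  | 0, m, Us, _, h2 => by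
      simpa [slc] using h2
  | n + 1, m, Us, h1, h2 => by
      have e : n + 1 + m = (n + m) + 1 := by omega
      rw [e]
      simp only [chkL, Bool.or_eq_true, Bool.and_eq_true] at h1 ⊢
      rcases h1 with h1 | ⟨h1, h3⟩
      · exact Or.inl h1
      · exact Or.inr ⟨h1, chkL_split chk X n m _ h3 (by simpa [slc] using h2)⟩

end Vale.Agent.P154K
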