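import Vale.Agent.P154.Q.KDefs
import Vale.Agent.P154.Q.DataJ1
import Vale.Agent.P154.Q.DataJ2

/-! The packed bases in sorted coordinates. -/

namespace Vale.Agent.P154K

open Vale.Agent.P154Q

/-- packed basis, simplex side: the forms `1+x+y+z, 1+x+y, 1+x, 1` with sum `4+3x+2y+z` -/
def UsK (B N : Nat) (bs : List E4) : List Nat :=
  basN N (lfN B N 4 3 2 1) (lfN B N 1 1 1 1) (lfN B N 1 1 1 0) (lfN B N 1 1 0 0) (lfN B N 1 0 0 0) bs

/-- coefficient sums, simplex side -/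
def sPK (N : Nat) (bs : List E4) : List Nat :=
  basN N (4 + 3 + 2 + 1) (1 + 1 + 1 + 1) (1 + 1 + 1 + 0) (1 + 1 + 0 + 0) (1 + 0 + 0 + 0) bs

/-- packed basis, children side -/
def VsK (B N : Nat) (bs : List E4) : List Nat :=
  basN N (lfN B N 56 42 28 14) (lfN B N 14 13 12 11) (lfN B N 14 13 12 1) (lfN B N 14 13 2 1)
    (lfN B N 14 3 2 1) bs

/-- coefficient sums, children side -/
def sRK (N : Nat) (bs : List E4) : List Nat :=
  basN N (56 + 42 + 28 + 14) (14 + 13 + 12 + 11) (14 + 13 + 12 + 1) (14 + 13 + 2 + 1)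
    (14 + 3 + 2 + 1) bs

/-- the check of the digits `k, ..., k + n - 1` of the outer variable -/
def chunkK (B N : Nat) (bs : List E4) (dv : List Int) (FL : List (List Int × List Int))
    (k n : Nat) : Bool :=
  chkL (chk2 B N (posW (VsK B N bs) (matM dv FL)) (negW (VsK B N bs) (matM dv FL))
    (posW (sRK N bs) (matM dv FL)) (negW (sRK N bs) (matM dv FL)))
    ((B ^ (N + 1)) ^ (N + 1)) n (slc ((B ^ (N + 1)) ^ (N + 1)) k (UsK B N bs))

def B1 : Nat := 2 ^ 120
def B2 : Nat := 2 ^ 144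

end Vale.Agent.P154K
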