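/-! Kernel side definitions of the packed (Kronecker) coefficient checker.
No imports: the certificate files only need this file and the data. -/

namespace Vale.Agent.P154K

abbrev E4 := Nat × Nat × Nat × Nat

def degN (b : E4) : Nat := b.1 + b.2.1 + b.2.2.1 + b.2.2.2

def moN (b : E4) (x0 x1 x2 x3 : Nat) : Nat :=
  x0 ^ b.1 * x1 ^ b.2.1 * x2 ^ b.2.2.1 * x3 ^ b.2.2.2

def MsN (b : E4) (a0 a1 a2 a3 : Nat) : Nat :=
  moN b (a0) (a1) (a2) (a3) +
  moN b (a0) (a1) (a3) (a2) +
  moN b (a0) (a2) (a1) (a3) +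
  moN b (a0) (a2) (a3) (a1) +
  moN b (a0) (a3) (a1) (a2) +
  moN b (a0) (a3) (a2) (a1) +
  moN b (a1) (a0) (a2) (a3) +
  moN b (a1) (a0) (a3) (a2) +
  moN b (a1) (a2) (a0) (a3) +
  moN b (a1) (a2) (a3) (a0) +
  moN b (a1) (a3) (a0) (a2) +
  moN b (a1) (a3) (a2) (a0) +
  moN b (a2) (a0) (a1) (a3) +
  moN b (a2) (a0) (a3) (a1) +
  moN b (a2) (a1) (a0) (a3) +
  moN b (a2) (a1) (a3) (a0) +
  moN b (a2) (a3) (a0) (a1) +
  moN b (a2) (a3) (a1) (a0) +
  moN b (a3) (a0) (a1) (a2) +
  moN b (a3) (a0) (a2) (a1) +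
  moN b (a3) (a1) (a0) (a2) +
  moN b (a3) (a1) (a2) (a0) +
  moN b (a3) (a2) (a0) (a1) +
  moN b (a3) (a2) (a1) (a0)

/-- one element of the homogenised basis, evaluated at natural numbers -/
def basE (N : Nat) (sg a0 a1 a2 a3 : Nat) (b : E4) : Nat :=
  sg ^ (N - degN b) * MsN b a0 a1 a2 a3

def basN (N : Nat) (sg a0 a1 a2 a3 : Nat) : List E4 → List Nat
  | [] => []
  | b :: bs => basE N sg a0 a1 a2 a3 b :: basN N sg a0 a1 a2 a3 bs

/-- the packed value of the linear form `a + b x + c y + e z` -/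
def lfN (B N a b c e : Nat) : Nat :=
  a + b * (B ^ (N + 1)) ^ (N + 1) + c * B ^ (N + 1) + e * B

/-- digitwise comparison `b ≤ a` -/
def cmpL (cmp : Nat → Nat → Bool) (X : Nat) : Nat → Nat → Nat → Bool
  | 0, _, _ => true
  | n + 1, a, b => Nat.beq b 0 || (cmp (a % X) (b % X) && cmpL cmp X n (a / X) (b / X))

def cmp1 (B d : Nat) : Nat → Nat → Bool := cmpL (fun a b => Nat.ble b a) B (d + 1)
def cmp2 (B d : Nat) : Nat → Nat → Bool := cmpL (cmp1 B d) (B ^ (d + 1)) (d + 1)
def cmp3 (B d : Nat) : Nat → Nat → Bool := cmpL (cmp2 B d) ((B ^ (d + 1)) ^ (d + 1)) (d + 1)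

def linN : List Nat → List Nat → Nat
  | c :: cs, v :: vs => c * v + linN cs vs
  | [], _ => 0
  | _ :: _, [] => 0

def addV : List Int → List Int → List Int
  | [], q => q
  | a :: p, [] => a :: p
  | a :: p, b :: q => (a + b) :: addV p q

def smulV (c : Int) : List Int → List Int
  | [] => []
  | a :: p => (c * a) :: smulV c p

def addM : List (List Int) → List (List Int) → List (List Int)
  | [], q => q
  | a :: p, [] => a :: p
  | a :: p, b :: q => addV a b :: addM p q

def consZ : List (List Int) → List (List Int)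
  | [] => []
  | r :: rs => (0 :: r) :: consZ rs

def diagM : List Int → List (List Int)
  | [] => []
  | d :: ds => [d] :: consZ (diagM ds)

def outM (t2 : List Int) : List Int → List (List Int)
  | [] => []
  | a :: p => smulV a t2 :: outM t2 p

def rkM : List (List Int × List Int) → List (List Int)
  | [] => []
  | t :: ts => addM (outM t.2 t.1) (rkM ts)

/-- the matrix of the bilinear form `diag dv + sum of rank one terms` -/
def matM (dv : List Int) (FL : List (List Int × List Int)) : List (List Int) :=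
  addM (diagM dv) (rkM FL)

def posL : List Int → List Nat
  | [] => []
  | a :: p => a.toNat :: posL p

def negL : List Int → List Nat
  | [] => []
  | a :: p => (-a).toNat :: negL p

def posW (Vs : List Nat) : List (List Int) → List Nat
  | [] => []
  | r :: rs => linN (posL r) Vs :: posW Vs rs

def negW (Vs : List Nat) : List (List Int) → List Nat
  | [] => []
  | r :: rs => linN (negL r) Vs :: negW Vs rs

/-- one integer combination of packed polynomials has nonnegative coefficients -/
def rowZ (B d : Nat) (Vs ss : List Nat) (c : List Int) : Bool :=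
  Nat.blt (linN (posL c) ss) B && (Nat.blt (linN (negL c) ss) B &&
    cmp3 B d (linN (posL c) Vs) (linN (negL c) Vs))

def rowOK (B d : Nat) (Wp Wn sp sn : List Nat) (us : List Nat) : Bool :=
  Nat.blt (linN us sp) B && (Nat.blt (linN us sn) B && cmp3 B d (linN us Wp) (linN us Wn))

def allZ : List Nat → Bool
  | [] => true
  | a :: p => Nat.beq a 0 && allZ p

def allLt (B : Nat) : List Nat → Bool
  | [] => true
  | a :: p => Nat.blt a B && allLt B p

def modL (X : Nat) : List Nat → List Nat
  | [] => []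
  | a :: p => (a % X) :: modL X p

def divL (X : Nat) : List Nat → List Nat
  | [] => []
  | a :: p => (a / X) :: divL X p

def chkL (chk : List Nat → Bool) (X : Nat) : Nat → List Nat → Bool
  | 0, _ => true
  | n + 1, Us => allZ Us || (chk (modL X Us) && chkL chk X n (divL X Us))

def chk1 (B d : Nat) (Wp Wn sp sn : List Nat) : List Nat → Bool :=
  chkL (rowOK B d Wp Wn sp sn) B (d + 1)
def chk2 (B d : Nat) (Wp Wn sp sn : List Nat) : List Nat → Bool :=
  chkL (chk1 B d Wp Wn sp sn) (B ^ (d + 1)) (d + 1)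
def chk3 (B d : Nat) (Wp Wn sp sn : List Nat) : List Nat → Bool :=
  chkL (chk2 B d Wp Wn sp sn) ((B ^ (d + 1)) ^ (d + 1)) (d + 1)

/-- drop the lowest `k` digits -/
def slc (X : Nat) : Nat → List Nat → List Nat
  | 0, Us => Us
  | k + 1, Us => slc X k (divL X Us)

end Vale.Agent.P154K
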