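import Vale.Agent.P154.Q.KShape
import Vale.Agent.P154.Q.KDefs

/-! Digit evaluation of packed numbers. -/

namespace Vale.Agent.P154K

open Vale.Agent.P154.Refl

/-- evaluate the base `X` digits of a number as the coefficients of a polynomial in `x` -/
noncomputable def uevL (uev : ℕ → ℝ) (X : ℕ) (x : ℝ) : ℕ → ℕ → ℝ
  | 0, _ => 0
  | n + 1, a => uev (a % X) + x * uevL uev X x n (a / X)

noncomputable def uev1 (B N : ℕ) (z : ℝ) : ℕ → ℝ := uevL (fun a => (a : ℝ)) B z (N + 1)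
noncomputable def uev2 (B N : ℕ) (y z : ℝ) : ℕ → ℝ := uevL (uev1 B N z) (B ^ (N + 1)) y (N + 1)
noncomputable def uev3 (B N : ℕ) (x y z : ℝ) : ℕ → ℝ :=
  uevL (uev2 B N y z) ((B ^ (N + 1)) ^ (N + 1)) x (N + 1)

theorem uevL_zero (uev : ℕ → ℝ) (h0 : uev 0 = 0) (X : ℕ) (x : ℝ) (n : ℕ) :
    uevL uev X x n 0 = 0 := by
  induction n with
  | zero => simp [uevL]
  | succ n ih => simp [uevL, h0, ih]

theorem uev1_zero (B N : ℕ) (z : ℝ) : uev1 B N z 0 = 0 :=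
  uevL_zero _ (by simp) _ _ _
theorem uev2_zero (B N : ℕ) (y z : ℝ) : uev2 B N y z 0 = 0 :=
  uevL_zero _ (uev1_zero B N z) _ _ _
theorem uev3_zero (B N : ℕ) (x y z : ℝ) : uev3 B N x y z 0 = 0 :=
  uevL_zero _ (uev2_zero B N y z) _ _ _

theorem uevL_nonneg (uev : ℕ → ℝ) (hnn : ∀ a, 0 ≤ uev a) (X : ℕ) {x : ℝ} (hx : 0 ≤ x) :
    ∀ (n a : ℕ), 0 ≤ uevL uev X x n a
  | 0, _ => by simp [uevL]
  | n + 1, a => by
      simp only [uevL]
      exact add_nonneg (hnn _) (mul_nonneg hx (uevL_nonneg uev hnn X hx n _))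

theorem cmpL_sound (uev : ℕ → ℝ) (h0 : uev 0 = 0) (hnn : ∀ a, 0 ≤ uev a) (cmp : ℕ → ℕ → Bool)
    (hcmp : ∀ a b, cmp a b = true → uev b ≤ uev a) (X : ℕ) {x : ℝ} (hx : 0 ≤ x) :
    ∀ (n a b : ℕ), cmpL cmp X n a b = true → uevL uev X x n b ≤ uevL uev X x n a
  | 0, _, _, _ => by simp [uevL]
  | n + 1, a, b, h => by
      simp only [cmpL, Bool.or_eq_true, Bool.and_eq_true] at h
      rcases h with h | ⟨h1, h2⟩
      · have hb : b = 0 := Nat.eq_of_beq_eq_true h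
        subst hb
        rw [uevL_zero uev h0]
        exact uevL_nonneg uev hnn X hx _ _
      · simp only [uevL]
        have i1 := hcmp _ _ h1
        have i2 := cmpL_sound uev h0 hnn cmp hcmp X hx n _ _ h2
        have i3 := mul_le_mul_of_nonneg_left i2 hx
        linarith

theorem uev1_nonneg (B N : ℕ) {z : ℝ} (hz : 0 ≤ z) (a : ℕ) : 0 ≤ uev1 B N z a :=
  uevL_nonneg _ (fun a => Nat.cast_nonneg a) _ hz _ _
theorem uev2_nonneg (B N : ℕ) {y z : ℝ} (hy : 0 ≤ y) (hz : 0 ≤ z) (a : ℕ) : 0 ≤ uev2 B N y z a :=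
  uevL_nonneg _ (uev1_nonneg B N hz) _ hy _ _

theorem cmp1_sound (B N : ℕ) {z : ℝ} (hz : 0 ≤ z) (a b : ℕ)
    (h : cmp1 B N a b = true) : uev1 B N z b ≤ uev1 B N z a :=
  cmpL_sound _ (by simp) (fun a => Nat.cast_nonneg a) _
    (fun a b h => by exact_mod_cast Nat.le_of_ble_eq_true h) _ hz _ _ _ h

theorem cmp2_sound (B N : ℕ) {y z : ℝ} (hy : 0 ≤ y) (hz : 0 ≤ z) (a b : ℕ)
    (h : cmp2 B N a b = true) : uev2 B N y z b ≤ uev2 B N y z a :=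
  cmpL_sound _ (uev1_zero B N z) (uev1_nonneg B N hz) _ (cmp1_sound B N hz) _ hy _ _ _ h

theorem cmp3_sound (B N : ℕ) {x y z : ℝ} (hx : 0 ≤ x) (hy : 0 ≤ y) (hz : 0 ≤ z) (a b : ℕ)
    (h : cmp3 B N a b = true) : uev3 B N x y z b ≤ uev3 B N x y z a :=
  cmpL_sound _ (uev2_zero B N y z) (uev2_nonneg B N hy hz) _ (cmp2_sound B N hy hz) _ hx _ _ _ h

theorem evZL_one_nonneg {α : Type} (sm : α → ℤ) :
    ∀ l : List α, (∀ a ∈ l, 0 ≤ sm a) → 0 ≤ evZL sm 1 l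
  | [], _ => by simp [evZL]
  | a :: l, h => by
      have h1 := h a (by simp)
      have h2 := evZL_one_nonneg sm l (fun b hb => h b (by simp [hb]))
      simp only [evZL]
      omega

theorem digits_level {α : Type} (P : α → Prop) (evz sm : α → ℤ) (ev : α → ℝ) (uev : ℕ → ℝ)
    (X : ℕ) (Bz : ℤ) (hX : 0 < X) (h0 : uev 0 = 0) (hsm : ∀ a, P a → 0 ≤ sm a)
    (H : ∀ a, P a → sm a < Bz → ∃ m : ℕ, evz a = (m : ℤ) ∧ m < X ∧ ev a = uev m) (x : ℝ) :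
    ∀ (l : List α) (n : ℕ), l.length ≤ n → (∀ a ∈ l, P a) → evZL sm 1 l < Bz →
      ∃ k : ℕ, evZL evz (X : ℤ) l = (k : ℤ) ∧ k < X ^ n ∧ evL ev x l = uevL uev X x n k
  | [], n, _, _, _ => by
      refine ⟨0, by simp [evZL], Nat.pow_pos hX, ?_⟩
      rw [uevL_zero uev h0]
      simp [evL]
  | a :: l, 0, hl, _, _ => by simp at hl
  | a :: l, n + 1, hl, hP, hs => by
      have hPa := hP a (by simp)
      have hPl : ∀ b ∈ l, P b := fun b hb => hP b (by simp [hb])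
      have s1 := hsm a hPa
      have s2 := evZL_one_nonneg sm l (fun b hb => hsm b (hPl b hb))
      simp only [evZL] at hs
      obtain ⟨m, hm1, hm2, hm3⟩ := H a hPa (by omega)
      obtain ⟨k, hk1, hk2, hk3⟩ := digits_level P evz sm ev uev X Bz hX h0 hsm H x l n
        (by simpa using hl) hPl (by omega)
      refine ⟨m + X * k, ?_, ?_, ?_⟩
      · simp only [evZL, hm1, hk1]
        push_cast
        ring
      · have : X * (k + 1) ≤ X * X ^ n := Nat.mul_le_mul_left X hk2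
        have e : X ^ (n + 1) = X * X ^ n := by ring
        rw [e]
        have e2 : X * (k + 1) = X * k + X := by ring
        omega
      · have e1 : (m + X * k) % X = m := by
          rw [Nat.add_mul_mod_self_left, Nat.mod_eq_of_lt hm2]
        have e2 : (m + X * k) / X = k := by
          rw [Nat.add_mul_div_left _ _ hX, Nat.div_eq_of_lt hm2, zero_add]
        simp only [evL, uevL, e1, e2, hm3, hk3]

theorem ev3_eq_uev3 (B N : ℕ) (hB : 0 < B) (Q : P3) (hQ : Sh3 N Q) (n : ℕ)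
    (hn : evZ3 (((B ^ (N + 1)) ^ (N + 1) : ℕ) : ℤ) ((B ^ (N + 1) : ℕ) : ℤ) ((B : ℕ) : ℤ) Q = (n : ℤ))
    (hs : evZ3 1 1 1 Q < (B : ℤ)) (x y z : ℝ) :
    ev3 x y z Q = uev3 B N x y z n := by
  have hX1 : 0 < B ^ (N + 1) := Nat.pow_pos hB
  have hX2 : 0 < (B ^ (N + 1)) ^ (N + 1) := Nat.pow_pos hX1
  -- level one
  have L1 : ∀ a : P1, Sh1 N a → evZ1 1 a < (B : ℤ) →
      ∃ m : ℕ, evZ1 ((B : ℕ) : ℤ) a = (m : ℤ) ∧ m < B ^ (N + 1) ∧ ev1 z a = uev1 B N z m := by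
    intro a ha hsa
    exact digits_level (Sh0 N) (fun c : ℤ => c) (fun c : ℤ => c) (fun c : ℤ => (c : ℝ))
      (fun c : ℕ => (c : ℝ)) B (B : ℤ) hB (by simp) (fun c hc => hc)
      (fun c hc hcB => ⟨c.toNat, (Int.toNat_of_nonneg hc).symm, by
        have := Int.toNat_of_nonneg hc
        omega, by
        have h := Int.toNat_of_nonneg hc
        have : ((c.toNat : ℤ) : ℝ) = (c : ℝ) := by rw [h]
        exact_mod_cast this.symm⟩) z a (N + 1) ha.1 ha.2 hsa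
  have N1 : ∀ a : P1, Sh1 N a → 0 ≤ evZ1 1 a := fun a ha => evZL_one_nonneg _ a ha.2
  have Z1 : uev1 B N z 0 = 0 := uevL_zero _ (by simp) _ _ _
  have L2 : ∀ a : P2, Sh2 N a → evZ2 1 1 a < (B : ℤ) →
      ∃ m : ℕ, evZ2 ((B ^ (N + 1) : ℕ) : ℤ) ((B : ℕ) : ℤ) a = (m : ℤ) ∧
        m < (B ^ (N + 1)) ^ (N + 1) ∧ ev2 y z a = uev2 B N y z m := by
    intro a ha hsa
    exact digits_level (Sh1 N) (evZ1 ((B : ℕ) : ℤ)) (evZ1 1) (ev1 z) (uev1 B N z) (B ^ (N + 1))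
      (B : ℤ) hX1 Z1 N1 L1 y a (N + 1) ha.1 ha.2 hsa
  have N2 : ∀ a : P2, Sh2 N a → 0 ≤ evZ2 1 1 a :=
    fun a ha => evZL_one_nonneg _ a (fun b hb => N1 b (ha.2 b hb))
  have Z2 : uev2 B N y z 0 = 0 := uevL_zero _ Z1 _ _ _
  obtain ⟨k, hk1, _, hk3⟩ := digits_level (Sh2 N)
    (evZ2 ((B ^ (N + 1) : ℕ) : ℤ) ((B : ℕ) : ℤ)) (evZ2 1 1) (ev2 y z) (uev2 B N y z)
    ((B ^ (N + 1)) ^ (N + 1)) (B : ℤ) hX2 Z2 N2 L2 x Q (N + 1) hQ.1 hQ.2 hs
  have hkn : k = n := by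
    have : (k : ℤ) = (n : ℤ) := by rw [← hk1, ← hn]; rfl
    exact_mod_cast this
  subst hkn
  exact hk3

end Vale.Agent.P154K
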