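import Vale.Agent.P154.Q.CertBase
import Vale.Agent.P154.Q.PolyDefs

namespace Vale.Agent.P154Q

open Finset Equiv
open Vale.Agent.P154.Refl

theorem exists_anti (p : V 4) : ∃ g : Perm (Fin 4),
    p (g 3) ≤ p (g 2) ∧ p (g 2) ≤ p (g 1) ∧ p (g 1) ≤ p (g 0) := by
  have hm := Tuple.monotone_sort p
  refine ⟨Fin.revPerm.trans (Tuple.sort p), ?_, ?_, ?_⟩
  · exact hm (by decide : (Fin.rev 3 : Fin 4) ≤ Fin.rev 2)
  · exact hm (by decide : (Fin.rev 2 : Fin 4) ≤ Fin.rev 1)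
  · exact hm (by decide : (Fin.rev 1 : Fin 4) ≤ Fin.rev 0)

theorem sum_comp4 (p : V 4) (g : Perm (Fin 4)) :
    p (g 0) + p (g 1) + p (g 2) + p (g 3) = ∑ i, p i := by
  rw [← Equiv.sum_comp g p, Fin.sum_univ_four]

theorem MsL_comp (bs : List Ex4) (v : V 4) (g : Perm (Fin 4)) : MsL bs (v ∘ g) = MsL bs v := by
  unfold MsL
  simp only [Ms_comp]

theorem bas3_map (N : ℕ) (sg f0 f1 f2 f3 : P3) (x y z k : ℝ) (hk : k * ev3 x y z sg = 1)
    (v : V 4) (h0 : v 0 = k * ev3 x y z f0) (h1 : v 1 = k * ev3 x y z f1)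
    (h2 : v 2 = k * ev3 x y z f2) (h3 : v 3 = k * ev3 x y z f3) :
    ∀ bs : List Ex4, (∀ b ∈ bs, b.deg ≤ N) →
      (bas3 N sg f0 f1 f2 f3 bs).map (ev3 x y z)
        = (MsL bs v).map (fun t => (ev3 x y z sg) ^ N * t) := by
  intro bs hb
  unfold bas3 MsL
  rw [List.map_map, List.map_map]
  refine List.map_congr_left fun b hbm => ?_
  have hd := hb b hbm
  simp only [Function.comp, ev3_mul, ev3_pow, ev3_Ms3]
  have e1 : Ms b v = k ^ b.deg * MsE b (ev3 x y z f0) (ev3 x y z f1) (ev3 x y z f2) (ev3 x y z f3) := by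
    have : v = fun i => k * ![ev3 x y z f0, ev3 x y z f1, ev3 x y z f2, ev3 x y z f3] i := by
      funext i
      fin_cases i
      · exact h0
      · exact h1
      · exact h2
      · exact h3
    rw [this, Ms_smul, Ms_vec]
  rw [e1]
  have e2 : (ev3 x y z sg) ^ N = (ev3 x y z sg) ^ (N - b.deg) * (ev3 x y z sg) ^ b.deg := by
    rw [← pow_add]
    congr 1
    omega
  rw [e2]
  have e3 : (ev3 x y z sg) ^ b.deg * k ^ b.deg = 1 := by
    rw [← mul_pow, mul_comm, hk, one_pow]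
  calc (ev3 x y z sg) ^ (N - b.deg) * MsE b (ev3 x y z f0) (ev3 x y z f1) (ev3 x y z f2) (ev3 x y z f3)
      = (ev3 x y z sg) ^ (N - b.deg) * ((ev3 x y z sg) ^ b.deg * k ^ b.deg)
          * MsE b (ev3 x y z f0) (ev3 x y z f1) (ev3 x y z f2) (ev3 x y z f3) := by
        rw [e3, mul_one]
    _ = _ := by ring

section forms
variable {x y z : ℝ}
theorem ev_fP0 : ev3 x y z fP0 = 1 + x + y + z := by
  simp only [fP0, ev3, ev2, ev1, evL]; push_cast; ring
theorem ev_fP1 : ev3 x y z fP1 = 1 + x + y := by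
  simp only [fP1, ev3, ev2, ev1, evL]; push_cast; ring
theorem ev_fP2 : ev3 x y z fP2 = 1 + x := by
  simp only [fP2, ev3, ev2, ev1, evL]; push_cast; ring
theorem ev_fP3 : ev3 x y z fP3 = 1 := by
  simp only [fP3, ev3, ev2, ev1, evL]; push_cast; ring
theorem ev_sgP : ev3 x y z sgP = 4 + 3 * x + 2 * y + z := by
  simp only [sgP, ev3, ev2, ev1, evL]; push_cast; ring
theorem ev_fR0 : ev3 x y z fR0 = 14 + 13 * x + 12 * y + 11 * z := by
  simp only [fR0, ev3, ev2, ev1, evL]; push_cast; ring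
theorem ev_fR1 : ev3 x y z fR1 = 14 + 13 * x + 12 * y + z := by
  simp only [fR1, ev3, ev2, ev1, evL]; push_cast; ring
theorem ev_fR2 : ev3 x y z fR2 = 14 + 13 * x + 2 * y + z := by
  simp only [fR2, ev3, ev2, ev1, evL]; push_cast; ring
theorem ev_fR3 : ev3 x y z fR3 = 14 + 3 * x + 2 * y + z := by
  simp only [fR3, ev3, ev2, ev1, evL]; push_cast; ring
theorem ev_sgR : ev3 x y z sgR = 56 + 42 * x + 28 * y + 14 * z := by
  simp only [sgR, ev3, ev2, ev1, evL]; push_cast; ring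
end forms

/-- sorted coordinates on the open simplex -/
theorem sortedP (N : ℕ) (bs : List Ex4) (hb : ∀ b ∈ bs, b.deg ≤ N) (p : V 4) (hp : InSimplex p) :
    ∃ x y z c : ℝ, 0 ≤ x ∧ 0 ≤ y ∧ 0 ≤ z ∧ 0 < c ∧
      (bas3 N sgP fP0 fP1 fP2 fP3 bs).map (ev3 x y z) = (MsL bs p).map (fun t => c * t) := by
  obtain ⟨g, h32, h21, h10⟩ := exists_anti p
  have hs := sum_comp4 p g
  rw [hp.2] at hs
  have h3 : 0 < p (g 3) := hp.1 _
  have a1 : 0 ≤ (p (g 2) - p (g 3)) / p (g 3) := div_nonneg (by linarith) h3.le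
  have a2 : 0 ≤ (p (g 1) - p (g 2)) / p (g 3) := div_nonneg (by linarith) h3.le
  have a3 : 0 ≤ (p (g 0) - p (g 1)) / p (g 3) := div_nonneg (by linarith) h3.le
  refine ⟨(p (g 2) - p (g 3)) / p (g 3), (p (g 1) - p (g 2)) / p (g 3),
    (p (g 0) - p (g 1)) / p (g 3),
    (ev3 ((p (g 2) - p (g 3)) / p (g 3)) ((p (g 1) - p (g 2)) / p (g 3))
      ((p (g 0) - p (g 1)) / p (g 3)) sgP) ^ N, a1, a2, a3, ?_, ?_⟩
  · rw [ev_sgP]
    have : 0 < 4 + 3 * ((p (g 2) - p (g 3)) / p (g 3)) + 2 * ((p (g 1) - p (g 2)) / p (g 3))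
        + (p (g 0) - p (g 1)) / p (g 3) := by linarith
    positivity
  · rw [← MsL_comp bs p g]
    refine bas3_map N sgP fP0 fP1 fP2 fP3 _ _ _ (p (g 3)) ?_ (p ∘ g) ?_ ?_ ?_ ?_ bs hb
    · rw [ev_sgP]; field_simp; linarith
    · rw [ev_fP0]; simp only [Function.comp]; field_simp; ring
    · rw [ev_fP1]; simp only [Function.comp]; field_simp; ring
    · rw [ev_fP2]; simp only [Function.comp]; field_simp; ring
    · rw [ev_fP3]; simp only [Function.comp]; ring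

/-- sorted coordinates on the set of children -/
theorem sortedR (N : ℕ) (bs : List Ex4) (hb : ∀ b ∈ bs, b.deg ≤ N) (r : V 4) (hr : InCh r) :
    ∃ x y z c : ℝ, 0 ≤ x ∧ 0 ≤ y ∧ 0 ≤ z ∧ 0 < c ∧
      (bas3 N sgR fR0 fR1 fR2 fR3 bs).map (ev3 x y z) = (MsL bs r).map (fun t => c * t) := by
  obtain ⟨g, h32, h21, h10⟩ := exists_anti r
  have hs := sum_comp4 r g
  rw [hr.2] at hs
  have h3 : 1 / 14 < r (g 3) := hr.1 _
  obtain ⟨t, ht⟩ : ∃ t : ℝ, t = (14 * r (g 3) - 1) / 140 := ⟨_, rfl⟩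
  have htp : 0 < t := by rw [ht]; linarith
  have htn : t ≠ 0 := htp.ne'
  have a1 : 0 ≤ (r (g 2) - r (g 3)) / (10 * t) := div_nonneg (by linarith) (by positivity)
  have a2 : 0 ≤ (r (g 1) - r (g 2)) / (10 * t) := div_nonneg (by linarith) (by positivity)
  have a3 : 0 ≤ (r (g 0) - r (g 1)) / (10 * t) := div_nonneg (by linarith) (by positivity)
  refine ⟨(r (g 2) - r (g 3)) / (10 * t), (r (g 1) - r (g 2)) / (10 * t),
    (r (g 0) - r (g 1)) / (10 * t),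
    (ev3 ((r (g 2) - r (g 3)) / (10 * t)) ((r (g 1) - r (g 2)) / (10 * t))
      ((r (g 0) - r (g 1)) / (10 * t)) sgR) ^ N, a1, a2, a3, ?_, ?_⟩
  · rw [ev_sgR]
    have : 0 < 56 + 42 * ((r (g 2) - r (g 3)) / (10 * t)) + 28 * ((r (g 1) - r (g 2)) / (10 * t))
        + 14 * ((r (g 0) - r (g 1)) / (10 * t)) := by linarith
    positivity
  · rw [← MsL_comp bs r g]
    refine bas3_map N sgR fR0 fR1 fR2 fR3 _ _ _ t ?_ (r ∘ g) ?_ ?_ ?_ ?_ bs hb
    · rw [ev_sgR]; field_simp; rw [ht]; linarith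
    · rw [ev_fR0]; simp only [Function.comp]; field_simp; rw [ht]; linarith
    · rw [ev_fR1]; simp only [Function.comp]; field_simp; rw [ht]; linarith
    · rw [ev_fR2]; simp only [Function.comp]; field_simp; rw [ht]; linarith
    · rw [ev_fR3]; simp only [Function.comp]; field_simp; rw [ht]; linarith

/-- from the coefficientwise certificate to the inequality on `simplex x children` -/
theorem cert_nonneg (N : ℕ) (bs : List Ex4) (hb : ∀ b ∈ bs, b.deg ≤ N) (dv : List ℤ)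
    (FL : List (List ℤ × List ℤ))
    (h : nn6 (add6 (diag6 dv (bas3 N sgP fP0 fP1 fP2 fP3 bs) (bas3 N sgR fR0 fR1 fR2 fR3 bs))
      (rk6 FL (bas3 N sgP fP0 fP1 fP2 fP3 bs) (bas3 N sgR fR0 fR1 fR2 fR3 bs))) = true)
    (p r : V 4) (hp : InSimplex p) (hr : InCh r) :
    0 ≤ diagR dv (MsL bs p) (MsL bs r) + rkR FL (MsL bs p) (MsL bs r) := by
  obtain ⟨x, y, z, c, hx, hy, hz, hc, e1⟩ := sortedP N bs hb p hp
  obtain ⟨x', y', z', c', hx', hy', hz', hc', e2⟩ := sortedR N bs hb r hr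
  have key := ev6_nonneg hx hy hz hx' hy' hz' _ h
  rw [ev6_add, ev6_diag6, ev6_rk6, e1, e2, diagR_smul, rkR_smul, ← mul_add] at key
  have hcc : 0 < c * c' := mul_pos hc hc'
  exact (mul_nonneg_iff_of_pos_left hcc).1 key

theorem certP_nonneg (N : ℕ) (bs : List Ex4) (hb : ∀ b ∈ bs, b.deg ≤ N) (cs : List ℤ)
    (h : nn3 (lin3 cs (bas3 N sgP fP0 fP1 fP2 fP3 bs)) = true) (p : V 4) (hp : InSimplex p) :
    0 ≤ linR cs (MsL bs p) := by
  obtain ⟨x, y, z, c, hx, hy, hz, hc, e1⟩ := sortedP N bs hb p hp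
  have key := ev3_nonneg hx hy hz _ h
  rw [ev3_lin3, e1, linR_smul] at key
  exact (mul_nonneg_iff_of_pos_left hc).1 key

theorem certR_nonneg (N : ℕ) (bs : List Ex4) (hb : ∀ b ∈ bs, b.deg ≤ N) (cs : List ℤ)
    (h : nn3 (lin3 cs (bas3 N sgR fR0 fR1 fR2 fR3 bs)) = true) (r : V 4) (hr : InCh r) :
    0 ≤ linR cs (MsL bs r) := by
  obtain ⟨x, y, z, c, hx, hy, hz, hc, e1⟩ := sortedR N bs hb r hr
  have key := ev3_nonneg hx hy hz _ h
  rw [ev3_lin3, e1, linR_smul] at key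
  exact (mul_nonneg_iff_of_pos_left hc).1 key

end Vale.Agent.P154Q
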