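import Vale.Agent.P154.Q.KBil
import Vale.Agent.P154.Q.KCertBase
import Vale.Agent.P154.Q.Link

/-! From the packed checks to inequalities on `simplex x children`. -/

namespace Vale.Agent.P154K

open Vale.Agent.P154.Refl Vale.Agent.P154Q

theorem basN_eq_map (N sg a0 a1 a2 a3 : ℕ) : ∀ bs : List E4,
    basN N sg a0 a1 a2 a3 bs = bs.map (basE N sg a0 a1 a2 a3)
  | [] => rfl
  | b :: bs => by simp only [basN, List.map_cons, basN_eq_map N sg a0 a1 a2 a3 bs]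

theorem allLt_mem (B : ℕ) : ∀ l : List ℕ, allLt B l = true → ∀ a ∈ l, a < B
  | [], _ => by simp
  | a :: l, h => by
      simp only [allLt, Bool.and_eq_true] at h
      intro c hc
      rcases List.mem_cons.1 hc with rfl | hc
      · exact Nat.blt_eq ▸ h.1
      · exact allLt_mem B l h.2 c hc

/-- the basis functions, simplex side -/
noncomputable def FPK (N : ℕ) (b : Ex4) (x y z : ℝ) : ℝ :=
  (((4 : ℕ) : ℝ) + ((3 : ℕ) : ℝ) * x + ((2 : ℕ) : ℝ) * y + ((1 : ℕ) : ℝ) * z) ^ (N - b.deg)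
    * MsE b (((1 : ℕ) : ℝ) + ((1 : ℕ) : ℝ) * x + ((1 : ℕ) : ℝ) * y + ((1 : ℕ) : ℝ) * z)
      (((1 : ℕ) : ℝ) + ((1 : ℕ) : ℝ) * x + ((1 : ℕ) : ℝ) * y + ((0 : ℕ) : ℝ) * z)
      (((1 : ℕ) : ℝ) + ((1 : ℕ) : ℝ) * x + ((0 : ℕ) : ℝ) * y + ((0 : ℕ) : ℝ) * z)
      (((1 : ℕ) : ℝ) + ((0 : ℕ) : ℝ) * x + ((0 : ℕ) : ℝ) * y + ((0 : ℕ) : ℝ) * z)

/-- the basis functions, children side -/
noncomputable def FRK (N : ℕ) (b : Ex4) (x y z : ℝ) : ℝ :=
  (((56 : ℕ) : ℝ) + ((42 : ℕ) : ℝ) * x + ((28 : ℕ) : ℝ) * y + ((14 : ℕ) : ℝ) * z) ^ (N - b.deg)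
    * MsE b (((14 : ℕ) : ℝ) + ((13 : ℕ) : ℝ) * x + ((12 : ℕ) : ℝ) * y + ((11 : ℕ) : ℝ) * z)
      (((14 : ℕ) : ℝ) + ((13 : ℕ) : ℝ) * x + ((12 : ℕ) : ℝ) * y + ((1 : ℕ) : ℝ) * z)
      (((14 : ℕ) : ℝ) + ((13 : ℕ) : ℝ) * x + ((2 : ℕ) : ℝ) * y + ((1 : ℕ) : ℝ) * z)
      (((14 : ℕ) : ℝ) + ((3 : ℕ) : ℝ) * x + ((2 : ℕ) : ℝ) * y + ((1 : ℕ) : ℝ) * z)

theorem repP (B N : ℕ) (b : Ex4) (hb : b.deg ≤ N) :
    Rep B N N
      (basE N (lfN B N 4 3 2 1) (lfN B N 1 1 1 1) (lfN B N 1 1 1 0) (lfN B N 1 1 0 0)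
        (lfN B N 1 0 0 0) b)
      (basE N (4 + 3 + 2 + 1) (1 + 1 + 1 + 1) (1 + 1 + 1 + 0) (1 + 1 + 0 + 0) (1 + 0 + 0 + 0) b)
      (FPK N b) :=
  Rep.bas (Rep.lf B N 4 3 2 1) (Rep.lf B N 1 1 1 1) (Rep.lf B N 1 1 1 0) (Rep.lf B N 1 1 0 0)
    (Rep.lf B N 1 0 0 0) b hb

theorem repR (B N : ℕ) (b : Ex4) (hb : b.deg ≤ N) :
    Rep B N N
      (basE N (lfN B N 56 42 28 14) (lfN B N 14 13 12 11) (lfN B N 14 13 12 1)
        (lfN B N 14 13 2 1) (lfN B N 14 3 2 1) b)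
      (basE N (56 + 42 + 28 + 14) (14 + 13 + 12 + 11) (14 + 13 + 12 + 1) (14 + 13 + 2 + 1)
        (14 + 3 + 2 + 1) b)
      (FRK N b) :=
  Rep.bas (Rep.lf B N 56 42 28 14) (Rep.lf B N 14 13 12 11) (Rep.lf B N 14 13 12 1)
    (Rep.lf B N 14 13 2 1) (Rep.lf B N 14 3 2 1) b hb

theorem bas3P_map (N : ℕ) (bs : List Ex4) (x y z : ℝ) :
    (bas3 N sgP fP0 fP1 fP2 fP3 bs).map (ev3 x y z) = bs.map (fun b => FPK N b x y z) := by
  unfold bas3
  rw [List.map_map]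
  refine List.map_congr_left fun b _ => ?_
  simp only [Function.comp, ev3_mul, ev3_pow, ev3_Ms3, ev_sgP, ev_fP0, ev_fP1, ev_fP2, ev_fP3, FPK,
    Nat.cast_ofNat, Nat.cast_one, Nat.cast_zero, one_mul, zero_mul, add_zero]

theorem bas3R_map (N : ℕ) (bs : List Ex4) (x y z : ℝ) :
    (bas3 N sgR fR0 fR1 fR2 fR3 bs).map (ev3 x y z) = bs.map (fun b => FRK N b x y z) := by
  unfold bas3
  rw [List.map_map]
  refine List.map_congr_left fun b _ => ?_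
  simp only [Function.comp, ev3_mul, ev3_pow, ev3_Ms3, ev_sgR, ev_fR0, ev_fR1, ev_fR2, ev_fR3, FRK,
    Nat.cast_ofNat, Nat.cast_one, Nat.cast_zero, one_mul, zero_mul, add_zero]

theorem certRK (B N : ℕ) (hB : 0 < B) (bs : List Ex4) (hb : ∀ b ∈ bs, b.deg ≤ N) (cs : List ℤ)
    (h : rowZ B N (VsK B N bs) (sRK N bs) cs = true) (r : V 4) (hr : InCh r) :
    0 ≤ linR cs (MsL bs r) := by
  obtain ⟨x, y, z, c, hx, hy, hz, hc, e1⟩ := sortedR N bs hb r hr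
  unfold VsK sRK at h
  rw [basN_eq_map, basN_eq_map] at h
  have key := rowZ_sound hB _ _ (FRK N) bs (fun b hbm => repR B N b (hb b hbm)) cs h hx hy hz
  rw [← bas3R_map, e1, linR_smul] at key
  exact (mul_nonneg_iff_of_pos_left hc).1 key

theorem certPK (B N : ℕ) (hB : 0 < B) (bs : List Ex4) (hb : ∀ b ∈ bs, b.deg ≤ N) (cs : List ℤ)
    (h : rowZ B N (UsK B N bs) (sPK N bs) cs = true) (p : V 4) (hp : InSimplex p) :
    0 ≤ linR cs (MsL bs p) := by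
  obtain ⟨x, y, z, c, hx, hy, hz, hc, e1⟩ := sortedP N bs hb p hp
  unfold UsK sPK at h
  rw [basN_eq_map, basN_eq_map] at h
  have key := rowZ_sound hB _ _ (FPK N) bs (fun b hbm => repP B N b (hb b hbm)) cs h hx hy hz
  rw [← bas3P_map, e1, linR_smul] at key
  exact (mul_nonneg_iff_of_pos_left hc).1 key

theorem certK (B N : ℕ) (hB : 0 < B) (bs : List Ex4) (hb : ∀ b ∈ bs, b.deg ≤ N) (dv : List ℤ)
    (FL : List (List ℤ × List ℤ)) (h1 : allLt B (sPK N bs) = true)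
    (h2 : chunkK B N bs dv FL 0 (N + 1) = true)
    (p r : V 4) (hp : InSimplex p) (hr : InCh r) :
    0 ≤ diagR dv (MsL bs p) (MsL bs r) + rkR FL (MsL bs p) (MsL bs r) := by
  obtain ⟨x, y, z, c, hx, hy, hz, hc, e1⟩ := sortedP N bs hb p hp
  obtain ⟨x', y', z', c', hx', hy', hz', hc', e2⟩ := sortedR N bs hb r hr
  have h3 : chk3 B N (posW (VsK B N bs) (matM dv FL)) (negW (VsK B N bs) (matM dv FL))
      (posW (sRK N bs) (matM dv FL)) (negW (sRK N bs) (matM dv FL)) (UsK B N bs) = true := h2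
  unfold VsK sRK at h3
  rw [basN_eq_map, basN_eq_map] at h3
  have key := chk3_sound hB _ _ (FRK N) bs (fun b hbm => repR B N b (hb b hbm)) (matM dv FL) _ h3
    hx hy hz hx' hy' hz'
  have eU : (UsK B N bs).map (uev3 B N x y z) = bs.map (fun b => FPK N b x y z) := by
    unfold UsK
    rw [basN_eq_map, List.map_map]
    refine List.map_congr_left fun b hbm => ?_
    have hs : basE N (4 + 3 + 2 + 1) (1 + 1 + 1 + 1) (1 + 1 + 1 + 0) (1 + 1 + 0 + 0)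
        (1 + 0 + 0 + 0) b < B := by
      refine allLt_mem B _ h1 _ ?_
      unfold sPK
      rw [basN_eq_map]
      exact List.mem_map_of_mem hbm
    exact ((repP B N b (hb b hbm)).uev hB hs x y z).symm
  rw [eU, bilR_matM, ← bas3P_map, ← bas3R_map, e1, e2, diagR_smul, rkR_smul, ← mul_add] at key
  have hcc : 0 < c * c' := mul_pos hc hc'
  exact (mul_nonneg_iff_of_pos_left hcc).1 key

/-- gluing chunks -/
theorem chunkK_glue (B N : ℕ) (bs : List E4) (dv : List ℤ) (FL : List (List ℤ × List ℤ))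
    (n m : ℕ) (h1 : chunkK B N bs dv FL 0 n = true) (h2 : chunkK B N bs dv FL n m = true) :
    chunkK B N bs dv FL 0 (n + m) = true :=
  chkL_split _ _ n m _ h1 h2

end Vale.Agent.P154K
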