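import Vale.Agent.P154.Q.KDigits
import Vale.Agent.P154.Q.Ms

/-! Polynomial functions represented by a packed value and a coefficient sum. -/

namespace Vale.Agent.P154K

open Vale.Agent.P154.Refl Vale.Agent.P154Q

/-- `f` is a polynomial function with natural coefficients, of degree at most `d` in each variable,
with value `n` at the packing point and value `s` at `(1, 1, 1)` -/
def Rep (B N d n s : ℕ) (f : ℝ → ℝ → ℝ → ℝ) : Prop :=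
  ∃ Q : P3, Sh3 d Q ∧
    evZ3 (((B ^ (N + 1)) ^ (N + 1) : ℕ) : ℤ) ((B ^ (N + 1) : ℕ) : ℤ) ((B : ℕ) : ℤ) Q = (n : ℤ) ∧
    evZ3 1 1 1 Q = (s : ℤ) ∧ ∀ x y z : ℝ, ev3 x y z Q = f x y z

variable {B N d d' n n' s s' : ℕ} {f f' : ℝ → ℝ → ℝ → ℝ}

theorem Rep.zero (B N d : ℕ) : Rep B N d 0 0 (fun _ _ _ => 0) :=
  ⟨[], Sh3_nil d, by simp [evZ3, evZL], by simp [evZ3, evZL], fun x y z => by simp [ev3, evL]⟩

theorem Rep.cast (hd : d = d') (h : Rep B N d n s f) : Rep B N d' n s f := hd ▸ h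

theorem Rep.const (B N c : ℕ) : Rep B N 0 c c (fun _ _ _ => (c : ℝ)) :=
  ⟨[[[(c : ℤ)]]], by simp [Sh3, Sh2, Sh1, Sh0, ShL], by simp [evZ3, evZ2, evZ1, evZL],
    by simp [evZ3, evZ2, evZ1, evZL], fun x y z => by simp [ev3, ev2, ev1, evL]⟩

theorem Rep.add (h : Rep B N d n s f) (h' : Rep B N d n' s' f') :
    Rep B N d (n + n') (s + s') (fun x y z => f x y z + f' x y z) := by
  obtain ⟨Q, hQ, h1, h2, h3⟩ := h
  obtain ⟨Q', hQ', h1', h2', h3'⟩ := h'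
  refine ⟨add3 Q Q', Sh3_add hQ hQ', ?_, ?_, fun x y z => ?_⟩
  · rw [evZ3_add, h1, h1']
    push_cast
    ring
  · rw [evZ3_add, h2, h2']
    push_cast
    ring
  · rw [ev3_add, h3, h3']

theorem Rep.mul (h : Rep B N d n s f) (h' : Rep B N d' n' s' f') :
    Rep B N (d + d') (n * n') (s * s') (fun x y z => f x y z * f' x y z) := by
  obtain ⟨Q, hQ, h1, h2, h3⟩ := h
  obtain ⟨Q', hQ', h1', h2', h3'⟩ := h'
  refine ⟨mul3 Q Q', Sh3_mul hQ hQ', ?_, ?_, fun x y z => ?_⟩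
  · rw [evZ3_mul, h1, h1']
    push_cast
    ring
  · rw [evZ3_mul, h2, h2']
    push_cast
    ring
  · rw [ev3_mul, h3, h3']

theorem Rep.pow (h : Rep B N 1 n s f) (k : ℕ) :
    Rep B N k (n ^ k) (s ^ k) (fun x y z => f x y z ^ k) := by
  induction k with
  | zero => simpa using Rep.const B N 1
  | succ k ih => simpa only [pow_succ] using ih.mul h

theorem Rep.lf (B N a b c e : ℕ) :
    Rep B N 1 (lfN B N a b c e) (a + b + c + e)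
      (fun x y z => (a : ℝ) + b * x + c * y + e * z) := by
  refine ⟨[[[(a : ℤ), (e : ℤ)], [(c : ℤ)]], [[(b : ℤ)]]], ?_, ?_, ?_, fun x y z => ?_⟩
  · simp [Sh3, Sh2, Sh1, Sh0, ShL]
  · simp only [evZ3, evZ2, evZ1, evZL, lfN]
    push_cast
    ring
  · simp only [evZ3, evZ2, evZ1, evZL]
    push_cast
    ring
  · simp only [ev3, ev2, ev1, evL]
    push_cast
    ring

theorem Rep.uev (hB : 0 < B) (h : Rep B N N n s f) (hs : s < B) (x y z : ℝ) :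
    f x y z = uev3 B N x y z n := by
  obtain ⟨Q, hQ, h1, h2, h3⟩ := h
  rw [← h3]
  exact ev3_eq_uev3 B N hB Q hQ n h1 (by rw [h2]; exact_mod_cast hs) x y z

noncomputable def linNR : List ℕ → List ℝ → ℝ
  | c :: cs, u :: us => (c : ℝ) * u + linNR cs us
  | [], _ => 0
  | _ :: _, [] => 0

theorem Rep.linN {ι : Type} (V S : ι → ℕ) (F : ι → ℝ → ℝ → ℝ → ℝ) :
    ∀ (cs : List ℕ) (bs : List ι), (∀ b ∈ bs, Rep B N N (V b) (S b) (F b)) →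
      Rep B N N (linN cs (bs.map V)) (linN cs (bs.map S))
        (fun x y z => linNR cs (bs.map (fun b => F b x y z)))
  | [], bs, _ => by
      simpa [Vale.Agent.P154K.linN, linNR] using Rep.zero B N N
  | c :: cs, [], _ => by
      simpa [Vale.Agent.P154K.linN, linNR] using Rep.zero B N N
  | c :: cs, b :: bs, h => by
      have h1 : Rep B N N (c * V b) (c * S b) (fun x y z => (c : ℝ) * F b x y z) :=
        Rep.cast (Nat.zero_add N) ((Rep.const B N c).mul (h b (by simp)))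
      have h2 := Rep.linN V S F cs bs (fun b' hb' => h b' (by simp [hb']))
      exact h1.add h2

theorem Rep.mo {n0 s0 n1 s1 n2 s2 n3 s3 : ℕ} {f0 f1 f2 f3 : ℝ → ℝ → ℝ → ℝ}
    (h0 : Rep B N 1 n0 s0 f0) (h1 : Rep B N 1 n1 s1 f1)
    (h2 : Rep B N 1 n2 s2 f2) (h3 : Rep B N 1 n3 s3 f3) (b : Ex4) :
    Rep B N b.deg (moN b n0 n1 n2 n3) (moN b s0 s1 s2 s3)
      (fun x y z => mo b (f0 x y z) (f1 x y z) (f2 x y z) (f3 x y z)) :=
  (((h0.pow b.1).mul (h1.pow b.2.1)).mul (h2.pow b.2.2.1)).mul (h3.pow b.2.2.2)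

theorem Rep.Ms {n0 s0 n1 s1 n2 s2 n3 s3 : ℕ} {f0 f1 f2 f3 : ℝ → ℝ → ℝ → ℝ}
    (h0 : Rep B N 1 n0 s0 f0) (h1 : Rep B N 1 n1 s1 f1)
    (h2 : Rep B N 1 n2 s2 f2) (h3 : Rep B N 1 n3 s3 f3) (b : Ex4) :
    Rep B N b.deg (MsN b n0 n1 n2 n3) (MsN b s0 s1 s2 s3)
      (fun x y z => MsE b (f0 x y z) (f1 x y z) (f2 x y z) (f3 x y z)) :=
  ((((((((((((((((((((((((Rep.mo h0 h1 h2 h3 b).add
    (Rep.mo h0 h1 h3 h2 b)).add
    (Rep.mo h0 h2 h1 h3 b)).add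
    (Rep.mo h0 h2 h3 h1 b)).add
    (Rep.mo h0 h3 h1 h2 b)).add
    (Rep.mo h0 h3 h2 h1 b)).add
    (Rep.mo h1 h0 h2 h3 b)).add
    (Rep.mo h1 h0 h3 h2 b)).add
    (Rep.mo h1 h2 h0 h3 b)).add
    (Rep.mo h1 h2 h3 h0 b)).add
    (Rep.mo h1 h3 h0 h2 b)).add
    (Rep.mo h1 h3 h2 h0 b)).add
    (Rep.mo h2 h0 h1 h3 b)).add
    (Rep.mo h2 h0 h3 h1 b)).add
    (Rep.mo h2 h1 h0 h3 b)).add
    (Rep.mo h2 h1 h3 h0 b)).add
    (Rep.mo h2 h3 h0 h1 b)).add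
    (Rep.mo h2 h3 h1 h0 b)).add
    (Rep.mo h3 h0 h1 h2 b)).add
    (Rep.mo h3 h0 h2 h1 b)).add
    (Rep.mo h3 h1 h0 h2 b)).add
    (Rep.mo h3 h1 h2 h0 b)).add
    (Rep.mo h3 h2 h0 h1 b)).add
    (Rep.mo h3 h2 h1 h0 b))

/-- the homogenised symmetrised monomials -/
theorem Rep.bas {nsg ssg n0 s0 n1 s1 n2 s2 n3 s3 : ℕ} {fsg f0 f1 f2 f3 : ℝ → ℝ → ℝ → ℝ}
    (hsg : Rep B N 1 nsg ssg fsg) (h0 : Rep B N 1 n0 s0 f0) (h1 : Rep B N 1 n1 s1 f1)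
    (h2 : Rep B N 1 n2 s2 f2) (h3 : Rep B N 1 n3 s3 f3) (b : Ex4) (hb : b.deg ≤ N) :
    Rep B N N (basE N nsg n0 n1 n2 n3 b) (basE N ssg s0 s1 s2 s3 b)
      (fun x y z => fsg x y z ^ (N - b.deg)
        * MsE b (f0 x y z) (f1 x y z) (f2 x y z) (f3 x y z)) :=
  Rep.cast (Nat.sub_add_cancel hb) ((hsg.pow (N - b.deg)).mul (Rep.Ms h0 h1 h2 h3 b))

end Vale.Agent.P154K
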