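import Vale.Agent.P154.Q.Refl6

/-! Shape (degree and sign) bounds for nested coefficient lists, and integer evaluation. -/

namespace Vale.Agent.P154K

open Vale.Agent.P154.Refl

/-- all lists have length at most `d + 1` -/
def ShL {α : Type} (S : ℕ → α → Prop) (d : ℕ) (l : List α) : Prop :=
  l.length ≤ d + 1 ∧ ∀ e ∈ l, S d e

def Sh0 (_ : ℕ) (c : ℤ) : Prop := 0 ≤ c
def Sh1 : ℕ → P1 → Prop := ShL Sh0
def Sh2 : ℕ → P2 → Prop := ShL Sh1
def Sh3 : ℕ → P3 → Prop := ShL Sh2

section generic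

variable {α : Type}

theorem length_addL (add : α → α → α) :
    ∀ p q : List α, (addL add p q).length = max p.length q.length
  | [], q => by simp [addL]
  | a :: p, [] => by simp [addL]
  | a :: p, b :: q => by
      simp only [addL, List.length_cons, length_addL add p q]
      omega

theorem length_smulL (mul : α → α → α) (c : α) :
    ∀ p : List α, (smulL mul c p).length = p.length
  | [] => by simp [smulL]
  | a :: p => by simp [smulL, length_smulL mul c p]

theorem length_mulL (zero : α) (add mul : α → α → α) (q : List α) :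
    ∀ p : List α, (mulL zero add mul p q).length ≤ p.length + (q.length - 1)
  | [] => by simp [mulL]
  | a :: p => by
      have ih := length_mulL zero add mul q p
      simp only [mulL, length_addL, length_smulL, List.length_cons]
      omega

theorem mem_addL {P : α → Prop} {add : α → α → α} (hadd : ∀ a b, P a → P b → P (add a b)) :
    ∀ p q : List α, (∀ x ∈ p, P x) → (∀ x ∈ q, P x) → ∀ x ∈ addL add p q, P x
  | [], q, _, hq => by simpa [addL] using hq
  | a :: p, [], hp, _ => by simpa [addL] using hp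
  | a :: p, b :: q, hp, hq => by
      intro x hx
      simp only [addL, List.mem_cons] at hx
      rcases hx with rfl | hx
      · exact hadd a b (hp a (by simp)) (hq b (by simp))
      · exact mem_addL hadd p q (fun y hy => hp y (by simp [hy])) (fun y hy => hq y (by simp [hy]))
          x hx

theorem mem_smulL {P Q : α → Prop} {mul : α → α → α} {c : α}
    (hmul : ∀ b, P b → Q (mul c b)) :
    ∀ p : List α, (∀ x ∈ p, P x) → ∀ x ∈ smulL mul c p, Q x
  | [], _ => by simp [smulL]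
  | a :: p, hp => by
      intro x hx
      simp only [smulL, List.mem_cons] at hx
      rcases hx with rfl | hx
      · exact hmul a (hp a (by simp))
      · exact mem_smulL hmul p (fun y hy => hp y (by simp [hy])) x hx

theorem mem_mulL {P Q R : α → Prop} {zero : α} {add mul : α → α → α} (hz : R zero)
    (hadd : ∀ a b, R a → R b → R (add a b)) (hmul : ∀ a b, P a → Q b → R (mul a b))
    (q : List α) (hq : ∀ x ∈ q, Q x) :
    ∀ p : List α, (∀ x ∈ p, P x) → ∀ x ∈ mulL zero add mul p q, R x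
  | [], _ => by simp [mulL]
  | a :: p, hp => by
      simp only [mulL]
      apply mem_addL hadd
      · exact mem_smulL (fun b hb => hmul a b (hp a (by simp)) hb) q hq
      · intro x hx
        rcases List.mem_cons.1 hx with rfl | hx
        · exact hz
        · exact mem_mulL hz hadd hmul q hq p (fun y hy => hp y (by simp [hy])) x hx

theorem ShL_nil (S : ℕ → α → Prop) (d : ℕ) : ShL S d [] := by
  simp [ShL]

theorem ShL_addL {S : ℕ → α → Prop} {add : α → α → α}
    (hadd : ∀ d a b, S d a → S d b → S d (add a b)) {d : ℕ} {p q : List α}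
    (hp : ShL S d p) (hq : ShL S d q) : ShL S d (addL add p q) := by
  refine ⟨?_, mem_addL (hadd d) p q hp.2 hq.2⟩
  rw [length_addL]
  exact max_le hp.1 hq.1

theorem ShL_mulL {S : ℕ → α → Prop} {zero : α} {add mul : α → α → α} (hz : ∀ d, S d zero)
    (hadd : ∀ d a b, S d a → S d b → S d (add a b))
    (hmul : ∀ d e a b, S d a → S e b → S (d + e) (mul a b)) {d e : ℕ} {p q : List α}
    (hp : ShL S d p) (hq : ShL S e q) : ShL S (d + e) (mulL zero add mul p q) := by
  refine ⟨?_, mem_mulL (hz (d + e)) (hadd (d + e)) (hmul d e) q hq.2 p hp.2⟩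
  have h := length_mulL zero add mul q p
  have h1 := hp.1
  have h2 := hq.1
  omega

end generic

theorem Sh1_add (d : ℕ) (p q : P1) (hp : Sh1 d p) (hq : Sh1 d q) : Sh1 d (add1 p q) :=
  ShL_addL (S := Sh0) (fun _ a b ha hb => by simp only [Sh0] at *; omega) hp hq

theorem Sh1_mul (d e : ℕ) (p q : P1) (hp : Sh1 d p) (hq : Sh1 e q) : Sh1 (d + e) (mul1 p q) :=
  ShL_mulL (S := Sh0) (fun _ => le_refl (0 : ℤ))
    (fun _ a b ha hb => by simp only [Sh0] at *; omega)
    (fun _ _ a b ha hb => by simp only [Sh0] at *; exact mul_nonneg ha hb) hp hq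

theorem Sh2_add (d : ℕ) (p q : P2) (hp : Sh2 d p) (hq : Sh2 d q) : Sh2 d (add2 p q) :=
  ShL_addL (S := Sh1) Sh1_add hp hq

theorem Sh2_mul (d e : ℕ) (p q : P2) (hp : Sh2 d p) (hq : Sh2 e q) : Sh2 (d + e) (mul2 p q) :=
  ShL_mulL (S := Sh1) (fun d => ShL_nil Sh0 d) Sh1_add Sh1_mul hp hq

theorem Sh3_nil (d : ℕ) : Sh3 d [] := ShL_nil Sh2 d

theorem Sh3_add {d : ℕ} {p q : P3} (hp : Sh3 d p) (hq : Sh3 d q) : Sh3 d (add3 p q) :=
  ShL_addL (S := Sh2) Sh2_add hp hq

theorem Sh3_mul {d e : ℕ} {p q : P3} (hp : Sh3 d p) (hq : Sh3 e q) : Sh3 (d + e) (mul3 p q) :=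
  ShL_mulL (S := Sh2) (fun d => ShL_nil Sh1 d) Sh2_add Sh2_mul hp hq

/-- integer evaluation -/
def evZL {α : Type} (ev : α → ℤ) (x : ℤ) : List α → ℤ
  | [] => 0
  | a :: p => ev a + x * evZL ev x p

def evZ1 (w : ℤ) : P1 → ℤ := evZL (fun a : ℤ => a) w
def evZ2 (z w : ℤ) : P2 → ℤ := evZL (evZ1 w) z
def evZ3 (y z w : ℤ) : P3 → ℤ := evZL (evZ2 z w) y

theorem evZL_cast {α : Type} {evz : α → ℤ} {ev : α → ℝ} (h : ∀ a, ((evz a : ℤ) : ℝ) = ev a)
    (x : ℤ) : ∀ p : List α, ((evZL evz x p : ℤ) : ℝ) = evL ev (x : ℝ) p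
  | [] => by simp [evZL, evL]
  | a :: p => by
      simp only [evZL, evL]
      push_cast
      rw [h a, evZL_cast h x p]

theorem evZ1_cast (w : ℤ) (p : P1) : ((evZ1 w p : ℤ) : ℝ) = ev1 (w : ℝ) p :=
  evZL_cast (fun _ => rfl) w p

theorem evZ2_cast (z w : ℤ) (p : P2) : ((evZ2 z w p : ℤ) : ℝ) = ev2 (z : ℝ) (w : ℝ) p :=
  evZL_cast (evZ1_cast w) z p

theorem evZ3_cast (y z w : ℤ) (p : P3) : ((evZ3 y z w p : ℤ) : ℝ) = ev3 (y : ℝ) (z : ℝ) (w : ℝ) p :=
  evZL_cast (evZ2_cast z w) y p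

theorem evZ3_add (y z w : ℤ) (p q : P3) : evZ3 y z w (add3 p q) = evZ3 y z w p + evZ3 y z w q := by
  have h : ((evZ3 y z w (add3 p q) : ℤ) : ℝ) = ((evZ3 y z w p + evZ3 y z w q : ℤ) : ℝ) := by
    push_cast
    rw [evZ3_cast, evZ3_cast, evZ3_cast, ev3_add]
  exact_mod_cast h

theorem evZ3_mul (y z w : ℤ) (p q : P3) : evZ3 y z w (mul3 p q) = evZ3 y z w p * evZ3 y z w q := by
  have h : ((evZ3 y z w (mul3 p q) : ℤ) : ℝ) = ((evZ3 y z w p * evZ3 y z w q : ℤ) : ℝ) := by
    push_cast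
    rw [evZ3_cast, evZ3_cast, evZ3_cast, ev3_mul]
  exact_mod_cast h

end Vale.Agent.P154K
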