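import Vale.Agent.P154.Q.KronNat

namespace Vale.Agent.P154Q

open Finset MvPolynomial

variable {n d : ℕ}

/-- exponent vector attached to a point of the box -/
noncomputable def mf (f : Fin n → Fin (d + 1)) : Fin n →₀ ℕ :=
  Finsupp.equivFunOnFinite.symm (fun i => (f i : ℕ))

theorem mf_apply (f : Fin n → Fin (d + 1)) (i : Fin n) : mf f i = (f i : ℕ) := rfl

theorem mf_injective : Function.Injective (mf (n := n) (d := d)) := by
  intro f g h
  funext i
  have := DFunLike.congr_fun h i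
  rw [mf_apply, mf_apply] at this
  exact Fin.ext this

/-- evaluation as a sum over the box of exponents -/
theorem eval₂_box {S : Type} [CommSemiring S] (φ : ℕ →+* S) (y : Fin n → S)
    (F : MvPolynomial (Fin n) ℕ) (hd : ∀ i, F.degreeOf i ≤ d) :
    eval₂ φ y F = ∑ f : Fin n → Fin (d + 1), φ (coeff (mf f) F) * ∏ i, y i ^ (f i : ℕ) := by
  rw [eval₂_eq']
  have hsub : F.support ⊆ (univ.image (mf (n := n) (d := d))) := by
    intro m hm
    rw [mem_image]
    refine ⟨fun i => ⟨m i, Nat.lt_succ_of_le ((monomial_le_degreeOf i hm).trans (hd i))⟩,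
      mem_univ _, ?_⟩
    ext i
    rfl
  rw [Finset.sum_subset hsub (fun m _ hm => by rw [notMem_support_iff.1 hm]; simp),
    Finset.sum_image (fun a _ b _ h => mf_injective h)]
  rfl

/-- coefficients listed by the packed index -/
noncomputable def cf (d : ℕ) (F : MvPolynomial (Fin n) ℕ) (j : ℕ) : ℕ :=
  if h : j < (d + 1) ^ n then coeff (mf (finFunctionFinEquiv.symm ⟨j, h⟩)) F else 0

theorem cf_apply (F : MvPolynomial (Fin n) ℕ) (f : Fin n → Fin (d + 1)) :
    cf d F (finFunctionFinEquiv f : ℕ) = coeff (mf f) F := by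
  unfold cf
  rw [dif_pos (finFunctionFinEquiv f).isLt]
  have e : (⟨(finFunctionFinEquiv f : ℕ), (finFunctionFinEquiv f).isLt⟩ : Fin ((d + 1) ^ n))
      = finFunctionFinEquiv f := rfl
  rw [e, Equiv.symm_apply_apply]

theorem packed_eq (B : ℕ) (F : MvPolynomial (Fin n) ℕ) (hd : ∀ i, F.degreeOf i ≤ d) :
    eval₂ (RingHom.id ℕ) (fun i : Fin n => B ^ ((d + 1) ^ (i : ℕ))) F
      = ∑ j ∈ range ((d + 1) ^ n), cf d F j * B ^ j := by
  rw [eval₂_box (RingHom.id ℕ) _ F hd, ← Fin.sum_univ_eq_sum_range (fun j => cf d F j * B ^ j),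
    ← Equiv.sum_comp finFunctionFinEquiv]
  refine Finset.sum_congr rfl fun f _ => ?_
  rw [cf_apply, finFunctionFinEquiv_apply, RingHom.id_apply]
  congr 1
  rw [← Finset.prod_pow_eq_pow_sum]
  refine Finset.prod_congr rfl fun i _ => ?_
  rw [← pow_mul, mul_comm]

theorem coeff_le_ones (F : MvPolynomial (Fin n) ℕ) (hd : ∀ i, F.degreeOf i ≤ d)
    (f : Fin n → Fin (d + 1)) :
    coeff (mf f) F ≤ eval₂ (RingHom.id ℕ) (fun _ : Fin n => 1) F := by
  rw [eval₂_box (RingHom.id ℕ) _ F hd]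
  have := Finset.single_le_sum (f := fun f : Fin n → Fin (d + 1) =>
    (RingHom.id ℕ) (coeff (mf f) F) * ∏ i, (1 : ℕ) ^ (f i : ℕ)) (fun _ _ => Nat.zero_le _)
    (Finset.mem_univ f)
  simpa using this

theorem cf_lt (F : MvPolynomial (Fin n) ℕ) (hd : ∀ i, F.degreeOf i ≤ d) {C : ℕ}
    (hC : eval₂ (RingHom.id ℕ) (fun _ : Fin n => 1) F < C) (j : ℕ) : cf d F j < C := by
  unfold cf
  split_ifs with h
  · exact lt_of_le_of_lt (coeff_le_ones F hd _) hC
  · exact lt_of_le_of_lt (Nat.zero_le _) hC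

/-- Kronecker packing: one comparison of two packed natural numbers proves a coefficientwise
inequality, hence an inequality of the values at all nonnegative real points. -/
theorem kron_le {b : ℕ} (hb : 1 ≤ b) (F G : MvPolynomial (Fin n) ℕ)
    (hdF : ∀ i, F.degreeOf i ≤ d) (hdG : ∀ i, G.degreeOf i ≤ d)
    (hF : eval₂ (RingHom.id ℕ) (fun _ : Fin n => 1) F < 2 ^ (b - 1))
    (hG : eval₂ (RingHom.id ℕ) (fun _ : Fin n => 1) G < 2 ^ (b - 1))
    (hchk : Nat.land (eval₂ (RingHom.id ℕ) (fun i : Fin n => (2 ^ b) ^ ((d + 1) ^ (i : ℕ))) F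
        + 2 ^ (b - 1) * (((2 ^ b) ^ ((d + 1) ^ n) - 1) / (2 ^ b - 1))
        - eval₂ (RingHom.id ℕ) (fun i : Fin n => (2 ^ b) ^ ((d + 1) ^ (i : ℕ))) G)
      (2 ^ (b - 1) * (((2 ^ b) ^ ((d + 1) ^ n) - 1) / (2 ^ b - 1)))
      = 2 ^ (b - 1) * (((2 ^ b) ^ ((d + 1) ^ n) - 1) / (2 ^ b - 1)))
    (x : Fin n → ℝ) (hx : ∀ i, 0 ≤ x i) :
    eval₂ (Nat.castRingHom ℝ) x G ≤ eval₂ (Nat.castRingHom ℝ) x F := by
  rw [packed_eq _ F hdF, packed_eq _ G hdG] at hchk
  have key := guard_le hb _ (cf d F) (cf d G) (fun j _ => cf_lt F hdF hF j)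
    (fun j _ => cf_lt G hdG hG j) hchk
  rw [eval₂_box _ x F hdF, eval₂_box _ x G hdG]
  refine Finset.sum_le_sum fun f _ => ?_
  have h1 := key _ (finFunctionFinEquiv f).isLt
  rw [cf_apply, cf_apply] at h1
  refine mul_le_mul_of_nonneg_right ?_ (Finset.prod_nonneg fun i _ => pow_nonneg (hx i) _)
  simpa using (Nat.cast_le (α := ℝ)).2 h1

end Vale.Agent.P154Q
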