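import Mathlib

namespace Vale.Agent.P154Q

open Finset

theorem sum_range_shift (B M : ℕ) (e : ℕ → ℕ) :
    ∑ j ∈ range (M + 1), e j * B ^ j = e 0 + B * ∑ j ∈ range M, e (j + 1) * B ^ j := by
  rw [Finset.sum_range_succ', Finset.mul_sum, add_comm]
  congr 1
  · simp
  · refine Finset.sum_congr rfl fun j _ => ?_
    rw [pow_succ]
    ring

/-- digits of a packed number -/
theorem digit_sum {B : ℕ} (hB : 0 < B) : ∀ (i M : ℕ) (e : ℕ → ℕ), (∀ j < M, e j < B) → i < M →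
    (∑ j ∈ range M, e j * B ^ j) / B ^ i % B = e i := by
  intro i
  induction i with
  | zero =>
    intro M e he hi
    obtain ⟨M', rfl⟩ : ∃ M', M = M' + 1 := ⟨M - 1, by omega⟩
    rw [sum_range_shift, pow_zero, Nat.div_one, Nat.add_mul_mod_self_left,
      Nat.mod_eq_of_lt (he 0 hi)]
  | succ i ih =>
    intro M e he hi
    obtain ⟨M', rfl⟩ : ∃ M', M = M' + 1 := ⟨M - 1, by omega⟩
    rw [sum_range_shift, pow_succ', ← Nat.div_div_eq_div_mul, Nat.add_mul_div_left _ _ hB,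
      Nat.div_eq_of_lt (he 0 (by omega)), zero_add]
    exact ih M' (fun j => e (j + 1)) (fun j hj => he (j + 1) (by omega)) (by omega)

/-- the top bit of a digit -/
theorem top_bit {h : ℕ} (hh : 0 < h) (M : ℕ) (e : ℕ → ℕ) (he : ∀ j < M, e j < h * 2) {i : ℕ}
    (hi : i < M) :
    (∑ j ∈ range M, e j * (h * 2) ^ j) / ((h * 2) ^ i * h) % 2 = e i / h := by
  rw [← Nat.div_div_eq_div_mul, ← Nat.mod_mul_right_div_self,
    digit_sum (by positivity) i M e he hi]

/-- guard bit comparison of all digits at once -/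
theorem guard_le {b : ℕ} (hb : 1 ≤ b) (M : ℕ) (a c : ℕ → ℕ)
    (ha : ∀ j < M, a j < 2 ^ (b - 1)) (hc : ∀ j < M, c j < 2 ^ (b - 1))
    (hchk : Nat.land ((∑ j ∈ range M, a j * (2 ^ b) ^ j)
        + 2 ^ (b - 1) * (((2 ^ b) ^ M - 1) / (2 ^ b - 1)) - ∑ j ∈ range M, c j * (2 ^ b) ^ j)
      (2 ^ (b - 1) * (((2 ^ b) ^ M - 1) / (2 ^ b - 1)))
      = 2 ^ (b - 1) * (((2 ^ b) ^ M - 1) / (2 ^ b - 1))) :
    ∀ j < M, c j ≤ a j := by
  obtain ⟨h, hh⟩ : ∃ h, h = 2 ^ (b - 1) := ⟨_, rfl⟩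
  have hpos : 0 < h := by rw [hh]; positivity
  have hB : 2 ^ b = h * 2 := by
    rw [hh, ← pow_succ]
    congr 1
    omega
  have hB2 : 2 ≤ h * 2 := by omega
  rw [← hh, hB] at hchk
  rw [← hh] at ha hc
  have hH : h * (((h * 2) ^ M - 1) / (h * 2 - 1)) = ∑ j ∈ range M, h * (h * 2) ^ j := by
    rw [← Nat.geomSum_eq hB2, Finset.mul_sum]
  rw [hH] at hchk
  have hE : (∑ j ∈ range M, a j * (h * 2) ^ j) + (∑ j ∈ range M, h * (h * 2) ^ j)
      - ∑ j ∈ range M, c j * (h * 2) ^ j = ∑ j ∈ range M, (h + a j - c j) * (h * 2) ^ j := by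
    apply Nat.sub_eq_of_eq_add
    rw [← Finset.sum_add_distrib, ← Finset.sum_add_distrib]
    refine Finset.sum_congr rfl fun j hj => ?_
    have h1 := hc j (Finset.mem_range.1 hj)
    rw [← add_mul, ← add_mul]
    congr 1
    omega
  rw [hE] at hchk
  intro i hi
  have t1 : Nat.testBit (∑ j ∈ range M, h * (h * 2) ^ j) (b * i + (b - 1)) = true := by
    rw [Nat.testBit_eq_decide_div_mod_eq, decide_eq_true_eq, pow_add, pow_mul, hB, ← hh,
      top_bit hpos M (fun _ => h) (fun _ _ => by omega) hi, Nat.div_self hpos]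
  rw [← hchk] at t1
  have t1' : Nat.testBit ((∑ j ∈ range M, (h + a j - c j) * (h * 2) ^ j)
      &&& (∑ j ∈ range M, h * (h * 2) ^ j)) (b * i + (b - 1)) = true := t1
  rw [Nat.testBit_and, Bool.and_eq_true] at t1'
  have t2 := t1'.1
  rw [Nat.testBit_eq_decide_div_mod_eq, decide_eq_true_eq, pow_add, pow_mul, hB, ← hh,
    top_bit hpos M (fun j => h + a j - c j) (fun j hj => by
      have := ha j hj
      omega) hi] at t2
  have h3 : h ≤ h + a i - c i := by
    by_contra hlt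
    rw [Nat.div_eq_of_lt (not_le.1 hlt)] at t2
    exact absurd t2 (by norm_num)
  have := hc i hi
  omega

end Vale.Agent.P154Q
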