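import Vale.Agent.P154.Q.Family

namespace Vale.Agent.P154Q

open Finset

variable {q : ℕ} [hq : Fact (2 ≤ q)] {X Y : Type} [Fintype X] [Fintype Y]

omit hq in
theorem sum_sum_mul (w : X → ℝ) (w' : Y → ℝ) (F : X → ℝ) (G : Y → ℝ) :
    ∑ x, ∑ y, w x * w' y * (F x * G y) = (∑ x, w x * F x) * (∑ y, w' y * G y) := by
  rw [Finset.sum_mul_sum]
  refine Finset.sum_congr rfl fun x _ => Finset.sum_congr rfl fun y _ => ?_
  ring

/-- expectation of a function of two independent posteriors -/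
noncomputable def ExG (l : X → V q) (l' : Y → V q) (Ga : V q → V q → ℝ) : ℝ :=
  ∑ x, ∑ y, Zs (l x) / q * (Zs (l' y) / q) * Ga (nrm (l x)) (nrm (l' y))

variable {o g hh : V q → ℝ} {Ga : V q → V q → ℝ} {m₁ m₂ : ℕ}

theorem ExG_nonneg (D : ConeData q o g hh Ga m₁ m₂) {l : X → V q} {l' : Y → V q} (h : Good l)
    (h' : Good l') : 0 ≤ ExG l l' Ga :=
  Finset.sum_nonneg fun x _ => Finset.sum_nonneg fun y _ =>
    mul_nonneg (mul_nonneg (weight_pos h x).le (weight_pos h' y).le)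
      (D.Ga_nonneg _ _ (nrm_inSimplex (h.pos x)) (nrm_inSimplex (h'.pos y)))

theorem Ex_mfam_a_le (D : ConeData q o g hh Ga m₁ m₂) {l : X → V q} {l' : Y → V q} (h : Good l)
    (h' : Good l') :
    Ex (mfam l l') aF ≤ Ex l aF + Ex l' aF - Ex l o * Ex l' g - Ex l' o * Ex l g
      - ExG l l' Ga := by
  rw [Ex_mfam h h']
  have hb : ∀ x y, Zs (l x) / q * (Zs (l' y) / q) * avgM aF (nrm (l x)) (nrm (l' y)) ≤
      Zs (l x) / q * (Zs (l' y) / q) * (aF (nrm (l x)) * 1)
      + Zs (l x) / q * (Zs (l' y) / q) * (1 * aF (nrm (l' y)))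
      - Zs (l x) / q * (Zs (l' y) / q) * (o (nrm (l x)) * g (nrm (l' y)))
      - Zs (l x) / q * (Zs (l' y) / q) * (g (nrm (l x)) * o (nrm (l' y)))
      - Zs (l x) / q * (Zs (l' y) / q) * Ga (nrm (l x)) (nrm (l' y)) := by
    intro x y
    have h1 := D.j1 _ _ (nrm_inSimplex (h.pos x)) (nrm_inSimplex (h'.pos y))
    have h2 : 0 ≤ Zs (l x) / q * (Zs (l' y) / q) :=
      mul_nonneg (weight_pos h x).le (weight_pos h' y).le
    have h3 := mul_le_mul_of_nonneg_left h1 h2
    refine h3.trans (le_of_eq ?_)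
    ring
  refine (Finset.sum_le_sum fun x _ => Finset.sum_le_sum fun y _ => hb x y).trans (le_of_eq ?_)
  simp only [Finset.sum_sub_distrib, Finset.sum_add_distrib, sum_sum_mul]
  simp only [mul_one, sum_weights h, sum_weights h', one_mul]
  unfold Ex ExG
  ring

theorem le_Ex_mfam_o (D : ConeData q o g hh Ga m₁ m₂) {l : X → V q} {l' : Y → V q} (h : Good l)
    (h' : Good l') : Ex l o * Ex l' hh + Ex l' o * Ex l hh ≤ Ex (mfam l l') o := by
  rw [Ex_mfam h h']
  have hb : ∀ x y,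
      Zs (l x) / q * (Zs (l' y) / q) * (o (nrm (l x)) * hh (nrm (l' y)))
      + Zs (l x) / q * (Zs (l' y) / q) * (hh (nrm (l x)) * o (nrm (l' y))) ≤
      Zs (l x) / q * (Zs (l' y) / q) * avgM o (nrm (l x)) (nrm (l' y)) := by
    intro x y
    have h1 := D.j2 _ _ (nrm_inSimplex (h.pos x)) (nrm_inSimplex (h'.pos y))
    have h2 : 0 ≤ Zs (l x) / q * (Zs (l' y) / q) :=
      mul_nonneg (weight_pos h x).le (weight_pos h' y).le
    have h3 := mul_le_mul_of_nonneg_left h1 h2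
    refine le_trans (le_of_eq ?_) h3
    ring
  refine le_trans (le_of_eq ?_) (Finset.sum_le_sum fun x _ => Finset.sum_le_sum fun y _ => hb x y)
  simp only [Finset.sum_add_distrib, sum_sum_mul]
  unfold Ex
  ring

/-- merge of `k` possibly different families -/
def pwD {k : ℕ} {X : Fin k → Type} (l : (j : Fin k) → X j → V q) : ((j : Fin k) → X j) → V q :=
  fun c i => ∏ j, l j (c j) i

omit hq in
theorem sum_pwD_succ {k : ℕ} {X : Fin (k + 1) → Type} [∀ j, Fintype (X j)]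
    (l : (j : Fin (k + 1)) → X j → V q) (H : V q → ℝ) :
    ∑ c : (j : Fin (k + 1)) → X j, H (pwD l c) =
      ∑ z : X 0 × ((j : Fin k) → X j.succ), H (mfam (l 0) (pwD fun j => l j.succ) z) := by
  refine Fintype.sum_equiv (Fin.consEquiv X).symm _ _ ?_
  intro c
  congr 1
  funext i
  simp only [pwD, mfam, Fin.prod_univ_succ]
  rfl

omit hq in
theorem Ex_pwD_succ {k : ℕ} {X : Fin (k + 1) → Type} [∀ j, Fintype (X j)]
    (l : (j : Fin (k + 1)) → X j → V q) (f : V q → ℝ) :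
    Ex (pwD l) f = Ex (mfam (l 0) (pwD fun j => l j.succ)) f :=
  sum_pwD_succ l (fun u => Zs u / q * f (nrm u))

omit hq in
theorem sum_pwD_two {X : Fin 2 → Type} [∀ j, Fintype (X j)]
    (l : (j : Fin 2) → X j → V q) (H : V q → ℝ) :
    ∑ c : (j : Fin 2) → X j, H (pwD l c) = ∑ z : X 0 × X 1, H (mfam (l 0) (l 1) z) := by
  refine Fintype.sum_equiv (piFinTwoEquiv X) _ _ ?_
  intro c
  congr 1
  funext i
  simp only [pwD, mfam, Fin.prod_univ_two]
  rfl

omit hq in
theorem Ex_pwD_two {X : Fin 2 → Type} [∀ j, Fintype (X j)]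
    (l : (j : Fin 2) → X j → V q) (f : V q → ℝ) :
    Ex (pwD l) f = Ex (mfam (l 0) (l 1)) f :=
  sum_pwD_two l (fun u => Zs u / q * f (nrm u))

omit hq in
theorem good_pwD : ∀ {k : ℕ} {X : Fin k → Type} [∀ j, Fintype (X j)]
    {l : (j : Fin k) → X j → V q}, (∀ j, Good (l j)) → Good (pwD l)
  | 0, X, _, l, _ => {
      pos := fun c i => by simp [pwD]
      norm := fun i => by simp [pwD]
      symm := fun s H => by
        refine Finset.sum_congr rfl fun c _ => ?_
        congr 1 }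
  | k + 1, X, _, l, h => by
    have hk := good_mfam (h 0) (good_pwD (l := fun j => l j.succ) fun j => h j.succ)
    exact {
      pos := fun c i => Finset.prod_pos fun j _ => (h j).pos _ _
      norm := fun i => by
        rw [sum_pwD_succ l (fun u => u i)]
        exact hk.norm i
      symm := fun s H => by
        rw [sum_pwD_succ l (fun u => H (u ∘ s)), sum_pwD_succ l H]
        exact hk.symm s H }

theorem Ex_pwD_zero {X : Fin 0 → Type} [∀ j, Fintype (X j)]
    (l : (j : Fin 0) → X j → V q) (f : V q → ℝ) : Ex (pwD l) f = f (fun _ => 1 / q) := by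
  unfold Ex
  have h1 : ∀ c, pwD l c = fun _ => 1 := by
    intro c
    funext i
    simp [pwD]
  simp only [h1]
  have h2 : Zs (fun _ : Fin q => (1 : ℝ)) = q := by simp [Zs]
  have h3 : nrm (fun _ : Fin q => (1 : ℝ)) = fun _ => 1 / (q : ℝ) := by
    funext i
    simp only [nrm, h2]
  rw [h2, h3]
  simp [q_ne (q := q)]

omit hq in
theorem delta_closed (i : Fin q) : InClosed (fun j : Fin q => if i = j then (1 : ℝ) else 0) :=
  ⟨fun j => by
    show (0 : ℝ) ≤ if i = j then 1 else 0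
    split_ifs <;> norm_num, by simp⟩

theorem ConeData.unif (D : ConeData q o g hh Ga m₁ m₂) : 0 ≤ o (fun _ => 1 / q) := by
  obtain ⟨κ, hκ, h⟩ := D.chan 0 le_rfl (by norm_num)
  have i0 : Fin q := ⟨0, by have := hq.out; omega⟩
  have h1 := h _ (delta_closed i0)
  have e : chanP 0 (fun j : Fin q => if i0 = j then (1 : ℝ) else 0) = fun _ => 1 / (q : ℝ) := by
    funext i
    simp [chanP]
  rw [e] at h1
  exact le_trans (mul_nonneg hκ (D.delta i0)) h1

theorem Ex_pwD_o_nonneg (D : ConeData q o g hh Ga m₁ m₂) : ∀ {k : ℕ} {X : Fin k → Type}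
    [∀ j, Fintype (X j)] {l : (j : Fin k) → X j → V q}, (∀ j, Good (l j)) →
    (∀ j, 0 ≤ Ex (l j) o) → 0 ≤ Ex (pwD l) o
  | 0, X, _, l, _, _ => by rw [Ex_pwD_zero]; exact D.unif
  | k + 1, X, _, l, h, ho => by
    rw [Ex_pwD_succ]
    have hG := good_pwD (l := fun j => l j.succ) fun j => h j.succ
    refine le_trans ?_ (le_Ex_mfam_o D (h 0) hG)
    have h1 := Ex_pwD_o_nonneg D (l := fun j => l j.succ) (fun j => h j.succ) (fun j => ho j.succ)
    have h2 := Ex_nonneg (h 0) (f := hh) D.h_nonneg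
    have h3 := Ex_nonneg hG (f := hh) D.h_nonneg
    have h4 := ho 0
    positivity

theorem aF_unif : aF (fun _ : Fin q => 1 / (q : ℝ)) = 0 := by
  unfold aF
  have := q_ne (q := q)
  simp only [Finset.sum_const, Finset.card_univ, Fintype.card_fin, nsmul_eq_mul]
  have e : (q : ℝ) * (q * (1 / q) ^ 2) - 1 = 0 := by
    field_simp
    ring
  rw [e, zero_div]

theorem Ex_mfam_a_le' (D : ConeData q o g hh Ga m₁ m₂) {l : X → V q} {l' : Y → V q}
    (h : Good l) (h' : Good l') (ho : 0 ≤ Ex l o) (ho' : 0 ≤ Ex l' o) :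
    Ex (mfam l l') aF ≤ Ex l aF + Ex l' aF - ExG l l' Ga := by
  refine (Ex_mfam_a_le D h h').trans ?_
  have h2 := Ex_nonneg h (f := g) D.g_nonneg
  have h3 := Ex_nonneg h' (f := g) D.g_nonneg
  have h4 := mul_nonneg ho h3
  have h5 := mul_nonneg ho' h2
  linarith

theorem Ex_pwD_a_le (D : ConeData q o g hh Ga m₁ m₂) : ∀ {k : ℕ} {X : Fin k → Type}
    [∀ j, Fintype (X j)] {l : (j : Fin k) → X j → V q}, (∀ j, Good (l j)) →
    (∀ j, 0 ≤ Ex (l j) o) → Ex (pwD l) aF ≤ ∑ j, Ex (l j) aF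
  | 0, X, _, l, _, _ => by rw [Ex_pwD_zero, aF_unif]; simp
  | k + 1, X, _, l, h, ho => by
    rw [Ex_pwD_succ, Fin.sum_univ_succ]
    have hG := good_pwD (l := fun j => l j.succ) fun j => h j.succ
    have h0 := Ex_pwD_a_le D (l := fun j => l j.succ) (fun j => h j.succ) (fun j => ho j.succ)
    have h1 := Ex_pwD_o_nonneg D (l := fun j => l j.succ) (fun j => h j.succ) (fun j => ho j.succ)
    have h2 := Ex_mfam_a_le' D (h 0) hG (ho 0) h1
    have h3 := ExG_nonneg D (h 0) hG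
    linarith

theorem Ex_pwD_two_a_le (D : ConeData q o g hh Ga m₁ m₂) {X : Fin 2 → Type}
    [∀ j, Fintype (X j)] {l : (j : Fin 2) → X j → V q} (h : ∀ j, Good (l j))
    (ho : ∀ j, 0 ≤ Ex (l j) o) :
    Ex (pwD l) aF ≤ ∑ j, Ex (l j) aF - ExG (l 0) (l 1) Ga := by
  rw [Ex_pwD_two, Fin.sum_univ_two]
  exact Ex_mfam_a_le' D (h 0) (h 1) (ho 0) (ho 1)

/-- at least two families: subadditivity with a gain -/
theorem Ex_pwD_a_le_gain (D : ConeData q o g hh Ga m₁ m₂) {γ : ℝ} : ∀ {m : ℕ}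
    {X : Fin (m + 2) → Type} [∀ j, Fintype (X j)] {l : (j : Fin (m + 2)) → X j → V q},
    (∀ j, Good (l j)) → (∀ j, 0 ≤ Ex (l j) o) → (∀ i j, i ≠ j → γ ≤ ExG (l i) (l j) Ga) →
    Ex (pwD l) aF ≤ ∑ j, Ex (l j) aF - γ
  | 0, X, _, l, h, ho, hγ => by
    have h1 := Ex_pwD_two_a_le D h ho
    have h2 := hγ 0 1 (by decide)
    linarith
  | m + 1, X, _, l, h, ho, hγ => by
    rw [Ex_pwD_succ, Fin.sum_univ_succ]
    have hG := good_pwD (l := fun j => l j.succ) fun j => h j.succ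
    have h0 := Ex_pwD_a_le_gain D (l := fun j => l j.succ) (fun j => h j.succ)
      (fun j => ho j.succ) (fun i j hij => hγ i.succ j.succ (fun e => hij (Fin.succ_injective _ e)))
    have h1 := Ex_pwD_o_nonneg D (l := fun j => l j.succ) (fun j => h j.succ) (fun j => ho j.succ)
    have h2 := Ex_mfam_a_le' D (h 0) hG (ho 0) h1
    have h3 := ExG_nonneg D (h 0) hG
    linarith

end Vale.Agent.P154Q
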