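import Vale.Agent.P154.Q.Common4

namespace Vale.Agent.P154Q

open Finset Equiv

/-- monomial symmetric sums over all relabelings -/
def Msym (β : Fin 4 → ℕ) (y : V 4) : ℝ := ∑ σ : Perm (Fin 4), ∏ i, y (σ i) ^ β i

theorem Msym_comp (β : Fin 4 → ℕ) (y : V 4) (τ : Perm (Fin 4)) : Msym β (y ∘ τ) = Msym β y := by
  unfold Msym
  refine Fintype.sum_equiv (Equiv.mulLeft τ) _ _ ?_
  intro σ
  rfl

theorem Msym_smul (β : Fin 4 → ℕ) (c : ℝ) (y : V 4) :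
    Msym β (fun i => c * y i) = c ^ (∑ i, β i) * Msym β y := by
  unfold Msym
  rw [Finset.mul_sum]
  refine Finset.sum_congr rfl fun σ _ => ?_
  simp only [mul_pow]
  rw [Finset.prod_mul_distrib, Finset.prod_pow_eq_pow_sum]

/-- the sum over relabelings of a monomial symmetric sum of the entrywise product factorises -/
theorem sum_Msym_yv (β : Fin 4 → ℕ) (p r : V 4) :
    ∑ s : Perm (Fin 4), Msym β (yv p (r ∘ s)) = Msym β p * Msym β r := by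
  unfold Msym yv
  rw [Finset.sum_comm, Finset.sum_mul]
  refine Finset.sum_congr rfl fun σ _ => ?_
  rw [Finset.mul_sum]
  refine Fintype.sum_equiv (Equiv.mulRight σ) _ _ ?_
  intro s
  simp only [mul_pow, Function.comp]
  rw [Finset.prod_mul_distrib]
  rfl

theorem Msym_explicit (β : Fin 4 → ℕ) (y : V 4) :
    Msym β y =
      y 0 ^ β 0 * y 1 ^ β 1 * y 2 ^ β 2 * y 3 ^ β 3 +
      y 0 ^ β 0 * y 1 ^ β 1 * y 3 ^ β 2 * y 2 ^ β 3 +
      y 0 ^ β 0 * y 2 ^ β 1 * y 1 ^ β 2 * y 3 ^ β 3 +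
      y 0 ^ β 0 * y 2 ^ β 1 * y 3 ^ β 2 * y 1 ^ β 3 +
      y 0 ^ β 0 * y 3 ^ β 1 * y 1 ^ β 2 * y 2 ^ β 3 +
      y 0 ^ β 0 * y 3 ^ β 1 * y 2 ^ β 2 * y 1 ^ β 3 +
      y 1 ^ β 0 * y 0 ^ β 1 * y 2 ^ β 2 * y 3 ^ β 3 +
      y 1 ^ β 0 * y 0 ^ β 1 * y 3 ^ β 2 * y 2 ^ β 3 +
      y 1 ^ β 0 * y 2 ^ β 1 * y 0 ^ β 2 * y 3 ^ β 3 +
      y 1 ^ β 0 * y 2 ^ β 1 * y 3 ^ β 2 * y 0 ^ β 3 +
      y 1 ^ β 0 * y 3 ^ β 1 * y 0 ^ β 2 * y 2 ^ β 3 +
      y 1 ^ β 0 * y 3 ^ β 1 * y 2 ^ β 2 * y 0 ^ β 3 +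
      y 2 ^ β 0 * y 0 ^ β 1 * y 1 ^ β 2 * y 3 ^ β 3 +
      y 2 ^ β 0 * y 0 ^ β 1 * y 3 ^ β 2 * y 1 ^ β 3 +
      y 2 ^ β 0 * y 1 ^ β 1 * y 0 ^ β 2 * y 3 ^ β 3 +
      y 2 ^ β 0 * y 1 ^ β 1 * y 3 ^ β 2 * y 0 ^ β 3 +
      y 2 ^ β 0 * y 3 ^ β 1 * y 0 ^ β 2 * y 1 ^ β 3 +
      y 2 ^ β 0 * y 3 ^ β 1 * y 1 ^ β 2 * y 0 ^ β 3 +
      y 3 ^ β 0 * y 0 ^ β 1 * y 1 ^ β 2 * y 2 ^ β 3 +
      y 3 ^ β 0 * y 0 ^ β 1 * y 2 ^ β 2 * y 1 ^ β 3 +
      y 3 ^ β 0 * y 1 ^ β 1 * y 0 ^ β 2 * y 2 ^ β 3 +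
      y 3 ^ β 0 * y 1 ^ β 1 * y 2 ^ β 2 * y 0 ^ β 3 +
      y 3 ^ β 0 * y 2 ^ β 1 * y 0 ^ β 2 * y 1 ^ β 3 +
      y 3 ^ β 0 * y 2 ^ β 1 * y 1 ^ β 2 * y 0 ^ β 3 := by
  unfold Msym
  simp only [Fin.prod_univ_four]
  exact sum_perm4 y (fun a b c d => a ^ β 0 * b ^ β 1 * c ^ β 2 * d ^ β 3)

/-- every vector can be sorted in decreasing order -/
theorem exists_sort4 (p : V 4) : ∃ σ : Perm (Fin 4),
    p (σ 3) ≤ p (σ 2) ∧ p (σ 2) ≤ p (σ 1) ∧ p (σ 1) ≤ p (σ 0) := by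
  have hm := Tuple.monotone_sort p
  refine ⟨Fin.revPerm.trans (Tuple.sort p), ?_, ?_, ?_⟩
  · exact hm (by decide : (Fin.rev 3 : Fin 4) ≤ Fin.rev 2)
  · exact hm (by decide : (Fin.rev 2 : Fin 4) ≤ Fin.rev 1)
  · exact hm (by decide : (Fin.rev 1 : Fin 4) ≤ Fin.rev 0)

theorem sorted_simplex {p : V 4} (hp : InSimplex p) : ∃ (σ : Perm (Fin 4)) (s x y z : ℝ),
    0 < s ∧ 0 ≤ x ∧ 0 ≤ y ∧ 0 ≤ z ∧ s * (4 + 3 * x + 2 * y + z) = 1 ∧
    p ∘ σ = fun i => s * (![1 + x + y + z, 1 + x + y, 1 + x, 1] : V 4) i := by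
  obtain ⟨σ, h32, h21, h10⟩ := exists_sort4 p
  have hs : 0 < p (σ 3) := hp.1 _
  have hsum : p (σ 0) + p (σ 1) + p (σ 2) + p (σ 3) = 1 := by
    have := Equiv.sum_comp σ p
    rw [hp.2, Fin.sum_univ_four] at this
    exact this
  refine ⟨σ, p (σ 3), (p (σ 2) - p (σ 3)) / p (σ 3), (p (σ 1) - p (σ 2)) / p (σ 3),
    (p (σ 0) - p (σ 1)) / p (σ 3), hs, div_nonneg (by linarith) hs.le,
    div_nonneg (by linarith) hs.le, div_nonneg (by linarith) hs.le, ?_, ?_⟩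
  · field_simp
    linarith
  · funext i
    fin_cases i
    · show p (σ 0) = _
      simp only [Fin.zero_eta, Matrix.cons_val_zero]
      field_simp
      ring
    · show p (σ 1) = _
      simp only [Fin.mk_one, Matrix.cons_val_one, Matrix.cons_val_zero]
      field_simp
      ring
    · show p (σ 2) = _
      simp only [Fin.reduceFinMk, Matrix.cons_val]
      field_simp
      ring
    · show p (σ 3) = _
      simp only [Fin.reduceFinMk, Matrix.cons_val]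
      ring

theorem sorted_child {r : V 4} (hr : InChild (5 / 7) r) : ∃ (σ : Perm (Fin 4)) (t x y z : ℝ),
    0 < t ∧ 0 ≤ x ∧ 0 ≤ y ∧ 0 ≤ z ∧ t * (56 + 42 * x + 28 * y + 14 * z) = 1 ∧
    r ∘ σ = fun i => t * (![14 + 13 * x + 12 * y + 11 * z, 14 + 13 * x + 12 * y + z,
      14 + 13 * x + 2 * y + z, 14 + 3 * x + 2 * y + z] : V 4) i := by
  obtain ⟨σ, h32, h21, h10⟩ := exists_sort4 r
  have h3 : 1 / 14 < r (σ 3) := by
    have := hr.1 (σ 3)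
    norm_num at this
    linarith
  have hsum : r (σ 0) + r (σ 1) + r (σ 2) + r (σ 3) = 1 := by
    have := Equiv.sum_comp σ r
    rw [hr.2, Fin.sum_univ_four] at this
    exact this
  have ht : 0 < (14 * r (σ 3) - 1) / 140 := by
    apply div_pos _ (by norm_num)
    linarith
  obtain ⟨t, htd⟩ : ∃ t, t = (14 * r (σ 3) - 1) / 140 := ⟨_, rfl⟩
  rw [← htd] at ht
  have e3 : r (σ 3) = (140 * t + 1) / 14 := by rw [htd]; ring
  refine ⟨σ, t, (r (σ 2) - r (σ 3)) / (10 * t), (r (σ 1) - r (σ 2)) / (10 * t),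
    (r (σ 0) - r (σ 1)) / (10 * t), ht, div_nonneg (by linarith) (by positivity),
    div_nonneg (by linarith) (by positivity), div_nonneg (by linarith) (by positivity), ?_, ?_⟩
  · field_simp
    nlinarith
  · funext i
    fin_cases i
    · show r (σ 0) = _
      simp only [Fin.zero_eta, Matrix.cons_val_zero]
      field_simp
      nlinarith
    · show r (σ 1) = _
      simp only [Fin.mk_one, Matrix.cons_val_one, Matrix.cons_val_zero]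
      field_simp
      nlinarith
    · show r (σ 2) = _
      simp only [Fin.reduceFinMk, Matrix.cons_val]
      field_simp
      nlinarith
    · show r (σ 3) = _
      simp only [Fin.reduceFinMk, Matrix.cons_val]
      field_simp
      nlinarith

end Vale.Agent.P154Q
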