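import Vale.Agent.P154.Q.Alg

namespace Vale.Agent.P154Q

open Finset

variable {q : ℕ} [hq : Fact (2 ≤ q)]

theorem q_pos : (0 : ℝ) < q := by
  have := hq.out
  positivity

theorem q_ne : (q : ℝ) ≠ 0 := (q_pos (q := q)).ne'

theorem q_sub_pos : (0 : ℝ) < (q : ℝ) - 1 := by
  have h : (2 : ℝ) ≤ q := by exact_mod_cast hq.out
  linarith

theorem aF_nonneg' {p : V q} (hs : ∑ i, p i = 1) : 0 ≤ aF p := by
  unfold aF
  apply div_nonneg _ (q_sub_pos (q := q)).le
  have h := sq_sum_le_card_mul_sum_sq (s := (Finset.univ : Finset (Fin q))) (f := p)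
  rw [hs, Finset.card_univ, Fintype.card_fin] at h
  linarith

theorem aF_le_one' {p : V q} (h : InClosed p) : aF p ≤ 1 := by
  unfold aF
  rw [div_le_one (q_sub_pos (q := q))]
  have h1 : ∀ i, p i ≤ 1 := by
    intro i
    rw [← h.2]
    exact Finset.single_le_sum (fun j _ => h.1 j) (Finset.mem_univ i)
  have h2 : ∑ i, p i ^ 2 ≤ ∑ i, p i := Finset.sum_le_sum fun i _ => by
    nlinarith [h.1 i, h1 i]
  rw [h.2] at h2
  have := mul_le_mul_of_nonneg_left h2 (q_pos (q := q)).le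
  linarith

theorem sum_chanP (lam : ℝ) {p : V q} (hs : ∑ i, p i = 1) : ∑ i, chanP lam p i = 1 := by
  unfold chanP
  rw [Finset.sum_add_distrib, ← Finset.mul_sum, hs]
  simp only [Finset.sum_const, Finset.card_univ, Fintype.card_fin, nsmul_eq_mul]
  have := q_ne (q := q)
  field_simp
  ring

theorem aF_chanP (lam : ℝ) {p : V q} (hs : ∑ i, p i = 1) : aF (chanP lam p) = lam ^ 2 * aF p := by
  unfold aF chanP
  have e : ∑ i, (lam * p i + (1 - lam) / q) ^ 2 =
      lam ^ 2 * ∑ i, p i ^ 2 + 2 * lam * ((1 - lam) / q) * ∑ i, p i + q * ((1 - lam) / q) ^ 2 := by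
    rw [Finset.mul_sum, Finset.mul_sum, ← Finset.sum_add_distrib]
    have : (q : ℝ) * ((1 - lam) / q) ^ 2 = ∑ _i : Fin q, ((1 - lam) / q) ^ 2 := by
      simp
    rw [this, ← Finset.sum_add_distrib]
    exact Finset.sum_congr rfl fun i _ => by ring
  rw [e, hs]
  have h1 := q_ne (q := q)
  have h2 := (q_sub_pos (q := q)).ne'
  field_simp
  ring

noncomputable def tvF (p : V q) : ℝ := (1 / 2) * ∑ i : Fin q, |p i - 1 / q|

theorem tv_sq_le {p : V q} (hs : ∑ i, p i = 1) : (tvF p) ^ 2 ≤ ((q : ℝ) - 1) / 4 * aF p := by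
  unfold tvF aF
  have h := sq_sum_le_card_mul_sum_sq (s := (Finset.univ : Finset (Fin q)))
    (f := fun i => |p i - 1 / q|)
  rw [Finset.card_univ, Fintype.card_fin] at h
  simp only [sq_abs] at h
  have e : ∑ i, (p i - 1 / (q : ℝ)) ^ 2 = ∑ i, p i ^ 2 - 1 / q := by
    have : ∀ i, (p i - 1 / (q : ℝ)) ^ 2 = p i ^ 2 - 2 / q * p i + (1 / q) ^ 2 := fun i => by ring
    simp only [this]
    rw [Finset.sum_add_distrib, Finset.sum_sub_distrib, ← Finset.mul_sum, hs]
    simp only [Finset.sum_const, Finset.card_univ, Fintype.card_fin, nsmul_eq_mul]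
    have := q_ne (q := q)
    field_simp
    ring
  rw [e] at h
  have h1 := q_ne (q := q)
  have h2 := (q_sub_pos (q := q)).ne'
  have e2 : ((q : ℝ) - 1) / 4 * ((q * ∑ i, p i ^ 2 - 1) / (q - 1)) =
      (1 / 4) * (q * (∑ i, p i ^ 2 - 1 / q)) := by
    field_simp
  rw [e2, mul_pow]
  nlinarith

omit hq in
theorem tvF_nonneg (p : V q) : 0 ≤ tvF p := by
  unfold tvF
  have : 0 ≤ ∑ i : Fin q, |p i - 1 / q| := Finset.sum_nonneg fun i _ => abs_nonneg _
  positivity

end Vale.Agent.P154Q
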