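import Vale.Agent.P154.Refl

namespace Vale.Agent.P154.Refl

abbrev P5 := List P4
abbrev P6 := List P5

def add5 : P5 → P5 → P5 := addL add4
def nn5 : P5 → Bool := nnL nn4
def add6 : P6 → P6 → P6 := addL add5
def nn6 : P6 → Bool := nnL nn5

noncomputable def ev5 (v x y z w : ℝ) : P5 → ℝ := evL (ev4 x y z w) v
noncomputable def ev6 (u v x y z w : ℝ) : P6 → ℝ := evL (ev5 v x y z w) u

variable {u v x y z w : ℝ}

theorem ev5_add (p q : P5) : ev5 v x y z w (add5 p q) = ev5 v x y z w p + ev5 v x y z w q :=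
  evL_addL ev4_add p q
theorem ev5_nonneg (hv : 0 ≤ v) (hx : 0 ≤ x) (hy : 0 ≤ y) (hz : 0 ≤ z) (hw : 0 ≤ w) (p : P5)
    (h : nn5 p = true) : 0 ≤ ev5 v x y z w p :=
  evL_nonneg (ev4_nonneg hx hy hz hw) hv p h
theorem ev6_add (p q : P6) :
    ev6 u v x y z w (add6 p q) = ev6 u v x y z w p + ev6 u v x y z w q :=
  evL_addL ev5_add p q
theorem ev6_nonneg (hu : 0 ≤ u) (hv : 0 ≤ v) (hx : 0 ≤ x) (hy : 0 ≤ y) (hz : 0 ≤ z) (hw : 0 ≤ w)
    (p : P6) (h : nn6 p = true) : 0 ≤ ev6 u v x y z w p :=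
  evL_nonneg (ev5_nonneg hv hx hy hz hw) hu p h

def smul3 (c : ℤ) : P3 → P3
  | [] => []
  | a :: p => smul2 c a :: smul3 c p

theorem ev3_smul3 (c : ℤ) : ∀ p : P3, ev3 y z w (smul3 c p) = c * ev3 y z w p
  | [] => by simp [smul3, ev3, evL]
  | a :: p => by
      have ih := ev3_smul3 c p
      simp only [ev3] at ih
      simp only [smul3, ev3, evL, ih, ev2_smul2]; ring

/-- outer product: the first polynomial supplies the inner three variables -/
def ou1 (q : P3) : P1 → P4
  | [] => []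
  | c :: p => smul3 c q :: ou1 q p
def ou2 (q : P3) : P2 → P5
  | [] => []
  | r :: p => ou1 q r :: ou2 q p
def ou3 (q : P3) : P3 → P6
  | [] => []
  | r :: p => ou2 q r :: ou3 q p

theorem ev4_ou1 (q : P3) : ∀ r : P1, ev4 x y z w (ou1 q r) = ev1 x r * ev3 y z w q
  | [] => by simp [ou1, ev4, ev1, evL]
  | c :: p => by
      have ih := ev4_ou1 q p
      simp only [ev4, ev1] at ih
      simp only [ou1, ev4, ev1, evL, ih, ev3_smul3]; ring
theorem ev5_ou2 (q : P3) : ∀ r : P2, ev5 v x y z w (ou2 q r) = ev2 v x r * ev3 y z w q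
  | [] => by simp [ou2, ev5, ev2, evL]
  | c :: p => by
      have ih := ev5_ou2 q p
      simp only [ev5, ev2] at ih
      simp only [ou2, ev5, ev2, evL, ih, ev4_ou1]; ring
theorem ev6_ou3 (q : P3) : ∀ r : P3, ev6 u v x y z w (ou3 q r) = ev3 u v x r * ev3 y z w q
  | [] => by simp [ou3, ev6, ev3, evL]
  | c :: p => by
      have ih := ev6_ou3 q p
      simp only [ev6, ev3] at ih
      simp only [ou3, ev6, ev3, evL, ih, ev5_ou2]; ring

def pow3 (p : P3) : ℕ → P3
  | 0 => [[[1]]]
  | n + 1 => mul3 p (pow3 p n)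
theorem ev3_pow (p : P3) (n : ℕ) : ev3 y z w (pow3 p n) = (ev3 y z w p) ^ n := by
  induction n with
  | zero => simp [pow3, ev3, ev2, ev1, evL]
  | succ n ih => simp [pow3, ev3_mul, ih]; ring

def lin3 : List ℤ → List P3 → P3
  | c :: cs, q :: qs => add3 (smul3 c q) (lin3 cs qs)
  | [], _ => []
  | _ :: _, [] => []

theorem ev3_lin3 : ∀ (cs : List ℤ) (qs : List P3),
    ev3 y z w (lin3 cs qs) = linR cs (qs.map (ev3 y z w))
  | c :: cs, q :: qs => by
      simp only [lin3, ev3_add, ev3_smul3, List.map_cons, linR, ev3_lin3 cs qs]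
  | [], _ => by simp [lin3, linR, ev3, evL]
  | _ :: _, [] => by simp [lin3, linR, ev3, evL]

/-- diagonal bilinear form -/
def diag6 : List ℤ → List P3 → List P3 → P6
  | c :: cs, p :: ps, q :: qs => add6 (ou3 (smul3 c q) p) (diag6 cs ps qs)
  | [], _, _ => []
  | _ :: _, [], _ => []
  | _ :: _, _ :: _, [] => []

noncomputable def diagR : List ℤ → List ℝ → List ℝ → ℝ
  | c :: cs, p :: ps, q :: qs => c * (p * q) + diagR cs ps qs
  | [], _, _ => 0
  | _ :: _, [], _ => 0
  | _ :: _, _ :: _, [] => 0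

theorem ev6_diag6 : ∀ (cs : List ℤ) (ps qs : List P3),
    ev6 u v x y z w (diag6 cs ps qs) = diagR cs (ps.map (ev3 u v x)) (qs.map (ev3 y z w))
  | c :: cs, p :: ps, q :: qs => by
      simp only [diag6, ev6_add, ev6_ou3, ev3_smul3, List.map_cons, diagR, ev6_diag6 cs ps qs]
      ring
  | [], _, _ => by simp [diag6, diagR, ev6, evL]
  | _ :: _, [], _ => by simp [diag6, diagR, ev6, evL]
  | _ :: _, _ :: _, [] => by simp [diag6, diagR, ev6, evL]

/-- sum of rank one bilinear forms -/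
def rk6 : List (List ℤ × List ℤ) → List P3 → List P3 → P6
  | t :: ts, ps, qs => add6 (ou3 (lin3 t.2 qs) (lin3 t.1 ps)) (rk6 ts ps qs)
  | [], _, _ => []

noncomputable def rkR : List (List ℤ × List ℤ) → List ℝ → List ℝ → ℝ
  | t :: ts, ps, qs => linR t.1 ps * linR t.2 qs + rkR ts ps qs
  | [], _, _ => 0

theorem ev6_rk6 : ∀ (ts : List (List ℤ × List ℤ)) (ps qs : List P3),
    ev6 u v x y z w (rk6 ts ps qs) = rkR ts (ps.map (ev3 u v x)) (qs.map (ev3 y z w))
  | t :: ts, ps, qs => by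
      simp only [rk6, ev6_add, ev6_ou3, ev3_lin3, rkR, ev6_rk6 ts ps qs]
  | [], _, _ => by simp [rk6, rkR, ev6, evL]

/-- scaling of the real bilinear forms -/
theorem linR_smul (k : ℝ) : ∀ (cs : List ℤ) (ps : List ℝ),
    linR cs (ps.map (fun t => k * t)) = k * linR cs ps
  | c :: cs, p :: ps => by
      simp only [List.map_cons, linR, linR_smul k cs ps]; ring
  | [], _ => by simp [linR]
  | _ :: _, [] => by simp [linR]

theorem diagR_smul (k l : ℝ) : ∀ (cs : List ℤ) (ps qs : List ℝ),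
    diagR cs (ps.map (fun t => k * t)) (qs.map (fun t => l * t)) = k * l * diagR cs ps qs
  | c :: cs, p :: ps, q :: qs => by
      simp only [List.map_cons, diagR, diagR_smul k l cs ps qs]; ring
  | [], _, _ => by simp [diagR]
  | _ :: _, [], _ => by simp [diagR]
  | _ :: _, _ :: _, [] => by simp [diagR]

theorem rkR_smul (k l : ℝ) : ∀ (ts : List (List ℤ × List ℤ)) (ps qs : List ℝ),
    rkR ts (ps.map (fun t => k * t)) (qs.map (fun t => l * t)) = k * l * rkR ts ps qs
  | t :: ts, ps, qs => by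
      simp only [rkR, linR_smul, rkR_smul k l ts ps qs]; ring
  | [], _, _ => by simp [rkR]

/-- zero test -/
def isz1 : P1 → Bool
  | [] => true
  | a :: p => decide (a = 0) && isz1 p
def isz2 : P2 → Bool
  | [] => true
  | a :: p => isz1 a && isz2 p
def isz3 : P3 → Bool
  | [] => true
  | a :: p => isz2 a && isz3 p
def isz4 : P4 → Bool
  | [] => true
  | a :: p => isz3 a && isz4 p

theorem ev1_isz : ∀ p : P1, isz1 p = true → ev1 w p = 0
  | [], _ => by simp [ev1, evL]
  | a :: p, h => by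
      simp only [isz1, Bool.and_eq_true, decide_eq_true_eq] at h
      have ih := ev1_isz p h.2
      simp only [ev1] at ih
      simp only [ev1, evL, ih, h.1]; simp
theorem ev2_isz : ∀ p : P2, isz2 p = true → ev2 z w p = 0
  | [], _ => by simp [ev2, evL]
  | a :: p, h => by
      simp only [isz2, Bool.and_eq_true] at h
      have ih := ev2_isz p h.2
      simp only [ev2] at ih
      simp only [ev2, evL, ih, ev1_isz a h.1]; simp
theorem ev3_isz : ∀ p : P3, isz3 p = true → ev3 y z w p = 0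
  | [], _ => by simp [ev3, evL]
  | a :: p, h => by
      simp only [isz3, Bool.and_eq_true] at h
      have ih := ev3_isz p h.2
      simp only [ev3] at ih
      simp only [ev3, evL, ih, ev2_isz a h.1]; simp
theorem ev4_isz : ∀ p : P4, isz4 p = true → ev4 x y z w p = 0
  | [], _ => by simp [ev4, evL]
  | a :: p, h => by
      simp only [isz4, Bool.and_eq_true] at h
      have ih := ev4_isz p h.2
      simp only [ev4] at ih
      simp only [ev4, evL, ih, ev3_isz a h.1]; simp

def smul4 (c : ℤ) : P4 → P4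
  | [] => []
  | a :: p => smul3 c a :: smul4 c p

theorem ev4_smul4 (c : ℤ) : ∀ p : P4, ev4 x y z w (smul4 c p) = c * ev4 x y z w p
  | [] => by simp [smul4, ev4, evL]
  | a :: p => by
      have ih := ev4_smul4 c p
      simp only [ev4] at ih
      simp only [smul4, ev4, evL, ih, ev3_smul3]; ring

def lin4 : List ℤ → List P4 → P4
  | c :: cs, q :: qs => add4 (smul4 c q) (lin4 cs qs)
  | [], _ => []
  | _ :: _, [] => []

theorem ev4_lin4 : ∀ (cs : List ℤ) (qs : List P4),
    ev4 x y z w (lin4 cs qs) = linR cs (qs.map (ev4 x y z w))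
  | c :: cs, q :: qs => by
      simp only [lin4, ev4_add, ev4_smul4, List.map_cons, linR, ev4_lin4 cs qs]
  | [], _ => by simp [lin4, linR, ev4, evL]
  | _ :: _, [] => by simp [lin4, linR, ev4, evL]

end Vale.Agent.P154.Refl
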