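import Vale.Agent.P154.Q.Defs
import Vale.Agent.P154.Q.Merge

namespace Vale.Agent.P154Q

open Finset

variable {q : ℕ} [hq : Fact (2 ≤ q)] {X Y : Type} [Fintype X] [Fintype Y]

structure Good0 (l : X → V q) : Prop where
  nonneg : ∀ x i, 0 ≤ l x i
  zpos : ∀ x, 0 < Zs (l x)
  norm : ∀ i, ∑ x, l x i = 1
  symm : ∀ (g : Equiv.Perm (Fin q)) (H : V q → ℝ), ∑ x, H (l x ∘ g) = ∑ x, H (l x)

theorem Good.good0 {l : X → V q} (h : Good l) : Good0 l :=
  ⟨fun x i => (h.pos x i).le, fun x => Zs_pos (h.pos x), h.norm, h.symm⟩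

noncomputable def chanV (lam : ℝ) (u : V q) : V q := fun i => ∑ j, chan q lam i j * u j

omit hq in
theorem chanV_apply (lam : ℝ) (u : V q) (i : Fin q) :
    chanV lam u i = lam * u i + (1 - lam) / q * Zs u := by
  unfold chanV chan Zs
  simp only [add_mul, Finset.sum_add_distrib, ← Finset.mul_sum, mul_assoc]
  simp

theorem Zs_chanV (lam : ℝ) (u : V q) : Zs (chanV lam u) = Zs u := by
  have : Zs (chanV lam u) = ∑ i, (lam * u i + (1 - lam) / q * Zs u) := by
    unfold Zs
    exact Finset.sum_congr rfl fun i _ => chanV_apply lam u i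
  rw [this, Finset.sum_add_distrib, ← Finset.mul_sum]
  simp only [Finset.sum_const, Finset.card_univ, Fintype.card_fin, nsmul_eq_mul]
  have := q_ne (q := q)
  unfold Zs
  field_simp
  ring

omit hq in
theorem chanV_comp (lam : ℝ) (u : V q) (g : Equiv.Perm (Fin q)) :
    chanV lam u ∘ g = chanV lam (u ∘ g) := by
  funext i
  simp only [Function.comp, chanV_apply, Zs_comp]

theorem nrm_chanV (lam : ℝ) {u : V q} (hu : 0 < Zs u) :
    nrm (chanV lam u) = chanP lam (nrm u) := by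
  funext i
  simp only [nrm, chanP, Zs_chanV, chanV_apply]
  field_simp

theorem good_chan {l : X → V q} (h : Good0 l) {lam : ℝ} (h0 : 0 ≤ lam) (h1 : lam < 1) :
    Good (fun x => chanV lam (l x)) where
  pos := fun x i => by
    rw [chanV_apply]
    have := h.zpos x
    have h2 := h.nonneg x i
    have h3 : 0 < (1 - lam) / q * Zs (l x) := by
      apply mul_pos _ this
      exact div_pos (by linarith) q_pos
    have h4 := mul_nonneg h0 h2
    linarith
  norm := fun i => by
    simp only [chanV_apply, Finset.sum_add_distrib, ← Finset.mul_sum, h.norm]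
    unfold Zs
    rw [Finset.sum_comm]
    simp only [h.norm]
    simp only [Finset.sum_const, Finset.card_univ, Fintype.card_fin, nsmul_eq_mul, mul_one]
    have := q_ne (q := q)
    field_simp
    ring
  symm := fun g H => by
    simp only [chanV_comp]
    exact h.symm g (fun u => H (chanV lam u))

omit hq in
theorem nrm_sum {u : V q} (hu : 0 < Zs u) : ∑ i, nrm u i = 1 := by
  unfold nrm
  rw [← Finset.sum_div]
  exact div_self hu.ne'

omit hq in
theorem nrm_closed {l : X → V q} (h : Good0 l) (x : X) : InClosed (nrm (l x)) :=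
  ⟨fun i => div_nonneg (h.nonneg x i) (h.zpos x).le, nrm_sum (h.zpos x)⟩

theorem weight_nonneg {l : X → V q} (h : Good0 l) (x : X) : 0 ≤ Zs (l x) / q :=
  (div_pos (h.zpos x) q_pos).le

theorem Ex_chan_a {l : X → V q} (h : Good0 l) (lam : ℝ) :
    Ex (fun x => chanV lam (l x)) aF = lam ^ 2 * Ex l aF := by
  unfold Ex
  rw [Finset.mul_sum]
  refine Finset.sum_congr rfl fun x _ => ?_
  rw [Zs_chanV, nrm_chanV lam (h.zpos x), aF_chanP lam (nrm_sum (h.zpos x))]
  ring

theorem Ex_chan_o {o : V q → ℝ} {l : X → V q} (h : Good0 l) {lam κ : ℝ}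
    (hch : ∀ p : V q, InClosed p → κ * o p ≤ o (chanP lam p)) :
    κ * Ex l o ≤ Ex (fun x => chanV lam (l x)) o := by
  unfold Ex
  rw [Finset.mul_sum]
  refine Finset.sum_le_sum fun x _ => ?_
  rw [Zs_chanV, nrm_chanV lam (h.zpos x)]
  have h4 := mul_le_mul_of_nonneg_left (hch _ (nrm_closed h x)) (weight_nonneg h x)
  linarith

theorem Ex_a_nonneg {l : X → V q} (h : Good0 l) : 0 ≤ Ex l aF :=
  Finset.sum_nonneg fun x _ => mul_nonneg (weight_nonneg h x) (aF_nonneg' (nrm_sum (h.zpos x)))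

theorem Ex_a_le_one {l : X → V q} (h : Good0 l) : Ex l aF ≤ 1 := by
  rw [← sum_weights_of_norm h.norm]
  refine Finset.sum_le_sum fun x _ => ?_
  exact mul_le_of_le_one_right (weight_nonneg h x) (aF_le_one' (nrm_closed h x))

/-- Jensen for powers -/
theorem pow_Ex_le {l : X → V q} (h : Good0 l) (m : ℕ) :
    (Ex l aF) ^ m ≤ Ex l (fun p => aF p ^ m) :=
  Real.pow_arith_mean_le_arith_mean_pow Finset.univ (fun x => Zs (l x) / q)
    (fun x => aF (nrm (l x))) (fun x _ => weight_nonneg h x) (sum_weights_of_norm h.norm)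
    (fun x _ => aF_nonneg' (nrm_sum (h.zpos x))) m

theorem ExG_chan_ge {Ga : V q → V q → ℝ} {m₁ m₂ : ℕ} {l : X → V q} {l' : Y → V q}
    (h : Good0 l) (h' : Good0 l') {lam κ : ℝ} (hκ : 0 ≤ κ)
    (hg : ∀ p r : V q, InClosed p → InClosed r →
      κ * (aF p ^ m₁ * aF r ^ m₂) ≤ Ga (chanP lam p) (chanP lam r)) :
    κ * ((Ex l aF) ^ m₁ * (Ex l' aF) ^ m₂) ≤
      ExG (fun x => chanV lam (l x)) (fun y => chanV lam (l' y)) Ga := by
  have h1 : κ * (Ex l (fun p => aF p ^ m₁) * Ex l' (fun p => aF p ^ m₂)) ≤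
      ExG (fun x => chanV lam (l x)) (fun y => chanV lam (l' y)) Ga := by
    unfold ExG Ex
    rw [← sum_sum_mul, Finset.mul_sum]
    refine Finset.sum_le_sum fun x _ => ?_
    rw [Finset.mul_sum]
    refine Finset.sum_le_sum fun y _ => ?_
    rw [Zs_chanV, Zs_chanV, nrm_chanV lam (h.zpos x), nrm_chanV lam (h'.zpos y)]
    have hw := mul_nonneg (weight_nonneg h x) (weight_nonneg h' y)
    have := mul_le_mul_of_nonneg_left (hg _ _ (nrm_closed h x) (nrm_closed h' y)) hw
    linarith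
  refine le_trans ?_ h1
  refine mul_le_mul_of_nonneg_left ?_ hκ
  exact mul_le_mul (pow_Ex_le h m₁) (pow_Ex_le h' m₂) (pow_nonneg (Ex_a_nonneg h') _)
    (le_trans (pow_nonneg (Ex_a_nonneg h) _) (pow_Ex_le h m₁))

/-- the family of a single observed spin -/
def lk0 (q : ℕ) : Fin q → V q := fun x i => if x = i then 1 else 0

omit hq in
theorem Zs_lk0 (x : Fin q) : Zs (lk0 q x) = 1 := by simp [Zs, lk0]

omit hq in
theorem nrm_lk0 (x : Fin q) : nrm (lk0 q x) = lk0 q x := by
  funext i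
  simp only [nrm, Zs_lk0, div_one]

omit hq in
theorem good0_zero : Good0 (lk0 q) where
  nonneg := fun x i => by
    show 0 ≤ (if x = i then (1 : ℝ) else 0)
    split_ifs <;> norm_num
  zpos := fun x => by rw [Zs_lk0]; exact one_pos
  norm := fun i => by simp [lk0]
  symm := fun g H => by
    refine Fintype.sum_equiv g.symm _ _ ?_
    intro x
    congr 1
    funext i
    simp only [Function.comp, lk0]
    congr 1
    rw [eq_iff_iff]
    exact ⟨fun h => by rw [h]; simp, fun h => by rw [← h]; simp⟩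

theorem Ex_zero_o {o : V q → ℝ} (ho : ∀ i : Fin q, 0 ≤ o (fun j => if i = j then 1 else 0)) :
    0 ≤ Ex (lk0 q) o := by
  unfold Ex
  refine Finset.sum_nonneg fun x _ => ?_
  rw [nrm_lk0, Zs_lk0]
  exact mul_nonneg (div_pos one_pos q_pos).le (ho x)

theorem sq_Ex_le {l : X → V q} (h : Good0 l) (f : V q → ℝ) :
    (Ex l f) ^ 2 ≤ Ex l (fun p => (f p) ^ 2) := by
  have hw := sum_weights_of_norm h.norm
  obtain ⟨t, ht⟩ : ∃ t, t = Ex l f := ⟨_, rfl⟩
  have h1 : 0 ≤ ∑ x, Zs (l x) / q * (f (nrm (l x)) - t) ^ 2 :=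
    Finset.sum_nonneg fun x _ => mul_nonneg (weight_nonneg h x) (sq_nonneg _)
  have h2 : ∑ x, Zs (l x) / q * (f (nrm (l x)) - t) ^ 2 =
      Ex l (fun p => (f p) ^ 2) - 2 * t * Ex l f + t ^ 2 * ∑ x, Zs (l x) / q := by
    unfold Ex
    rw [Finset.mul_sum, Finset.mul_sum, ← Finset.sum_sub_distrib, ← Finset.sum_add_distrib]
    refine Finset.sum_congr rfl fun x _ => ?_
    ring
  rw [h2, hw, ← ht] at h1
  rw [← ht]
  nlinarith

theorem sq_Ex_tv_le {l : X → V q} (h : Good0 l) :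
    (Ex l tvF) ^ 2 ≤ ((q : ℝ) - 1) / 4 * Ex l aF := by
  refine (sq_Ex_le h tvF).trans ?_
  unfold Ex
  rw [Finset.mul_sum]
  refine Finset.sum_le_sum fun x _ => ?_
  have := mul_le_mul_of_nonneg_left (tv_sq_le (nrm_sum (h.zpos x))) (weight_nonneg h x)
  linarith

theorem Ex_tv_nonneg {l : X → V q} (h : Good0 l) : 0 ≤ Ex l tvF :=
  Finset.sum_nonneg fun x _ => mul_nonneg (weight_nonneg h x) (tvF_nonneg _)

end Vale.Agent.P154Q
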